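import Vale.Agent.P028EV.Defs

/-!
Module COUNT: geometry of numbers.

Put `η₀ = |B γ - A| ≤ η`, `κ = B δ + Z η₀`.  Choose for each `h ∈ T` a `t(h)`; the integer
`k(h) = h A + t(h) B = B (t + γ h) - h (B γ - A)` is nonzero and `|k| ≤ κ`, so it takes at most
`2 κ` values.  Two `h, h'` with the same `k`: `B (t' - t) = -(h' - h) A`, so `h' = h + j B`,
`t' = t - j A` (`A, B` coprime), `|j| B ≤ 2 Z` and `|j| η₀ = |(t'+γh') - (t+γh)| ≤ 2 δ`.
So each fibre has at most `1 + J` elements for every real `J` with: all such `|j| ≤ J`.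
If `Z η₀ ≤ B δ` take `J = 2Z/B`: `|T| ≤ 2κ (1 + 2Z/B) ≤ 2κ + 4 (2 B δ) Z / B = 2κ + 8 Z δ`.
If `B δ < Z η₀` (so `η₀ > 0`) take `J = 2δ/η₀`: `|T| ≤ 2κ + 4 (2 Z η₀) δ/η₀ = 2κ + 8 Z δ`.
-/

namespace Vale.Agent.P028EV

open Finset MeasureTheory

theorem COUNT_nonzero (κ : ℝ) (hκ : 0 ≤ κ) (S : Finset ℤ)
    (hS : ∀ k ∈ S, k ≠ 0 ∧ |(k : ℝ)| ≤ κ) : (S.card : ℝ) ≤ 2 * κ := by
  have hsub : S ⊆ (Finset.Icc (-⌊κ⌋) ⌊κ⌋).erase 0 := by
    intro k hk
    obtain ⟨h1, h2⟩ := hS k hk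
    rw [abs_le] at h2
    rw [Finset.mem_erase, Finset.mem_Icc]
    refine ⟨h1, ?_, Int.le_floor.2 h2.2⟩
    have : -k ≤ ⌊κ⌋ := Int.le_floor.2 (by push_cast; linarith)
    omega
  have hf : 0 ≤ ⌊κ⌋ := Int.floor_nonneg.2 hκ
  have hc := Finset.card_le_card hsub
  rw [Finset.card_erase_of_mem (by rw [Finset.mem_Icc]; omega), Int.card_Icc] at hc
  have h3 : (S.card : ℤ) ≤ 2 * ⌊κ⌋ := by omega
  have h4 : ((S.card : ℤ) : ℝ) ≤ 2 * (⌊κ⌋ : ℝ) := by exact_mod_cast h3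
  have h5 := Int.floor_le κ
  push_cast at h4
  linarith

theorem COUNT_fibre (F : Finset ℤ) (B : ℕ) (hB : 0 < B) (J : ℝ) (hJ : 0 ≤ J)
    (hF : ∀ h ∈ F, ∀ h' ∈ F, ∃ j : ℤ, h' - h = j * B ∧ |(j : ℝ)| ≤ J) :
    (F.card : ℝ) ≤ 1 + J := by
  rcases F.eq_empty_or_nonempty with rfl | hne
  · simp; linarith
  have hBz : (0 : ℤ) < B := by exact_mod_cast hB
  set h0 := F.min' hne with hh0
  have hmem : h0 ∈ F := F.min'_mem hne
  have key : ∀ h ∈ F, ∃ j : ℤ, h - h0 = j * B ∧ 0 ≤ j ∧ j ≤ ⌊J⌋ := by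
    intro h hh
    obtain ⟨j, hj, hj2⟩ := hF h0 hmem h hh
    refine ⟨j, hj, ?_, Int.le_floor.2 ((le_abs_self _).trans hj2)⟩
    have h1 : h0 ≤ h := F.min'_le h hh
    by_contra hneg
    push Not at hneg
    have : j * (B : ℤ) < 0 := mul_neg_of_neg_of_pos hneg hBz
    omega
  have hcard : F.card ≤ (Finset.Icc (0 : ℤ) ⌊J⌋).card := by
    refine Finset.card_le_card_of_injOn (fun h => (h - h0) / B) ?_ ?_
    · intro h hh
      obtain ⟨j, hj, hj0, hj1⟩ := key h hh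
      simp only [hj]
      rw [Int.mul_ediv_cancel _ hBz.ne']
      simp only [Finset.coe_Icc, Set.mem_Icc]
      exact ⟨hj0, hj1⟩
    · intro h hh h' hh' he
      obtain ⟨j, hj, -, -⟩ := key h hh
      obtain ⟨j', hj', -, -⟩ := key h' hh'
      simp only [hj, hj'] at he
      rw [Int.mul_ediv_cancel _ hBz.ne', Int.mul_ediv_cancel _ hBz.ne'] at he
      subst he
      omega
  rw [Int.card_Icc] at hcard
  have hf : 0 ≤ ⌊J⌋ := Int.floor_nonneg.2 hJ
  have h3 : (F.card : ℤ) ≤ 1 + ⌊J⌋ := by omega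
  have h4 : ((F.card : ℤ) : ℝ) ≤ 1 + (⌊J⌋ : ℝ) := by exact_mod_cast h3
  have h5 := Int.floor_le J
  push_cast at h4
  linarith

theorem count_nd (A : ℤ) (B : ℕ) (hB : 0 < B) (hAB : IsCoprime A (B : ℤ)) (γ δ Z η : ℝ)
    (hη : |(B : ℝ) * γ - A| ≤ η) (hδ : 0 ≤ δ) (hZ : 0 ≤ Z) (T : Finset ℤ)
    (hT : ∀ h ∈ T, |(h : ℝ)| ≤ Z ∧
      ∃ t : ℤ, |(t : ℝ) + γ * h| < δ ∧ h * A + t * (B : ℤ) ≠ 0) :
    (T.card : ℝ) ≤ 2 * B * δ + 2 * Z * η + 8 * Z * δ := by
  classical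
  have hBr : (0 : ℝ) < B := by exact_mod_cast hB
  choose! hTZ t ht using hT
  set e : ℝ := |(B : ℝ) * γ - A| with he
  have he0 : 0 ≤ e := abs_nonneg _
  set κ : ℝ := B * δ + Z * e with hκ
  have hκ0 : 0 ≤ κ := by positivity
  set f : ℤ → ℤ := fun h => h * A + t h * (B : ℤ) with hf
  have hfb : ∀ h ∈ T, |((f h : ℤ) : ℝ)| ≤ κ := by
    intro h hh
    have h1 : ((f h : ℤ) : ℝ) = B * ((t h : ℝ) + γ * h) - h * ((B : ℝ) * γ - A) := by
      simp only [hf]; push_cast; ring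
    rw [h1]
    refine (abs_sub _ _).trans ?_
    rw [abs_mul, abs_mul, abs_of_pos hBr]
    have h2 := (ht h hh).1.le
    have h3 := hTZ h hh
    have h4 : (B : ℝ) * |(t h : ℝ) + γ * h| ≤ B * δ := mul_le_mul_of_nonneg_left h2 hBr.le
    have h5 : |(h : ℝ)| * |(B : ℝ) * γ - A| ≤ Z * e := mul_le_mul_of_nonneg_right h3 he0
    linarith
  have himg : ((T.image f).card : ℝ) ≤ 2 * κ := by
    refine COUNT_nonzero κ hκ0 _ ?_
    intro k hk
    obtain ⟨h, hh, rfl⟩ := Finset.mem_image.1 hk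
    exact ⟨(ht h hh).2, hfb h hh⟩
  have hpair : ∀ h ∈ T, ∀ h' ∈ T, f h = f h' → ∃ j : ℤ, h' - h = j * B ∧
      |(j : ℝ)| * B ≤ 2 * Z ∧ |(j : ℝ)| * e ≤ 2 * δ := by
    intro h hh h' hh' hff
    simp only [hf] at hff
    have h1 : (h' - h) * A = -(t h' - t h) * B := by linarith
    have h2 : (B : ℤ) ∣ (h' - h) * A := ⟨-(t h' - t h), by rw [h1]; ring⟩
    have h3 : (B : ℤ) ∣ (h' - h) := hAB.symm.dvd_of_dvd_mul_right h2
    obtain ⟨j, hj⟩ := h3
    refine ⟨j, by rw [hj]; ring, ?_, ?_⟩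
    · have h4 : ((h' - h : ℤ) : ℝ) = j * B := by rw [hj]; push_cast; ring
      have h5 : |(j : ℝ)| * B = |((h' - h : ℤ) : ℝ)| := by
        rw [h4, abs_mul, abs_of_pos hBr]
      rw [h5]
      push_cast
      refine (abs_sub _ _).trans ?_
      linarith [hTZ h hh, hTZ h' hh']
    · have hBz : (B : ℤ) ≠ 0 := by exact_mod_cast hB.ne'
      have h4 : t h' - t h = -(j * A) := by
        have : (B : ℤ) * (t h' - t h) = B * (-(j * A)) := by
          rw [hj] at h1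
          linarith
        exact mul_left_cancel₀ hBz this
      have h5 : |(j : ℝ)| * e = |((t h' : ℝ) + γ * h') - ((t h : ℝ) + γ * h)| := by
        rw [he, ← abs_mul]
        congr 1
        have h6 : ((t h' - t h : ℤ) : ℝ) = -(j * A) := by rw [h4]; push_cast; ring
        have h7 : ((h' - h : ℤ) : ℝ) = B * j := by rw [hj]; push_cast; ring
        push_cast at h6 h7
        have : (t h' : ℝ) + γ * h' - ((t h : ℝ) + γ * h) =
            (t h' - t h) + γ * (h' - h) := by ring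
        rw [this, h6, h7]
        ring
      rw [h5]
      refine (abs_sub _ _).trans ?_
      linarith [(ht h hh).1, (ht h' hh').1]
  have main : ∀ J : ℝ, 0 ≤ J → (∀ j : ℤ, |(j : ℝ)| * B ≤ 2 * Z → |(j : ℝ)| * e ≤ 2 * δ →
      |(j : ℝ)| ≤ J) → (T.card : ℝ) ≤ (1 + J) * (2 * κ) := by
    intro J hJ hJ2
    have h1 : ∀ k ∈ T.image f, ({x ∈ T | f x = k} : Finset ℤ).card ≤ ⌊1 + J⌋₊ := by
      intro k _
      rw [Nat.le_floor_iff (by linarith)]
      refine COUNT_fibre _ B hB J hJ ?_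
      intro h hh h' hh'
      rw [Finset.mem_filter] at hh hh'
      obtain ⟨j, hj1, hj2, hj3⟩ := hpair h hh.1 h' hh'.1 (hh.2.trans hh'.2.symm)
      exact ⟨j, hj1, hJ2 j hj2 hj3⟩
    have h2 := Finset.card_le_mul_card_image T ⌊1 + J⌋₊ h1
    have h3 : (T.card : ℝ) ≤ (⌊1 + J⌋₊ : ℝ) * ((T.image f).card : ℝ) := by exact_mod_cast h2
    refine h3.trans ?_
    exact mul_le_mul (Nat.floor_le (by linarith)) himg (by positivity) (by linarith)
  have hfin : (T.card : ℝ) ≤ 2 * κ + 8 * Z * δ := by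
    rcases le_or_gt (Z * e) (B * δ) with hc | hc
    · have h1 := main (2 * Z / B) (by positivity) (fun j hj _ => by
        rw [le_div_iff₀ hBr]; exact hj)
      refine h1.trans ?_
      have h2 : κ ≤ 2 * (B * δ) := by linarith
      have h3 : 2 * Z / B * κ ≤ 2 * Z / B * (2 * (B * δ)) :=
        mul_le_mul_of_nonneg_left h2 (by positivity)
      have h4 : 2 * Z / B * (2 * (B * δ)) = 4 * Z * δ := by
        field_simp
        ring
      nlinarith
    · have he1 : 0 < e := by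
        rcases he0.lt_or_eq with h | h
        · exact h
        · exfalso
          rw [← h, mul_zero] at hc
          have : 0 ≤ (B : ℝ) * δ := by positivity
          linarith
      have h1 := main (2 * δ / e) (by positivity) (fun j _ hj => by
        rw [le_div_iff₀ he1]; exact hj)
      refine h1.trans ?_
      have h2 : κ ≤ 2 * (Z * e) := by linarith
      have h3 : 2 * δ / e * κ ≤ 2 * δ / e * (2 * (Z * e)) :=
        mul_le_mul_of_nonneg_left h2 (by positivity)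
      have h4 : 2 * δ / e * (2 * (Z * e)) = 4 * Z * δ := by
        field_simp
        ring
      nlinarith
  have h5 : Z * e ≤ Z * η := mul_le_mul_of_nonneg_left hη hZ
  calc (T.card : ℝ) ≤ 2 * κ + 8 * Z * δ := hfin
    _ ≤ 2 * B * δ + 2 * Z * η + 8 * Z * δ := by rw [hκ]; linarith

end Vale.Agent.P028EV
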