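import Vale.Agent.P028EV.Defs

/-!
Module PHISUM: mean values of `exp (k Phi n)`.

`exp (k Phi n) = ∏_{p ∣ n} (1 + c_p)` with `c_p = exp (k p^{-1/64}) - 1 ≤ M_k p^{-1/64}`
(`e^x - 1 ≤ x e^x`).  Expand: `= ∑_{S ⊆ primeFactors n} ∏_S c_p`, so
`∑_{n ≤ x} ≤ ∑_{S ⊆ primes ≤ x} ∏_S c_p · #{n ≤ x : ∏_S p ∣ n} ≤ x ∏_{p ≤ x} (1 + c_p/p)
≤ x exp (M_k ∑_{n ≥ 1} n^{-65/64})`.
-/

namespace Vale.Agent.P028EV

open Finset MeasureTheory

/-- the local factor -/
noncomputable def phisum_c (k : ℕ) (p : ℕ) : ℝ := Real.exp (k * (p : ℝ) ^ (-(1 / 64) : ℝ)) - 1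

theorem phisum_c_nonneg (k p : ℕ) : 0 ≤ phisum_c k p := by
  unfold phisum_c
  have : (0 : ℝ) ≤ k * (p : ℝ) ^ (-(1 / 64) : ℝ) := by positivity
  have := Real.one_le_exp this
  linarith

theorem phisum_c_le (k p : ℕ) (hp : 1 ≤ p) :
    phisum_c k p / p ≤ (k * Real.exp k) * (p : ℝ) ^ (-(65 / 64) : ℝ) := by
  unfold phisum_c
  have hp' : (1 : ℝ) ≤ p := by exact_mod_cast hp
  have hp0 : (0 : ℝ) < p := by linarith
  have h1 : (p : ℝ) ^ (-(1 / 64) : ℝ) ≤ 1 := Real.rpow_le_one_of_one_le_of_nonpos hp' (by norm_num)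
  have h0 : (0 : ℝ) ≤ (p : ℝ) ^ (-(1 / 64) : ℝ) := by positivity
  have hk : (0 : ℝ) ≤ k := Nat.cast_nonneg k
  have h2 : (k : ℝ) * (p : ℝ) ^ (-(1 / 64) : ℝ) ≤ k := by nlinarith
  have h3 : Real.exp (k * (p : ℝ) ^ (-(1 / 64) : ℝ)) - 1 ≤
      (k * (p : ℝ) ^ (-(1 / 64) : ℝ)) * Real.exp k := by
    have h4 : (0 : ℝ) ≤ k * (p : ℝ) ^ (-(1 / 64) : ℝ) := by positivity
    generalize (k : ℝ) * (p : ℝ) ^ (-(1 / 64) : ℝ) = x at *
    have h5 := Real.add_one_le_exp (-x)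
    have h6 : Real.exp x * Real.exp (-x) = 1 := by rw [← Real.exp_add]; simp
    have h7 : Real.exp x * (-x + 1) ≤ 1 :=
      (mul_le_mul_of_nonneg_left h5 (Real.exp_pos x).le).trans h6.le
    have h8 : Real.exp x ≤ Real.exp k := Real.exp_le_exp.2 h2
    nlinarith [Real.exp_pos x]
  have h9 : (p : ℝ) ^ (-(65 / 64) : ℝ) = (p : ℝ) ^ (-(1 / 64) : ℝ) / p := by
    rw [show (-(65 / 64) : ℝ) = -(1 / 64) - 1 by norm_num, Real.rpow_sub_one hp0.ne']
  rw [h9, mul_div_assoc', div_le_div_iff_of_pos_right hp0]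
  calc _ ≤ _ := h3
    _ = _ := by ring

theorem phisum_exp (k n : ℕ) : Real.exp (k * Phi n) = ∏ p ∈ n.primeFactors, (1 + phisum_c k p) := by
  unfold Phi phisum_c
  rw [Finset.mul_sum, Real.exp_sum]
  refine Finset.prod_congr rfl fun p _ => ?_
  ring_nf

theorem phisum_dvd {S : Finset ℕ} {n : ℕ} (hn : n ≠ 0) (hS : ∀ p ∈ S, p.Prime) :
    S ⊆ n.primeFactors ↔ (∏ p ∈ S, p) ∣ n := by
  constructor
  · intro h
    refine Finset.prod_primes_dvd n (fun p hp => (hS p hp).prime) fun p hp => ?_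
    exact Nat.dvd_of_mem_primeFactors (h hp)
  · intro h p hp
    rw [Nat.mem_primeFactors]
    exact ⟨hS p hp, (Finset.dvd_prod_of_mem _ hp).trans h, hn⟩

theorem phisum_expand (k n N : ℕ) (hn : 1 ≤ n) (hnN : n ≤ N) :
    Real.exp (k * Phi n) = ∑ S ∈ ((Finset.range (N + 1)).filter Nat.Prime).powerset,
      (if (∏ p ∈ S, p) ∣ n then ∏ p ∈ S, phisum_c k p else 0) := by
  rw [phisum_exp, Finset.prod_one_add, ← Finset.sum_filter]
  refine Finset.sum_congr ?_ fun _ _ => rfl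
  ext S
  rw [Finset.mem_powerset, Finset.mem_filter, Finset.mem_powerset]
  constructor
  · intro h
    have hS : ∀ p ∈ S, p.Prime := fun p hp => Nat.prime_of_mem_primeFactors (h hp)
    refine ⟨fun p hp => ?_, (phisum_dvd (by omega) hS).1 h⟩
    rw [Finset.mem_filter, Finset.mem_range]
    have := Nat.le_of_mem_primeFactors (h hp)
    exact ⟨by omega, hS p hp⟩
  · rintro ⟨h1, h2⟩
    exact (phisum_dvd (by omega) fun p hp => (Finset.mem_filter.1 (h1 hp)).2).2 h2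

theorem phisum_count (N d : ℕ) :
    (((Finset.Icc 1 N).filter (fun n => d ∣ n)).card : ℝ) ≤ N / d := by
  have h : (Finset.Icc 1 N).filter (fun n => d ∣ n) = (Finset.Ioc 0 N).filter (fun n => d ∣ n) := by
    ext n
    simp only [Finset.mem_filter, Finset.mem_Icc, Finset.mem_Ioc]
    constructor <;> rintro ⟨h1, h2⟩ <;> exact ⟨by omega, h2⟩
  rw [h, Nat.Ioc_filter_dvd_card_eq_div]
  exact Nat.cast_div_le

theorem phisum_total (k N : ℕ) :
    ∑ n ∈ Finset.Icc 1 N, Real.exp (k * Phi n) ≤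
      N * ∏ p ∈ (Finset.range (N + 1)).filter Nat.Prime, (1 + phisum_c k p / p) := by
  set P := (Finset.range (N + 1)).filter Nat.Prime with hP
  calc ∑ n ∈ Finset.Icc 1 N, Real.exp (k * Phi n)
      = ∑ n ∈ Finset.Icc 1 N, ∑ S ∈ P.powerset,
          (if (∏ p ∈ S, p) ∣ n then ∏ p ∈ S, phisum_c k p else 0) := by
        refine Finset.sum_congr rfl fun n hn => ?_
        rw [Finset.mem_Icc] at hn
        exact phisum_expand k n N hn.1 hn.2
    _ = ∑ S ∈ P.powerset, ∑ n ∈ Finset.Icc 1 N,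
          (if (∏ p ∈ S, p) ∣ n then ∏ p ∈ S, phisum_c k p else 0) := Finset.sum_comm
    _ = ∑ S ∈ P.powerset, (((Finset.Icc 1 N).filter (fun n => (∏ p ∈ S, p) ∣ n)).card : ℝ) *
          ∏ p ∈ S, phisum_c k p := by
        refine Finset.sum_congr rfl fun S _ => ?_
        rw [← Finset.sum_filter, Finset.sum_const, nsmul_eq_mul]
    _ ≤ ∑ S ∈ P.powerset, (N : ℝ) * ∏ p ∈ S, (phisum_c k p / p) := by
        refine Finset.sum_le_sum fun S _ => ?_
        have h1 := phisum_count N (∏ p ∈ S, p)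
        have h2 : 0 ≤ ∏ p ∈ S, phisum_c k p := Finset.prod_nonneg fun p _ => phisum_c_nonneg k p
        refine (mul_le_mul_of_nonneg_right h1 h2).trans (le_of_eq ?_)
        rw [Finset.prod_div_distrib, Nat.cast_prod]
        ring
    _ = N * ∏ p ∈ P, (1 + phisum_c k p / p) := by
        rw [← Finset.mul_sum, Finset.prod_one_add]

theorem phi_sum (k : ℕ) : ∃ K : ℝ, 0 < K ∧ ∀ x : ℝ, 0 ≤ x →
    ∑ n ∈ Finset.Icc 1 ⌊x⌋₊, Real.exp (k * Phi n) ≤ K * x := by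
  have hsum : Summable fun n : ℕ => (n : ℝ) ^ (-(65 / 64) : ℝ) :=
    Real.summable_nat_rpow.2 (by norm_num)
  refine ⟨Real.exp ((k * Real.exp k) * ∑' n : ℕ, (n : ℝ) ^ (-(65 / 64) : ℝ)), Real.exp_pos _, ?_⟩
  intro x hx
  refine (phisum_total k ⌊x⌋₊).trans ?_
  have h1 : ∏ p ∈ (Finset.range (⌊x⌋₊ + 1)).filter Nat.Prime, (1 + phisum_c k p / p) ≤
      Real.exp ((k * Real.exp k) * ∑' n : ℕ, (n : ℝ) ^ (-(65 / 64) : ℝ)) := by
    calc ∏ p ∈ (Finset.range (⌊x⌋₊ + 1)).filter Nat.Prime, (1 + phisum_c k p / p)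
        ≤ ∏ p ∈ (Finset.range (⌊x⌋₊ + 1)).filter Nat.Prime,
            Real.exp ((k * Real.exp k) * (p : ℝ) ^ (-(65 / 64) : ℝ)) := by
          refine Finset.prod_le_prod (fun p _ => ?_) fun p hp => ?_
          · have := phisum_c_nonneg k p
            positivity
          · have h2 := phisum_c_le k p (Finset.mem_filter.1 hp).2.one_lt.le
            have h3 := Real.add_one_le_exp ((k * Real.exp k) * (p : ℝ) ^ (-(65 / 64) : ℝ))
            linarith
      _ = Real.exp (∑ p ∈ (Finset.range (⌊x⌋₊ + 1)).filter Nat.Prime,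
            (k * Real.exp k) * (p : ℝ) ^ (-(65 / 64) : ℝ)) := (Real.exp_sum _ _).symm
      _ ≤ _ := by
          rw [Real.exp_le_exp, ← Finset.mul_sum]
          refine mul_le_mul_of_nonneg_left ?_ (by positivity)
          exact hsum.sum_le_tsum _ fun n _ => by positivity
  calc (⌊x⌋₊ : ℝ) * ∏ p ∈ (Finset.range (⌊x⌋₊ + 1)).filter Nat.Prime, (1 + phisum_c k p / p)
      ≤ x * Real.exp ((k * Real.exp k) * ∑' n : ℕ, (n : ℝ) ^ (-(65 / 64) : ℝ)) := by
        refine mul_le_mul (Nat.floor_le hx) h1 ?_ hx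
        refine Finset.prod_nonneg fun p _ => ?_
        have := phisum_c_nonneg k p
        positivity
    _ = _ := mul_comm _ _

end Vale.Agent.P028EV
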