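import Vale.Agent.P028EV.Defs

/-!
Module WTS: elementary facts on the weights `WW`, `ww`, `Phi`, `ss`.
`1 - 1/p ≥ 1/2` for every prime, so `WW, ww ≥ 2^{-ω}`.
`ww_inv_le`: `(1 - 1/p)⁻¹ ≤ exp (2/p) ≤ exp (2 p^{-1/64})`.
`ss_gain`: if `1/2 < ss z n` then `Phi n ≥ ∑_{p ∣ n, z < p} p^{-1/64}
  = ∑ p^{63/64}/p ≥ √z ∑ 1/p ≥ √z / 2`.
`omega_bound`: `4 ≤ p^{1/8}` for `p ≥ 2^16`, so `4^ω(q) ≤ ∏_{p ∣ q} (c_p p^{1/8}) ≤ 4^(2^16) q^{1/8}`
with `c_p = 4` for `p < 2^16`, `c_p = 1` otherwise, and `∏_{p∣q} p ≤ q`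
(`Nat.prod_primeFactors_dvd`).  NB do not let Lean evaluate `4^(2^16)`; keep the constants opaque
(e.g. take `K = 4 ^ N` with a generalized `N`).
`ww_eq`: `Nat.totient_eq_mul_prod_factors`.
-/

namespace Vale.Agent.P028EV

open Finset MeasureTheory

private theorem wts_fac {p : ℕ} (hp : p.Prime) :
    1 / 2 ≤ 1 - 1 / (p : ℝ) ∧ 1 - 1 / (p : ℝ) ≤ 1 := by
  have h2 : (2 : ℝ) ≤ p := by exact_mod_cast hp.two_le
  have h0 : (0 : ℝ) < p := by linarith
  constructor
  · have : 1 / (p : ℝ) ≤ 1 / 2 := one_div_le_one_div_of_le (by norm_num) h2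
    linarith
  · have : 0 ≤ 1 / (p : ℝ) := by positivity
    linarith

private theorem wts_pr {q p : ℕ} (hp : p ∈ q.primeFactors) : p.Prime :=
  Nat.prime_of_mem_primeFactors hp

theorem WW_pos (γ : ℝ) (q : ℕ) : 0 < WW γ q := by
  unfold WW
  refine Finset.prod_pos fun p hp => ?_
  have := (wts_fac (wts_pr (Finset.mem_filter.1 hp).1)).1
  linarith

theorem WW_le_one (γ : ℝ) (q : ℕ) : WW γ q ≤ 1 := by
  unfold WW
  refine Finset.prod_le_one (fun p hp => ?_) fun p hp => ?_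
  · have := (wts_fac (wts_pr (Finset.mem_filter.1 hp).1)).1
    linarith
  · exact (wts_fac (wts_pr (Finset.mem_filter.1 hp).1)).2

theorem ww_pos (n : ℕ) : 0 < ww n := by
  unfold ww
  refine Finset.prod_pos fun p hp => ?_
  have := (wts_fac (wts_pr hp)).1
  linarith

theorem ww_le_one (n : ℕ) : ww n ≤ 1 := by
  unfold ww
  refine Finset.prod_le_one (fun p hp => ?_) fun p hp => ?_
  · have := (wts_fac (wts_pr hp)).1
    linarith
  · exact (wts_fac (wts_pr hp)).2

theorem ww_le_WW (γ : ℝ) (q : ℕ) : ww q ≤ WW γ q := by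
  have h1 := Finset.prod_filter_mul_prod_filter_not q.primeFactors (fun p => ¬ p ∣ bq γ q)
    (fun p => 1 - 1 / (p : ℝ))
  have h2 : ∏ p ∈ q.primeFactors with ¬ ¬ p ∣ bq γ q, (1 - 1 / (p : ℝ)) ≤ 1 := by
    refine Finset.prod_le_one (fun p hp => ?_) fun p hp => ?_
    · have := (wts_fac (wts_pr (Finset.mem_filter.1 hp).1)).1
      linarith
    · exact (wts_fac (wts_pr (Finset.mem_filter.1 hp).1)).2
  have h3 := WW_pos γ q
  unfold ww
  rw [← h1]
  unfold WW at h3 ⊢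
  exact mul_le_of_le_one_right h3.le h2

theorem WW_ge (γ : ℝ) (q : ℕ) : ((2 : ℝ) ^ q.primeFactors.card)⁻¹ ≤ WW γ q := by
  refine le_trans ?_ (ww_le_WW γ q)
  unfold ww
  have h1 : ((2 : ℝ) ^ q.primeFactors.card)⁻¹ = ∏ _p ∈ q.primeFactors, (1 / 2 : ℝ) := by
    rw [Finset.prod_const, one_div, inv_pow]
  rw [h1]
  exact Finset.prod_le_prod (fun p _ => by norm_num) fun p hp => (wts_fac (wts_pr hp)).1

theorem ww_eq {q : ℕ} (hq : 0 < q) : (Nat.totient q : ℝ) / q = ww q := by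
  have h1 := Nat.totient_eq_mul_prod_factors q
  have h2 : (Nat.totient q : ℝ) = q * ∏ p ∈ q.primeFactors, (1 - (p : ℝ)⁻¹) := by
    have h3 := congrArg (fun x : ℚ => (x : ℝ)) h1
    push_cast at h3
    exact h3
  have hq0 : (q : ℝ) ≠ 0 := by
    have : (0 : ℝ) < q := by exact_mod_cast hq
    exact this.ne'
  rw [h2, mul_div_cancel_left₀ _ hq0]
  unfold ww
  exact Finset.prod_congr rfl fun p _ => by rw [one_div]

theorem omega_bound : ∃ K : ℝ, 0 < K ∧ ∀ q : ℕ, 0 < q →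
    (4 : ℝ) ^ q.primeFactors.card ≤ K * (q : ℝ) ^ ((1 / 8 : ℝ)) := by
  obtain ⟨N, hN⟩ : ∃ N : ℕ, ∀ p : ℕ, N ≤ p → (4 : ℝ) ≤ (p : ℝ) ^ (1 / 8 : ℝ) := by
    refine ⟨2 ^ 16, fun p hp => ?_⟩
    have h1 : ((2 : ℝ) ^ 16) ≤ p := by exact_mod_cast hp
    have h2 : ((2 : ℝ) ^ 16) ^ (1 / 8 : ℝ) = 4 := by
      rw [← Real.rpow_natCast, ← Real.rpow_mul (by norm_num)]
      have : (((16 : ℕ) : ℝ) * (1 / 8 : ℝ)) = ((2 : ℕ) : ℝ) := by norm_num
      rw [this, Real.rpow_natCast]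
      norm_num
    rw [← h2]
    exact Real.rpow_le_rpow (by positivity) h1 (by norm_num)
  refine ⟨4 ^ N, by positivity, fun q hq => ?_⟩
  have hsplit := Finset.card_filter_add_card_filter_not (s := q.primeFactors) (fun p => p < N)
  have hlt : (q.primeFactors.filter fun p => p < N).card ≤ N := by
    refine (Finset.card_le_card (t := Finset.range N) fun p hp => ?_).trans (by simp)
    exact Finset.mem_range.2 (Finset.mem_filter.1 hp).2
  rw [← hsplit, pow_add]
  refine mul_le_mul (pow_le_pow_right₀ (by norm_num) hlt) ?_ (by positivity) (by positivity)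
  have h3 : (4 : ℝ) ^ (q.primeFactors.filter fun p => ¬ p < N).card ≤
      ∏ p ∈ q.primeFactors.filter fun p => ¬ p < N, (p : ℝ) ^ (1 / 8 : ℝ) := by
    rw [← Finset.prod_const]
    refine Finset.prod_le_prod (fun p _ => by norm_num) fun p hp => ?_
    exact hN p (not_lt.1 (Finset.mem_filter.1 hp).2)
  refine h3.trans ?_
  rw [Real.finsetProd_rpow _ _ (fun p _ => Nat.cast_nonneg p)]
  refine Real.rpow_le_rpow (by positivity) ?_ (by norm_num)
  have h4 : ∏ p ∈ q.primeFactors.filter (fun p => ¬ p < N), p ≤ q := by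
    refine le_trans ?_ (Nat.le_of_dvd hq (Nat.prod_primeFactors_dvd q))
    refine Finset.prod_le_prod_of_subset_of_one_le' (Finset.filter_subset _ _) fun p hp _ => ?_
    exact (wts_pr hp).one_lt.le
  rw [← Nat.cast_prod]
  exact Nat.cast_le.2 h4

theorem Phi_nonneg (n : ℕ) : 0 ≤ Phi n := by
  unfold Phi
  exact Finset.sum_nonneg fun p _ => Real.rpow_nonneg (Nat.cast_nonneg p) _

theorem Phi_mul_le {m n : ℕ} (hm : 0 < m) (hn : 0 < n) : Phi (m * n) ≤ Phi m + Phi n := by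
  unfold Phi
  rw [Nat.primeFactors_mul hm.ne' hn.ne', ← Finset.sum_union_inter]
  exact le_add_of_nonneg_right (Finset.sum_nonneg fun p _ => Real.rpow_nonneg (Nat.cast_nonneg p) _)

theorem Phi_le_mul {m n : ℕ} (hm : 0 < m) (hn : 0 < n) : Phi m ≤ Phi (m * n) := by
  unfold Phi
  rw [Nat.primeFactors_mul hm.ne' hn.ne']
  exact Finset.sum_le_sum_of_subset_of_nonneg Finset.subset_union_left
    fun p _ _ => Real.rpow_nonneg (Nat.cast_nonneg p) _

theorem ww_inv_le (n : ℕ) : (ww n)⁻¹ ≤ Real.exp (2 * Phi n) := by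
  unfold ww Phi
  rw [← Finset.prod_inv_distrib, Finset.mul_sum, Real.exp_sum]
  refine Finset.prod_le_prod (fun p hp => ?_) fun p hp => ?_
  · have := (wts_fac (wts_pr hp)).1
    exact inv_nonneg.2 (by linarith)
  · have hpr := wts_pr hp
    have h2 : (2 : ℝ) ≤ p := by exact_mod_cast hpr.two_le
    have h0 : (0 : ℝ) < p := by linarith
    have h1 := (wts_fac hpr).1
    have hx : 1 / (p : ℝ) ≤ 1 / 2 := one_div_le_one_div_of_le (by norm_num) h2
    have hx0 : 0 ≤ 1 / (p : ℝ) := by positivity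
    have h3 : (1 - 1 / (p : ℝ))⁻¹ ≤ 1 + 2 * (1 / (p : ℝ)) := by
      rw [inv_le_iff_one_le_mul₀ (by linarith)]
      nlinarith
    have h4 : 1 / (p : ℝ) ≤ (p : ℝ) ^ (-(1 / 64) : ℝ) := by
      rw [one_div, ← Real.rpow_neg_one]
      exact Real.rpow_le_rpow_of_exponent_le (by linarith) (by norm_num)
    have h5 := Real.add_one_le_exp (2 * (p : ℝ) ^ (-(1 / 64) : ℝ))
    linarith

theorem ss_nonneg (z n : ℕ) : 0 ≤ ss z n := by
  unfold ss
  exact Finset.sum_nonneg fun p _ => by positivity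

theorem ss_mul_le {m n : ℕ} (z : ℕ) (hm : 0 < m) (hn : 0 < n) :
    ss z (m * n) ≤ ss z m + ss z n := by
  unfold ss
  rw [Nat.primeFactors_mul hm.ne' hn.ne', Finset.filter_union, ← Finset.sum_union_inter]
  exact le_add_of_nonneg_right (Finset.sum_nonneg fun p _ => by positivity)

theorem ss_gain {z n : ℕ} (h : 1 / 2 < ss z n) : Real.sqrt z / 2 ≤ Phi n := by
  have h1 : Real.sqrt z * ss z n ≤ Phi n := by
    unfold ss Phi
    rw [Finset.mul_sum]
    refine le_trans ?_ (Finset.sum_le_sum_of_subset_of_nonneg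
      (Finset.filter_subset (fun p => z < p) n.primeFactors)
      fun p _ _ => Real.rpow_nonneg (Nat.cast_nonneg p) _)
    refine Finset.sum_le_sum fun p hp => ?_
    obtain ⟨hp1, hp2⟩ := Finset.mem_filter.1 hp
    have h2 : (2 : ℝ) ≤ p := by exact_mod_cast (wts_pr hp1).two_le
    have h0 : (0 : ℝ) < p := by linarith
    have h3 : Real.sqrt z ≤ (p : ℝ) ^ (1 / 2 : ℝ) := by
      rw [← Real.sqrt_eq_rpow]
      exact Real.sqrt_le_sqrt (by exact_mod_cast hp2.le)
    calc Real.sqrt z * (1 / (p : ℝ)) ≤ (p : ℝ) ^ (1 / 2 : ℝ) * (1 / (p : ℝ)) :=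
          mul_le_mul_of_nonneg_right h3 (by positivity)
      _ = (p : ℝ) ^ (-(1 / 2) : ℝ) := by
          rw [one_div (p : ℝ), ← Real.rpow_neg_one, ← Real.rpow_add h0]
          norm_num
      _ ≤ (p : ℝ) ^ (-(1 / 64) : ℝ) :=
          Real.rpow_le_rpow_of_exponent_le (by linarith) (by norm_num)
  have h2 := Real.sqrt_nonneg (z : ℝ)
  nlinarith

/-- the weight inequality used for all divisor sums -/
theorem weight_le {g u : ℕ} (hg : 0 < g) (hu : 0 < u) :
    Real.exp (Phi g) * Real.exp (-(3 * Phi u)) * (ww u)⁻¹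
      ≤ Real.exp (2 * Phi g - Phi (g * u)) := by
  calc Real.exp (Phi g) * Real.exp (-(3 * Phi u)) * (ww u)⁻¹
      ≤ Real.exp (Phi g) * Real.exp (-(3 * Phi u)) * Real.exp (2 * Phi u) :=
        mul_le_mul_of_nonneg_left (ww_inv_le u) (by positivity)
    _ = Real.exp (Phi g - Phi u) := by
        rw [← Real.exp_add, ← Real.exp_add]
        congr 1
        ring
    _ ≤ Real.exp (2 * Phi g - Phi (g * u)) := by
        rw [Real.exp_le_exp]
        have := Phi_mul_le hg hu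
        linarith

private theorem wts_one {z n : ℕ} (h : 1 / 2 < ss z n) :
    1 ≤ Real.exp (-(Real.sqrt z / 2)) * Real.exp (Phi n) := by
  rw [← Real.exp_add, Real.one_le_exp_iff]
  have := ss_gain h
  linarith

/-- gain of a bad pair -/
theorem bad_gain {z g u v : ℕ} (hg : 0 < g) (hu : 0 < u) (hv : 0 < v)
    (h : 1 < ss z (g * u) ∨ 1 < ss z (g * v)) :
    1 ≤ Real.exp (-(Real.sqrt z / 2)) *
      (Real.exp (Phi g) + Real.exp (Phi u) + Real.exp (Phi v)) := by
  have a1 : 0 ≤ Real.exp (-(Real.sqrt z / 2)) * Real.exp (Phi g) := by positivity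
  have a2 : 0 ≤ Real.exp (-(Real.sqrt z / 2)) * Real.exp (Phi u) := by positivity
  have a3 : 0 ≤ Real.exp (-(Real.sqrt z / 2)) * Real.exp (Phi v) := by positivity
  rw [mul_add, mul_add]
  have key : 1 / 2 < ss z g ∨ 1 / 2 < ss z u ∨ 1 / 2 < ss z v := by
    by_contra hcon
    push Not at hcon
    obtain ⟨b1, b2, b3⟩ := hcon
    rcases h with h | h
    · have := ss_mul_le z hg hu
      linarith
    · have := ss_mul_le z hg hv
      linarith
  rcases key with k | k | k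
  · have := wts_one k
    linarith
  · have := wts_one k
    linarith
  · have := wts_one k
    linarith

end Vale.Agent.P028EV
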