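import Vale.Agent.P028EV.Den
import Vale.Agent.P028EV.Weights
import Vale.Agent.P028EV.Count
import Vale.Agent.P028EV.PhiSum

/-!
Module ALPHA1: for fixed `q = g u`, the smaller numbers `r = g v` in one dyadic block.

`R = 2^L`, `y = g u / R`, `H = R/g = u/y`.  `N = #V`.
(1) all `v ∈ V` lie in `[H, 2H)`, so `N ≤ 3H` (if `V ≠ ∅` then `2H > 1`).
(2) `T = {v - u}`: `|v-u| ≤ u =: Z`; `Δ ≤ 2 c0 u / R =: δ` (since
    `v ψ(gu) ≤ c0 v/(gu) ≤ c0 u/(gv)`); `A = Ad γ L`, `B = Bd γ L`, `B ≤ √R`, `η = 2/√R`.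
    Because `|k| ≥ 1` for the nonzero integer `k = B (t+γh) - h (Bγ-A)`:
    `1 ≤ √R δ + 2u/√R ≤ 3u/√R`, so `B ≤ √R ≤ 3u` and `count_nd` gives
    `N ≤ 14 u δ + 4 u/√R = u (28 c0 y/g + 4 R^{-1/2})`   (`u/R = y/g`).
(3) Cauchy-Schwarz: `∑_V exp(4 Phi v) ≤ N^{1/2} (∑_{n ≤ 2H} exp (8 Phi n))^{1/2}
    ≤ N^{1/2} (2 K₈ H)^{1/2}` (`phi_sum 8`).
(4) `(gu/(gv))^{5/8} ≤ y^{5/8}`, `N^{1/2} ≤ (3H)^{3/8} (u (28 c0 y/g + 4 R^{-1/2}))^{1/8}`; all
    powers of `u` cancel: total `≤ K y^{-1/4} (28 c0 y/g + 4 R^{-1/2})^{1/8}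
    ≤ K' ((c0/g)^{1/8} y^{-1/8} + R^{-1/16} y^{-1/4})`.
-/

namespace Vale.Agent.P028EV

open Finset MeasureTheory

theorem Alpha1_pow8 {y : ℝ} (hy : 0 ≤ y) : (y ^ (1 / 8 : ℝ)) ^ 8 = y := by
  rw [← Real.rpow_natCast, ← Real.rpow_mul hy]
  norm_num

theorem Alpha1_pow8' {y : ℝ} (hy : 0 ≤ y) (k : ℕ) : (y ^ 8) ^ ((k : ℝ) / 8) = y ^ k := by
  rw [← Real.rpow_natCast, ← Real.rpow_mul hy, ← Real.rpow_natCast]
  congr 1
  push_cast
  ring

theorem Alpha1_le_self {c s : ℝ} (hc : 1 ≤ c) (hs1 : s ≤ 1) : c ^ s ≤ c := by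
  calc c ^ s ≤ c ^ (1 : ℝ) := Real.rpow_le_rpow_of_exponent_le hc hs1
    _ = c := Real.rpow_one c

theorem Alpha1_combine {K8 U G R c0 N S : ℝ} (hK8 : 0 < K8) (hU : 0 < U) (hG : 0 < G)
    (hR : 0 < R) (hc0 : 0 < c0) (hN0 : 0 ≤ N) (hN1 : N ≤ 3 * (R / G))
    (hN2 : N ≤ U * (28 * c0 * (U / R) + 4 * R ^ (-(1 / 2) : ℝ)))
    (hS : S ≤ N ^ (1 / 2 : ℝ) * (K8 * (2 * (R / G))) ^ (1 / 2 : ℝ)) :
    (G * U / R) ^ (5 / 8 : ℝ) * S / U ≤ (84 * (2 * K8 + 1)) *
      ((c0 / G) ^ (1 / 8 : ℝ) * (G * U / R) ^ (-(1 / 8) : ℝ)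
        + R ^ (-(1 / 16) : ℝ) * (G * U / R) ^ (-(1 / 4) : ℝ)) := by
  set y : ℝ := G * U / R with hy
  have hy0 : 0 < y := by positivity
  set a : ℝ := y ^ (1 / 8 : ℝ) with ha
  set b : ℝ := U ^ (1 / 8 : ℝ) with hb
  have ha0 : 0 < a := by positivity
  have hb0 : 0 < b := by positivity
  have ha8 : a ^ 8 = y := Alpha1_pow8 hy0.le
  have hb8 : b ^ 8 = U := Alpha1_pow8 hU.le
  have hH : R / G = (b / a) ^ 8 := by
    rw [div_pow, ha8, hb8, hy]
    field_simp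
  have hba : 0 < b / a := by positivity
  set P : ℝ := (c0 / G) ^ (1 / 8 : ℝ) with hP
  set Q : ℝ := R ^ (-(1 / 16) : ℝ) with hQ
  have hP0 : 0 < P := by positivity
  have hQ0 : 0 < Q := by positivity
  have e1 : y ^ (5 / 8 : ℝ) = a ^ 5 := by
    rw [ha, ← Real.rpow_natCast, ← Real.rpow_mul hy0.le]
    norm_num
  have e2 : y ^ (-(1 / 8) : ℝ) = 1 / a := by
    rw [Real.rpow_neg hy0.le, ← ha]
    exact (one_div a).symm
  have e3 : y ^ (-(1 / 4) : ℝ) = 1 / a ^ 2 := by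
    rw [Real.rpow_neg hy0.le, one_div, ha, ← Real.rpow_natCast, ← Real.rpow_mul hy0.le]
    norm_num
  have n1 : N ^ (3 / 8 : ℝ) ≤ 3 * (b / a) ^ 3 := by
    calc N ^ (3 / 8 : ℝ) ≤ (3 * (R / G)) ^ (3 / 8 : ℝ) := Real.rpow_le_rpow hN0 hN1 (by norm_num)
      _ = 3 ^ (3 / 8 : ℝ) * (b / a) ^ 3 := by
          rw [Real.mul_rpow (by norm_num) (by positivity), hH]
          congr 1
          have := Alpha1_pow8' hba.le 3
          norm_num at this
          exact this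
      _ ≤ 3 * (b / a) ^ 3 := by
          gcongr
          exact Alpha1_le_self (by norm_num) (by norm_num)
  have x1 : (28 * c0 * (U / R) + 4 * R ^ (-(1 / 2) : ℝ)) ^ (1 / 8 : ℝ) ≤ 28 * (P * a + Q) := by
    calc (28 * c0 * (U / R) + 4 * R ^ (-(1 / 2) : ℝ)) ^ (1 / 8 : ℝ)
        ≤ (28 * c0 * (U / R)) ^ (1 / 8 : ℝ) + (4 * R ^ (-(1 / 2) : ℝ)) ^ (1 / 8 : ℝ) :=
          Real.rpow_add_le_add_rpow (by positivity) (by positivity) (by norm_num) (by norm_num)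
      _ = 28 ^ (1 / 8 : ℝ) * (P * a) + 4 ^ (1 / 8 : ℝ) * Q := by
          congr 1
          · have : 28 * c0 * (U / R) = 28 * ((c0 / G) * y) := by
              rw [hy]; field_simp
            rw [this, Real.mul_rpow (by norm_num) (by positivity),
              Real.mul_rpow (by positivity) (by positivity)]
          · rw [Real.mul_rpow (by norm_num) (by positivity), ← Real.rpow_mul hR.le, hQ]
            norm_num
      _ ≤ 28 * (P * a) + 28 * Q := by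
          have h28 : (28 : ℝ) ^ (1 / 8 : ℝ) ≤ 28 := Alpha1_le_self (by norm_num) (by norm_num)
          have h4 : (4 : ℝ) ^ (1 / 8 : ℝ) ≤ 28 :=
            (Alpha1_le_self (by norm_num) (by norm_num)).trans (by norm_num)
          gcongr
      _ = 28 * (P * a + Q) := by ring
  have n2 : N ^ (1 / 8 : ℝ) ≤ b * (28 * (P * a + Q)) := by
    calc N ^ (1 / 8 : ℝ) ≤ (U * (28 * c0 * (U / R) + 4 * R ^ (-(1 / 2) : ℝ))) ^ (1 / 8 : ℝ) :=
          Real.rpow_le_rpow hN0 hN2 (by norm_num)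
      _ = b * (28 * c0 * (U / R) + 4 * R ^ (-(1 / 2) : ℝ)) ^ (1 / 8 : ℝ) := by
          rw [Real.mul_rpow hU.le (by positivity)]
      _ ≤ b * (28 * (P * a + Q)) := by gcongr
  have n3 : N ^ (1 / 2 : ℝ) ≤ (3 * (b / a) ^ 3) * (b * (28 * (P * a + Q))) := by
    have : N ^ (1 / 2 : ℝ) = N ^ (3 / 8 : ℝ) * N ^ (1 / 8 : ℝ) := by
      rw [← Real.rpow_add_of_nonneg hN0 (by norm_num) (by norm_num)]
      norm_num
    rw [this]
    gcongr
  have s1 : (K8 * (2 * (R / G))) ^ (1 / 2 : ℝ) ≤ (2 * K8 + 1) * (b / a) ^ 4 := by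
    calc (K8 * (2 * (R / G))) ^ (1 / 2 : ℝ) ≤ ((2 * K8 + 1) * (b / a) ^ 8) ^ (1 / 2 : ℝ) := by
          rw [hH]
          apply Real.rpow_le_rpow (by positivity) _ (by norm_num)
          have : 0 < (b / a) ^ 8 := by positivity
          nlinarith
      _ = (2 * K8 + 1) ^ (1 / 2 : ℝ) * (b / a) ^ 4 := by
          rw [Real.mul_rpow (by positivity) (by positivity)]
          congr 1
          have := Alpha1_pow8' hba.le 4
          norm_num at this
          exact this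
      _ ≤ (2 * K8 + 1) * (b / a) ^ 4 := by
          gcongr
          exact Alpha1_le_self (by linarith) (by norm_num)
  have hS2 : S ≤ ((3 * (b / a) ^ 3) * (b * (28 * (P * a + Q)))) * ((2 * K8 + 1) * (b / a) ^ 4) := by
    refine hS.trans ?_
    gcongr
  rw [e1, e2, e3, ← hb8]
  calc a ^ 5 * S / b ^ 8
      ≤ a ^ 5 * (((3 * (b / a) ^ 3) * (b * (28 * (P * a + Q)))) * ((2 * K8 + 1) * (b / a) ^ 4))
          / b ^ 8 := by gcongr
    _ = 84 * (2 * K8 + 1) * (P * (1 / a) + Q * (1 / a ^ 2)) := by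
        field_simp
        ring

theorem alpha1 : ∃ K : ℝ, 0 < K ∧ ∀ (γ : ℝ) (ψ : ℕ → ℝ) (c0 : ℝ) (g u L : ℕ),
    0 < g → 0 < u → 0 < c0 → c0 ≤ 1 / 4 →
    0 ≤ ψ (g * u) → ψ (g * u) ≤ c0 / ((g * u : ℕ) : ℝ) →
    ∀ V : Finset ℕ, (∀ v ∈ V, 0 < v ∧ v < u ∧ Nat.Coprime u v ∧ Nat.log 2 (g * v) = L ∧
      0 ≤ ψ (g * v) ∧ ψ (g * v) ≤ c0 / ((g * v : ℕ) : ℝ) ∧ ND γ ψ (g * u) (g * v)) →
    ∑ v ∈ V, (((g * u : ℕ) : ℝ) / ((g * v : ℕ) : ℝ)) ^ (5 / 8 : ℝ) * Real.exp (4 * Phi v) / u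
      ≤ K * ((c0 / g) ^ (1 / 8 : ℝ) * (((g * u : ℕ) : ℝ) / 2 ^ L) ^ (-(1 / 8) : ℝ) +
          ((2 : ℝ) ^ L) ^ (-(1 / 16) : ℝ) * (((g * u : ℕ) : ℝ) / 2 ^ L) ^ (-(1 / 4) : ℝ)) := by
  obtain ⟨K8, hK8, hphi⟩ := phi_sum 8
  refine ⟨84 * (2 * K8 + 1), by positivity, ?_⟩
  intro γ ψ c0 g u L hg hu hc0 hc4 hψ0 hψ V hV
  rcases V.eq_empty_or_nonempty with rfl | hne
  · rw [Finset.sum_empty]
    positivity
  set R : ℝ := (2 : ℝ) ^ L with hRdef
  have hR : 0 < R := by positivity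
  have hG : (0 : ℝ) < g := by exact_mod_cast hg
  have hU : (0 : ℝ) < u := by exact_mod_cast hu
  have hlo : ∀ v ∈ V, R ≤ (g : ℝ) * v := by
    intro v hv
    obtain ⟨hv0, _, _, hL, _⟩ := hV v hv
    have h1 := Nat.pow_log_le_self 2 (x := g * v) (by positivity)
    rw [hL] at h1
    rw [hRdef]
    exact_mod_cast h1
  have hhi : ∀ v ∈ V, (g : ℝ) * v < 2 * R := by
    intro v hv
    obtain ⟨hv0, _, _, hL, _⟩ := hV v hv
    have h1 := Nat.lt_pow_succ_log_self (b := 2) (by norm_num) (g * v)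
    rw [hL, Nat.succ_eq_add_one, pow_succ] at h1
    rw [hRdef]
    have h2 : (((g * v : ℕ)) : ℝ) < ((2 ^ L * 2 : ℕ) : ℝ) := by exact_mod_cast h1
    push_cast at h2
    linarith
  set N : ℝ := (V.card : ℝ) with hN
  have hN0 : 0 ≤ N := by positivity
  -- first count
  have hN1 : N ≤ 3 * (R / g) := by
    obtain ⟨v0, hv0⟩ := hne
    have hv0pos : (1 : ℝ) ≤ v0 := by exact_mod_cast (hV v0 hv0).1
    have h2H : 1 ≤ 2 * (R / g) := by
      have h3 := hhi v0 hv0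
      rw [← mul_div_assoc, le_div_iff₀ hG]
      nlinarith
    have hsub : V ⊆ Finset.Ico ⌈R / g⌉₊ ⌈2 * (R / g)⌉₊ := by
      intro v hv
      rw [Finset.mem_Ico]
      constructor
      · apply Nat.ceil_le.mpr
        rw [div_le_iff₀ hG]
        have := hlo v hv
        linarith
      · apply Nat.lt_ceil.mpr
        rw [← mul_div_assoc, lt_div_iff₀ hG]
        have := hhi v hv
        linarith
    have hc := Finset.card_le_card hsub
    rw [Nat.card_Ico] at hc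
    have hceil : ⌈R / g⌉₊ ≤ ⌈2 * (R / g)⌉₊ := by
      apply Nat.ceil_le_ceil
      have : 0 < R / g := by positivity
      linarith
    have hc2 : (V.card : ℝ) ≤ (⌈2 * (R / g)⌉₊ : ℝ) - (⌈R / g⌉₊ : ℝ) := by
      rw [← Nat.cast_sub hceil]
      exact_mod_cast hc
    have h4 := Nat.le_ceil (R / (g : ℝ))
    have h5 := (Nat.ceil_lt_add_one (a := 2 * (R / (g : ℝ))) (by positivity)).le
    rw [hN]
    linarith
  -- second count
  set sR : ℝ := Real.sqrt R with hsR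
  have hsR0 : 0 < sR := Real.sqrt_pos.mpr hR
  have hsR2 : sR * sR = R := Real.mul_self_sqrt hR.le
  have hBs : (Bd γ L : ℝ) ≤ sR := Bd_le_sqrt γ L
  have hap : |(Bd γ L : ℝ) * γ - Ad γ L| ≤ 2 / sR := Bd_approx' γ L
  have hinj : Set.InjOn (fun v : ℕ => (v : ℤ) - (u : ℤ)) (V : Set ℕ) := by
    intro v _ w _ h
    have h' : (v : ℤ) - u = (w : ℤ) - u := h
    have : (v : ℤ) = w := by linarith
    exact_mod_cast this
  have hT : ∀ h ∈ V.image (fun v : ℕ => (v : ℤ) - (u : ℤ)), |(h : ℝ)| ≤ (u : ℝ) ∧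
      ∃ t : ℤ, |(t : ℝ) + γ * h| < 2 * c0 * u / R ∧ h * Ad γ L + t * (Bd γ L : ℤ) ≠ 0 := by
    intro h hh'
    rw [Finset.mem_image] at hh'
    obtain ⟨v, hv, rfl⟩ := hh'
    obtain ⟨hv0, hvu, hcop, hL, hψv0, hψv, hD, t, ht, hne0⟩ := hV v hv
    have hvr : (0 : ℝ) < v := by exact_mod_cast hv0
    have hvur : (v : ℝ) < u := by exact_mod_cast hvu
    refine ⟨?_, t, ?_, ?_⟩
    · push_cast
      rw [abs_le]
      constructor <;> linarith
    · rw [mem_Ts] at ht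
      have hhe : hh (g * u) (g * v) = (v : ℤ) - u := by
        unfold hh
        rw [q1_mul_left g u v hg hcop, r1_mul_left g u v hg hcop]
      rw [hhe] at ht
      refine ht.trans_le ?_
      unfold Del
      rw [q1_mul_left g u v hg hcop, r1_mul_left g u v hg hcop]
      push_cast at hψ hψv
      have h1 : (v : ℝ) * ψ (g * u) ≤ c0 * u / R := by
        calc (v : ℝ) * ψ (g * u) ≤ v * (c0 / (g * u)) := by gcongr
          _ ≤ u * (c0 / (g * v)) := by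
              rw [mul_div_assoc', mul_div_assoc', div_le_div_iff₀ (by positivity) (by positivity)]
              have : (v : ℝ) * v ≤ u * u := by nlinarith
              have h2 : 0 < c0 * g := by positivity
              nlinarith
          _ ≤ u * (c0 / R) := by
              have := hlo v hv
              gcongr
          _ = c0 * u / R := by ring
      have h2 : (u : ℝ) * ψ (g * v) ≤ c0 * u / R := by
        calc (u : ℝ) * ψ (g * v) ≤ u * (c0 / (g * v)) := by gcongr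
          _ ≤ u * (c0 / R) := by
              have := hlo v hv
              gcongr
          _ = c0 * u / R := by ring
      calc (v : ℝ) * ψ (g * u) + u * ψ (g * v) ≤ c0 * u / R + c0 * u / R := add_le_add h1 h2
        _ = 2 * c0 * u / R := by ring
    · have hhe : hh (g * u) (g * v) = (v : ℤ) - u := by
        unfold hh
        rw [q1_mul_left g u v hg hcop, r1_mul_left g u v hg hcop]
      rw [hhe] at hne0
      unfold aq bq at hne0
      rw [hL] at hne0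
      exact hne0
  have hcount := count_nd (Ad γ L) (Bd γ L) (Bd_pos γ L) (Bd_coprime γ L) γ (2 * c0 * u / R) u
    (2 / sR) hap (by positivity) hU.le _ hT
  rw [Finset.card_image_of_injOn hinj] at hcount
  have hB3 : (Bd γ L : ℝ) ≤ 3 * u := by
    obtain ⟨v0, hv0⟩ := hne
    obtain ⟨h1, t, h2, h3⟩ := hT _ (Finset.mem_image_of_mem _ hv0)
    set h : ℤ := (v0 : ℤ) - (u : ℤ) with hh'
    have h4 : (1 : ℝ) ≤ |((h * Ad γ L + t * (Bd γ L : ℤ) : ℤ) : ℝ)| := by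
      rw [← Int.cast_abs]
      exact_mod_cast Int.one_le_abs h3
    have h5 : ((h * Ad γ L + t * (Bd γ L : ℤ) : ℤ) : ℝ)
        = (Bd γ L : ℝ) * ((t : ℝ) + γ * h) - h * ((Bd γ L : ℝ) * γ - Ad γ L) := by
      push_cast
      ring
    rw [h5] at h4
    have h6 : |(Bd γ L : ℝ) * ((t : ℝ) + γ * h)| ≤ sR * (2 * c0 * u / R) := by
      rw [abs_mul, abs_of_nonneg (by positivity : (0 : ℝ) ≤ (Bd γ L : ℝ))]
      exact mul_le_mul hBs h2.le (abs_nonneg _) hsR0.le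
    have h7 : |(h : ℝ) * ((Bd γ L : ℝ) * γ - Ad γ L)| ≤ u * (2 / sR) := by
      rw [abs_mul]
      exact mul_le_mul h1 hap (abs_nonneg _) hU.le
    have h8 := abs_sub ((Bd γ L : ℝ) * ((t : ℝ) + γ * h)) (h * ((Bd γ L : ℝ) * γ - Ad γ L))
    have h9 : sR * (2 * c0 * u / R) = 2 * c0 * u / sR := by
      rw [← hsR2]
      field_simp
    have h10 : (1 : ℝ) ≤ 3 * u / sR := by
      have h11 : 2 * c0 * u / sR ≤ 1 * u / sR := by
        gcongr
        linarith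
      have h12 : (u : ℝ) * (2 / sR) = 2 * u / sR := by ring
      have h13 : 3 * (u : ℝ) / sR = 1 * u / sR + 2 * u / sR := by ring
      rw [h13]
      linarith
    rw [le_div_iff₀ hsR0, one_mul] at h10
    exact hBs.trans h10
  have hN2 : N ≤ (u : ℝ) * (28 * c0 * (u / R) + 4 * R ^ (-(1 / 2) : ℝ)) := by
    have hrp : R ^ (-(1 / 2) : ℝ) = 1 / sR := by
      rw [Real.rpow_neg hR.le, ← Real.sqrt_eq_rpow, one_div]
    rw [hrp]
    have h1 : 2 * (Bd γ L : ℝ) * (2 * c0 * u / R) ≤ 2 * (3 * u) * (2 * c0 * u / R) := by gcongr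
    have h2 : (u : ℝ) * (28 * c0 * (u / R) + 4 * (1 / sR))
        = 2 * (3 * u) * (2 * c0 * u / R) + 2 * u * (2 / sR) + 8 * u * (2 * c0 * u / R) := by
      ring
    rw [h2]
    linarith
  -- Cauchy-Schwarz
  have hS : ∑ v ∈ V, Real.exp (4 * Phi v)
      ≤ N ^ (1 / 2 : ℝ) * (K8 * (2 * (R / g))) ^ (1 / 2 : ℝ) := by
    rw [← Real.mul_rpow hN0 (by positivity), ← Real.sqrt_eq_rpow]
    apply Real.le_sqrt_of_sq_le
    have h1 := Finset.sum_mul_sq_le_sq_mul_sq V (fun _ => (1 : ℝ)) (fun v => Real.exp (4 * Phi v))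
    simp only [one_mul, one_pow, Finset.sum_const, nsmul_eq_mul, mul_one] at h1
    refine h1.trans ?_
    gcongr
    refine le_trans ?_ (hphi (2 * (R / g)) (by positivity))
    have h2 : ∀ v : ℕ, Real.exp (4 * Phi v) ^ 2 = Real.exp ((8 : ℕ) * Phi v) := by
      intro v
      rw [← Real.exp_nat_mul]
      congr 1
      push_cast
      ring
    rw [Finset.sum_congr rfl fun v _ => h2 v]
    apply Finset.sum_le_sum_of_subset_of_nonneg
    · intro v hv
      rw [Finset.mem_Icc]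
      refine ⟨(hV v hv).1, Nat.le_floor ?_⟩
      rw [← mul_div_assoc, le_div_iff₀ hG]
      have := hhi v hv
      linarith
    · intro v _ _
      positivity
  have hfin := Alpha1_combine hK8 hU hG hR hc0 hN0 hN1 hN2 hS
  have hgu : ((g * u : ℕ) : ℝ) = (g : ℝ) * u := by push_cast; ring
  rw [hgu]
  refine le_trans ?_ hfin
  rw [Finset.mul_sum, Finset.sum_div]
  apply Finset.sum_le_sum
  intro v hv
  have hvr : (0 : ℝ) < v := by exact_mod_cast (hV v hv).1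
  have := hlo v hv
  push_cast
  gcongr

end Vale.Agent.P028EV
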