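import Vale.Agent.P028EV.Defs

/-!
Module PHIDIV: divisor sums of the weights.

`f(g) = g^{-1/32} exp (2 Phi g)` satisfies `f(mn) = f(m) f(n)` for coprime `m, n`, so
`∑_{g ∣ q} f(g) ≤ ∏_{p ∣ q} (1 + e² ∑_{i ≥ 1} p^{-i/32}) ≤ ∏_{p∣q} (1 + M p^{-1/32})
≤ exp (M ∑_{p ∣ q} p^{-1/32})`.  And `M p^{-1/32} ≤ p^{-1/64}` for `p ≥ p₀ = M^{64}`,
so `M ∑_{p∣q} p^{-1/32} ≤ Phi q + M p₀`.
-/

namespace Vale.Agent.P028EV

open Finset MeasureTheory

theorem phidiv_Phi_mul {m n : ℕ} (h : Nat.Coprime m n) : Phi (m * n) = Phi m + Phi n := by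
  unfold Phi
  rw [h.primeFactors_mul, Finset.sum_union h.disjoint_primeFactors]

/-- the weight as an arithmetic function -/
noncomputable def phidiv_f : ArithmeticFunction ℝ :=
  ⟨fun n => if n = 0 then 0 else (n : ℝ) ^ (-(1 / 32) : ℝ) * Real.exp (2 * Phi n), by simp⟩

theorem phidiv_f_apply {n : ℕ} (h : n ≠ 0) :
    phidiv_f n = (n : ℝ) ^ (-(1 / 32) : ℝ) * Real.exp (2 * Phi n) := by
  show (if n = 0 then 0 else (n : ℝ) ^ (-(1 / 32) : ℝ) * Real.exp (2 * Phi n)) = _
  rw [if_neg h]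

theorem phidiv_mult : phidiv_f.IsMultiplicative := by
  rw [ArithmeticFunction.IsMultiplicative.iff_ne_zero]
  constructor
  · rw [phidiv_f_apply one_ne_zero]
    simp [Phi]
  · intro m n hm hn h
    rw [phidiv_f_apply hm, phidiv_f_apply hn, phidiv_f_apply (mul_ne_zero hm hn),
      phidiv_Phi_mul h, Nat.cast_mul, Real.mul_rpow (Nat.cast_nonneg _) (Nat.cast_nonneg _),
      mul_add, Real.exp_add]
    ring

theorem phidiv_pow_le {p : ℕ} (hp : p.Prime) {s : ℝ} (hs : 0 < s) :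
    (p : ℝ) ^ (-s) ≤ (2 : ℝ) ^ (-s) := by
  apply Real.rpow_le_rpow_of_nonpos (by norm_num) (by exact_mod_cast hp.two_le) (by linarith)

theorem phidiv_local {p : ℕ} (hp : p.Prime) (k : ℕ) :
    ∑ i ∈ range (k + 1), phidiv_f (p ^ i) ≤
      1 + Real.exp 2 / (1 - (2 : ℝ) ^ (-(1 / 32) : ℝ)) * (p : ℝ) ^ (-(1 / 32) : ℝ) := by
  set r : ℝ := (p : ℝ) ^ (-(1 / 32) : ℝ) with hr
  set c : ℝ := (2 : ℝ) ^ (-(1 / 32) : ℝ) with hc
  have hp0 : (0 : ℝ) < p := by exact_mod_cast hp.pos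
  have hr0 : 0 < r := Real.rpow_pos_of_pos hp0 _
  have hrc : r ≤ c := phidiv_pow_le hp (by norm_num)
  have hc1 : c < 1 := Real.rpow_lt_one_of_one_lt_of_neg (by norm_num) (by norm_num)
  have hterm : ∀ i, phidiv_f (p ^ (i + 1)) ≤ Real.exp 2 * (r * r ^ i) := by
    intro i
    rw [phidiv_f_apply (pow_ne_zero _ hp.ne_zero)]
    have h1 : (((p ^ (i + 1) : ℕ) : ℝ)) ^ (-(1 / 32) : ℝ) = r * r ^ i := by
      rw [Nat.cast_pow, ← Real.rpow_natCast, ← Real.rpow_mul hp0.le, mul_comm, ← pow_succ', hr,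
        ← Real.rpow_natCast, ← Real.rpow_mul hp0.le]
    have h2 : Phi (p ^ (i + 1)) ≤ 1 := by
      unfold Phi
      rw [Nat.primeFactors_prime_pow (Nat.succ_ne_zero i) hp, Finset.sum_singleton]
      exact Real.rpow_le_one_of_one_le_of_nonpos (by exact_mod_cast hp.one_lt.le) (by norm_num)
    rw [h1, mul_comm]
    exact mul_le_mul_of_nonneg_right (Real.exp_le_exp.mpr (by linarith)) (by positivity)
  rw [Finset.sum_range_succ']
  have h0 : phidiv_f (p ^ 0) = 1 := by
    rw [pow_zero]; exact phidiv_mult.1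
  rw [h0, add_comm]
  refine add_le_add_right ?_ 1
  calc ∑ i ∈ range k, phidiv_f (p ^ (i + 1)) ≤ ∑ i ∈ range k, Real.exp 2 * (r * r ^ i) :=
        Finset.sum_le_sum fun i _ => hterm i
    _ = Real.exp 2 * (r * ∑ i ∈ range k, r ^ i) := by
        rw [Finset.mul_sum, Finset.mul_sum]
    _ ≤ Real.exp 2 * (r * (1 / (1 - c))) := by
        refine mul_le_mul_of_nonneg_left (mul_le_mul_of_nonneg_left ?_ hr0.le) (Real.exp_pos _).le
        have h1 : r < 1 := hrc.trans_lt hc1
        calc ∑ i ∈ range k, r ^ i ≤ (1 - r)⁻¹ := by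
              rw [← tsum_geometric_of_lt_one hr0.le h1]
              exact (summable_geometric_of_lt_one hr0.le h1).sum_le_tsum _
                (fun i _ => by positivity)
          _ ≤ 1 / (1 - c) := by
              rw [one_div]
              exact inv_anti₀ (by linarith) (by linarith)
    _ = Real.exp 2 / (1 - c) * r := by ring

theorem phi_div : ∃ K : ℝ, 0 < K ∧ ∀ q : ℕ, 0 < q →
    ∑ g ∈ q.divisors, (g : ℝ) ^ (-(1 / 32) : ℝ) * Real.exp (2 * Phi g - Phi q) ≤ K := by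
  set M : ℝ := Real.exp 2 / (1 - (2 : ℝ) ^ (-(1 / 32) : ℝ)) with hM
  have hc1 : (2 : ℝ) ^ (-(1 / 32) : ℝ) < 1 :=
    Real.rpow_lt_one_of_one_lt_of_neg (by norm_num) (by norm_num)
  have hM0 : 0 < M := div_pos (Real.exp_pos _) (by linarith)
  obtain ⟨N, hN⟩ := exists_nat_ge (M ^ 64)
  refine ⟨Real.exp (M * N), Real.exp_pos _, fun q hq => ?_⟩
  have hq0 : q ≠ 0 := hq.ne'
  have h1 : ∑ g ∈ q.divisors, (g : ℝ) ^ (-(1 / 32) : ℝ) * Real.exp (2 * Phi g - Phi q) =
      (∑ g ∈ q.divisors, phidiv_f g) * Real.exp (-Phi q) := by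
    rw [Finset.sum_mul]
    refine Finset.sum_congr rfl fun g hg => ?_
    rw [phidiv_f_apply (Nat.pos_of_mem_divisors hg).ne', sub_eq_add_neg, Real.exp_add]
    ring
  have h2 : ∑ g ∈ q.divisors, phidiv_f g =
      ∏ p ∈ q.primeFactors, ∑ i ∈ range (q.factorization p + 1), phidiv_f (p ^ i) := by
    rw [← ArithmeticFunction.coe_mul_zeta_apply]
    have hm : (phidiv_f * ((ArithmeticFunction.zeta : ArithmeticFunction ℕ) :
        ArithmeticFunction ℝ)).IsMultiplicative :=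
      phidiv_mult.mul ArithmeticFunction.isMultiplicative_zeta.natCast
    rw [hm.multiplicative_factorization _ hq0]
    rw [Finsupp.prod, Nat.support_factorization]
    refine Finset.prod_congr rfl fun p hp => ?_
    rw [ArithmeticFunction.coe_mul_zeta_apply,
      Nat.sum_divisors_prime_pow (Nat.prime_of_mem_primeFactors hp)]
  have hfac : ∀ p ∈ q.primeFactors,
      ∑ i ∈ range (q.factorization p + 1), phidiv_f (p ^ i) ≤
        Real.exp (M * (p : ℝ) ^ (-(1 / 32) : ℝ)) := by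
    intro p hp
    refine (phidiv_local (Nat.prime_of_mem_primeFactors hp) _).trans ?_
    rw [add_comm]
    exact Real.add_one_le_exp _
  have hnn : ∀ p ∈ q.primeFactors,
      0 ≤ ∑ i ∈ range (q.factorization p + 1), phidiv_f (p ^ i) := by
    intro p hp
    refine Finset.sum_nonneg fun i _ => ?_
    rw [phidiv_f_apply (pow_ne_zero _ (Nat.prime_of_mem_primeFactors hp).ne_zero)]
    positivity
  have h3 : ∑ g ∈ q.divisors, phidiv_f g ≤
      Real.exp (∑ p ∈ q.primeFactors, M * (p : ℝ) ^ (-(1 / 32) : ℝ)) := by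
    rw [h2, Real.exp_sum]
    exact Finset.prod_le_prod hnn hfac
  have h4 : ∑ p ∈ q.primeFactors, M * (p : ℝ) ^ (-(1 / 32) : ℝ) ≤ Phi q + M * N := by
    have h5 : ∀ p ∈ q.primeFactors, M * (p : ℝ) ^ (-(1 / 32) : ℝ) ≤
        (p : ℝ) ^ (-(1 / 64) : ℝ) + (if p < N then M else 0) := by
      intro p hp
      have hpp := Nat.prime_of_mem_primeFactors hp
      have hp0 : (0 : ℝ) < p := by exact_mod_cast hpp.pos
      by_cases hpN : p < N
      · rw [if_pos hpN]
        have h6 : (p : ℝ) ^ (-(1 / 32) : ℝ) ≤ 1 :=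
          Real.rpow_le_one_of_one_le_of_nonpos (by exact_mod_cast hpp.one_lt.le) (by norm_num)
        have h7 : 0 ≤ (p : ℝ) ^ (-(1 / 64) : ℝ) := (Real.rpow_pos_of_pos hp0 _).le
        nlinarith
      · rw [if_neg hpN, add_zero]
        push Not at hpN
        have h6 : M ^ 64 ≤ (p : ℝ) := hN.trans (by exact_mod_cast hpN)
        have h7 : M ≤ (p : ℝ) ^ (1 / 64 : ℝ) := by
          have h8 := Real.rpow_le_rpow (by positivity) h6 (show (0 : ℝ) ≤ 1 / 64 by norm_num)
          rw [← Real.rpow_natCast, ← Real.rpow_mul hM0.le] at h8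
          norm_num at h8
          norm_num
          exact h8
        have h9 : (p : ℝ) ^ (-(1 / 32) : ℝ) = (p : ℝ) ^ (-(1 / 64) : ℝ) * (p : ℝ) ^ (-(1 / 64) : ℝ) := by
          rw [← Real.rpow_add hp0]
          norm_num
        have h10 : M * (p : ℝ) ^ (-(1 / 64) : ℝ) ≤ 1 := by
          rw [Real.rpow_neg hp0.le]
          rw [mul_inv_le_iff₀ (Real.rpow_pos_of_pos hp0 _), one_mul]
          exact h7
        rw [h9, ← mul_assoc]
        have h11 : 0 < (p : ℝ) ^ (-(1 / 64) : ℝ) := Real.rpow_pos_of_pos hp0 _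
        nlinarith
    refine (Finset.sum_le_sum h5).trans ?_
    rw [Finset.sum_add_distrib]
    refine add_le_add le_rfl ?_
    rw [← Finset.sum_filter, Finset.sum_const, nsmul_eq_mul, mul_comm]
    refine mul_le_mul_of_nonneg_left ?_ hM0.le
    have h6 : (q.primeFactors.filter (fun p => p < N)).card ≤ N := by
      calc _ ≤ (range N).card := Finset.card_le_card fun p hp => by
            rw [Finset.mem_range]; exact (Finset.mem_filter.mp hp).2
        _ = N := Finset.card_range N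
    exact_mod_cast h6
  rw [h1]
  calc (∑ g ∈ q.divisors, phidiv_f g) * Real.exp (-Phi q) ≤
        Real.exp (Phi q + M * N) * Real.exp (-Phi q) :=
          mul_le_mul_of_nonneg_right (h3.trans (Real.exp_le_exp.mpr h4)) (Real.exp_pos _).le
    _ = Real.exp (M * N) := by
        rw [← Real.exp_add]
        congr 1
        ring

end Vale.Agent.P028EV
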