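import Vale.Agent.P028EV.Alpha1
import Vale.Agent.P028EV.PhiDiv

/-!
Module ALPHA2: sum of `alpha1` over the dyadic blocks `L` and over `g ∣ q`.

Group the `r` by `g = gcd(q,r) ∈ q.divisors` and `L = log₂ r`; `u = q1 q r = q/g`,
`v = r1 q r = r/g`.  For fixed `g`: `∑_{L ≤ log₂ q} (q/2^L)^{-1/8} ≤ K`,
the same with `1/4`, and `2^L > r/2 ≥ max(g, Q0)/2`, so
`(2^L)^{-1/16} ≤ 2 (g Q0)^{-1/32}`; `(c0/g)^{1/8} ≤ c0^{1/8} g^{-1/32}`.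
Then `weight_le` (with `exp(-4 Phi u) ≤ exp (-3 Phi u)`, `1 ≤ exp (Phi g)`) and `phi_div`.
-/

namespace Vale.Agent.P028EV

open Finset MeasureTheory

private theorem alpha2_theta_lt : (2 : ℝ) ^ (-(1 / 8) : ℝ) < 1 :=
  Real.rpow_lt_one_of_one_lt_of_neg (by norm_num) (by norm_num)

private theorem alpha2_geom (q : ℕ) (hq : 0 < q) :
    ∑ L ∈ range (Nat.log 2 q + 1), ((q : ℝ) / 2 ^ L) ^ (-(1 / 8) : ℝ)
      ≤ (1 - (2 : ℝ) ^ (-(1 / 8) : ℝ))⁻¹ := by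
  set θ : ℝ := (2 : ℝ) ^ (-(1 / 8) : ℝ) with hθ
  have hθ0 : 0 ≤ θ := by positivity
  have hθ1 : θ < 1 := alpha2_theta_lt
  have h1 : ∀ L ∈ range (Nat.log 2 q + 1), ((q : ℝ) / 2 ^ L) ^ (-(1 / 8) : ℝ)
      ≤ θ ^ (Nat.log 2 q + 1 - 1 - L) := by
    intro L hL
    rw [Finset.mem_range] at hL
    have hlog : (2 : ℝ) ^ (Nat.log 2 q) ≤ (q : ℝ) := by
      exact_mod_cast Nat.pow_log_le_self 2 hq.ne'
    have h2 : (2 : ℝ) ^ (Nat.log 2 q - L) ≤ (q : ℝ) / 2 ^ L := by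
      rw [le_div_iff₀ (by positivity), ← pow_add]
      have : Nat.log 2 q - L + L = Nat.log 2 q := by omega
      rw [this]; exact hlog
    have h3 : ((q : ℝ) / 2 ^ L) ^ (-(1 / 8) : ℝ)
        ≤ ((2 : ℝ) ^ (Nat.log 2 q - L)) ^ (-(1 / 8) : ℝ) :=
      Real.rpow_le_rpow_of_nonpos (by positivity) h2 (by norm_num)
    refine h3.trans (le_of_eq ?_)
    have e : Nat.log 2 q + 1 - 1 - L = Nat.log 2 q - L := by omega
    rw [e, hθ, ← Real.rpow_natCast, ← Real.rpow_mul (by norm_num), mul_comm,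
      Real.rpow_mul (by norm_num), Real.rpow_natCast]
  refine (Finset.sum_le_sum h1).trans ?_
  rw [Finset.sum_range_reflect (fun j => θ ^ j) (Nat.log 2 q + 1)]
  exact sum_le_hasSum _ (fun i _ => pow_nonneg hθ0 i) (hasSum_geometric_of_lt_one hθ0 hθ1)

private theorem alpha2_scal (c0 Q0 : ℝ) (g L r q : ℕ) (hc0 : 0 < c0) (hQ0 : 1 ≤ Q0) (hg : 0 < g)
    (hgr : g ≤ r) (hrQ : Q0 ≤ (r : ℝ)) (hL : Nat.log 2 r = L) (hrq : r < q) :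
    (c0 / g) ^ (1 / 8 : ℝ) * ((q : ℝ) / 2 ^ L) ^ (-(1 / 8) : ℝ) +
          ((2 : ℝ) ^ L) ^ (-(1 / 16) : ℝ) * ((q : ℝ) / 2 ^ L) ^ (-(1 / 4) : ℝ)
      ≤ 2 * (g : ℝ) ^ (-(1 / 32) : ℝ) * (c0 ^ (1 / 8 : ℝ) + Q0 ^ (-(1 / 32) : ℝ)) *
        ((q : ℝ) / 2 ^ L) ^ (-(1 / 8) : ℝ) := by
  have hg1 : (1 : ℝ) ≤ (g : ℝ) := by exact_mod_cast hg
  have hg0 : (0 : ℝ) < (g : ℝ) := by linarith
  have hQ00 : (0 : ℝ) < Q0 := by linarith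
  have hr0 : r ≠ 0 := by omega
  have hpow : (2 : ℝ) ^ L ≤ (r : ℝ) := by
    rw [← hL]; exact_mod_cast Nat.pow_log_le_self 2 hr0
  have hpow2 : (r : ℝ) < 2 * 2 ^ L := by
    have := Nat.lt_pow_succ_log_self (b := 2) (by norm_num) r
    rw [hL] at this
    have h' : (r : ℝ) < (2 : ℝ) ^ (L + 1) := by exact_mod_cast this
    rw [pow_succ] at h'; linarith
  have hy1 : (1 : ℝ) ≤ (q : ℝ) / 2 ^ L := by
    rw [le_div_iff₀ (by positivity), one_mul]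
    have : (r : ℝ) < (q : ℝ) := by exact_mod_cast hrq
    linarith
  set y : ℝ := (q : ℝ) / 2 ^ L with hy
  have hy0 : 0 < y := by linarith
  -- first
  have a1 : (c0 / g) ^ (1 / 8 : ℝ) ≤ c0 ^ (1 / 8 : ℝ) * (g : ℝ) ^ (-(1 / 32) : ℝ) := by
    rw [div_eq_mul_inv, Real.mul_rpow hc0.le (by positivity), Real.inv_rpow hg0.le,
      ← Real.rpow_neg hg0.le]
    exact mul_le_mul_of_nonneg_left
      (Real.rpow_le_rpow_of_exponent_le hg1 (by norm_num)) (by positivity)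
  have a2 : y ^ (-(1 / 4) : ℝ) ≤ y ^ (-(1 / 8) : ℝ) :=
    Real.rpow_le_rpow_of_exponent_le hy1 (by norm_num)
  have a3 : ((2 : ℝ) ^ L) ^ (-(1 / 16) : ℝ)
      ≤ 2 * ((g : ℝ) ^ (-(1 / 32) : ℝ) * Q0 ^ (-(1 / 32) : ℝ)) := by
    have hgr' : (g : ℝ) ≤ (r : ℝ) := by exact_mod_cast hgr
    have b1 : (g : ℝ) * Q0 ≤ (2 * 2 ^ L) ^ 2 := by
      calc (g : ℝ) * Q0 ≤ (r : ℝ) * r := mul_le_mul hgr' hrQ hQ00.le (by positivity)
        _ ≤ (2 * 2 ^ L) * (2 * 2 ^ L) := by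
            apply mul_le_mul hpow2.le hpow2.le (by positivity) (by positivity)
        _ = _ := by ring
    have b2 : ((2 * (2 : ℝ) ^ L) ^ 2) ^ (-(1 / 32) : ℝ) ≤ ((g : ℝ) * Q0) ^ (-(1 / 32) : ℝ) :=
      Real.rpow_le_rpow_of_nonpos (by positivity) b1 (by norm_num)
    have b3 : ((2 * (2 : ℝ) ^ L) ^ 2) ^ (-(1 / 32) : ℝ) = (2 * (2 : ℝ) ^ L) ^ (-(1 / 16) : ℝ) := by
      rw [← Real.rpow_natCast, ← Real.rpow_mul (by positivity)]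
      norm_num
    rw [b3, Real.mul_rpow (by norm_num) (by positivity)] at b2
    rw [Real.mul_rpow hg0.le hQ00.le] at b2
    have b4 : (1 / 2 : ℝ) ≤ (2 : ℝ) ^ (-(1 / 16) : ℝ) := by
      have : (2 : ℝ) ^ (-1 : ℝ) ≤ (2 : ℝ) ^ (-(1 / 16) : ℝ) :=
        Real.rpow_le_rpow_of_exponent_le (by norm_num) (by norm_num)
      rw [Real.rpow_neg_one] at this
      linarith
    have b5 : (0 : ℝ) ≤ ((2 : ℝ) ^ L) ^ (-(1 / 16) : ℝ) := by positivity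
    nlinarith [mul_le_mul_of_nonneg_right b4 b5]
  have hgp : (0 : ℝ) ≤ (g : ℝ) ^ (-(1 / 32) : ℝ) := by positivity
  have hcp : (0 : ℝ) ≤ c0 ^ (1 / 8 : ℝ) := by positivity
  have hQp : (0 : ℝ) ≤ Q0 ^ (-(1 / 32) : ℝ) := by positivity
  have hyp : (0 : ℝ) ≤ y ^ (-(1 / 8) : ℝ) := by positivity
  have t1 : (c0 / g) ^ (1 / 8 : ℝ) * y ^ (-(1 / 8) : ℝ)
      ≤ c0 ^ (1 / 8 : ℝ) * (g : ℝ) ^ (-(1 / 32) : ℝ) * y ^ (-(1 / 8) : ℝ) :=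
    mul_le_mul_of_nonneg_right a1 hyp
  have t2 : ((2 : ℝ) ^ L) ^ (-(1 / 16) : ℝ) * y ^ (-(1 / 4) : ℝ)
      ≤ 2 * ((g : ℝ) ^ (-(1 / 32) : ℝ) * Q0 ^ (-(1 / 32) : ℝ)) * y ^ (-(1 / 8) : ℝ) :=
    mul_le_mul a3 a2 (by positivity) (by positivity)
  have t3 : 0 ≤ c0 ^ (1 / 8 : ℝ) * (g : ℝ) ^ (-(1 / 32) : ℝ) * y ^ (-(1 / 8) : ℝ) := by positivity
  calc _ ≤ c0 ^ (1 / 8 : ℝ) * (g : ℝ) ^ (-(1 / 32) : ℝ) * y ^ (-(1 / 8) : ℝ)
      + 2 * ((g : ℝ) ^ (-(1 / 32) : ℝ) * Q0 ^ (-(1 / 32) : ℝ)) * y ^ (-(1 / 8) : ℝ) :=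
        add_le_add t1 t2
    _ ≤ 2 * (c0 ^ (1 / 8 : ℝ) * (g : ℝ) ^ (-(1 / 32) : ℝ) * y ^ (-(1 / 8) : ℝ))
      + 2 * ((g : ℝ) ^ (-(1 / 32) : ℝ) * Q0 ^ (-(1 / 32) : ℝ)) * y ^ (-(1 / 8) : ℝ) := by
        linarith
    _ = _ := by ring

open Classical in
private theorem alpha2_block (K1 : ℝ) (hK1 : 0 < K1)
    (h1 : ∀ (γ : ℝ) (ψ : ℕ → ℝ) (c0 : ℝ) (g u L : ℕ),
    0 < g → 0 < u → 0 < c0 → c0 ≤ 1 / 4 →
    0 ≤ ψ (g * u) → ψ (g * u) ≤ c0 / ((g * u : ℕ) : ℝ) →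
    ∀ V : Finset ℕ, (∀ v ∈ V, 0 < v ∧ v < u ∧ Nat.Coprime u v ∧ Nat.log 2 (g * v) = L ∧
      0 ≤ ψ (g * v) ∧ ψ (g * v) ≤ c0 / ((g * v : ℕ) : ℝ) ∧ ND γ ψ (g * u) (g * v)) →
    ∑ v ∈ V, (((g * u : ℕ) : ℝ) / ((g * v : ℕ) : ℝ)) ^ (5 / 8 : ℝ) * Real.exp (4 * Phi v) / u
      ≤ K1 * ((c0 / g) ^ (1 / 8 : ℝ) * (((g * u : ℕ) : ℝ) / 2 ^ L) ^ (-(1 / 8) : ℝ) +
          ((2 : ℝ) ^ L) ^ (-(1 / 16) : ℝ) * (((g * u : ℕ) : ℝ) / 2 ^ L) ^ (-(1 / 4) : ℝ)))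
    (γ : ℝ) (ψ : ℕ → ℝ) (c0 Q0 : ℝ) (S : Finset ℕ) (q : ℕ)
    (hc0 : 0 < c0) (hc04 : c0 ≤ 1 / 4) (hQ0 : 1 ≤ Q0)
    (hS : ∀ r ∈ S, Q0 ≤ (r : ℝ) ∧ 0 ≤ ψ r ∧ ψ r ≤ c0 / r) (hqS : q ∈ S) (g L : ℕ)
    (hg : g ∈ q.divisors) :
    ∑ r ∈ (S.filter (fun r => r < q ∧ ND γ ψ q r)).filter
        (fun r => (Nat.gcd q r, Nat.log 2 r) = (g, L)),
      ((q : ℝ) / r) ^ (5 / 8 : ℝ) * Real.exp (4 * Phi (r1 q r) - 4 * Phi (q1 q r)) /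
        ((q1 q r : ℝ) * ww (q1 q r))
      ≤ (2 * K1 * (c0 ^ (1 / 8 : ℝ) + Q0 ^ (-(1 / 32) : ℝ))) *
        ((g : ℝ) ^ (-(1 / 32) : ℝ) * (Real.exp (-(4 * Phi (q / g))) * (ww (q / g))⁻¹)) *
        ((q : ℝ) / 2 ^ L) ^ (-(1 / 8) : ℝ) := by
  have hg' := Nat.mem_divisors.mp hg
  have hq0 : 0 < q := Nat.pos_of_ne_zero hg'.2
  have hg0 : 0 < g := Nat.pos_of_dvd_of_pos hg'.1 hq0
  obtain ⟨u, hu⟩ := hg'.1
  have hu0 : 0 < u := by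
    rcases Nat.eq_zero_or_pos u with h | h
    · rw [h, mul_zero] at hu; omega
    · exact h
  have hqg : q / g = u := by rw [hu]; exact Nat.mul_div_cancel_left u hg0
  rw [hqg]
  set T := (S.filter (fun r => r < q ∧ ND γ ψ q r)).filter
        (fun r => (Nat.gcd q r, Nat.log 2 r) = (g, L)) with hT
  have hWpos : 0 < Real.exp (-(4 * Phi u)) * (ww u)⁻¹ :=
    mul_pos (Real.exp_pos _) (inv_pos.mpr (ww_pos u))
  have hgpos : (0 : ℝ) < (g : ℝ) := by exact_mod_cast hg0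
  have hqpos : (0 : ℝ) < (q : ℝ) := by exact_mod_cast hq0
  have hX : 0 ≤ c0 ^ (1 / 8 : ℝ) + Q0 ^ (-(1 / 32) : ℝ) := by
    have : 0 < Q0 := by linarith
    positivity
  rcases T.eq_empty_or_nonempty with hE | ⟨r0, hr0⟩
  · rw [hE, Finset.sum_empty]
    positivity
  · have hmem : ∀ r ∈ T, r ∈ S ∧ r < q ∧ ND γ ψ q r ∧ Nat.gcd q r = g ∧ Nat.log 2 r = L := by
      intro r hr
      rw [hT, Finset.mem_filter, Finset.mem_filter, Prod.mk.injEq] at hr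
      exact ⟨hr.1.1, hr.1.2.1, hr.1.2.2, hr.2.1, hr.2.2⟩
    have hgr : ∀ r ∈ T, g * (r / g) = r := by
      intro r hr
      obtain ⟨_, _, _, h4, _⟩ := hmem r hr
      exact Nat.mul_div_cancel' (h4 ▸ Nat.gcd_dvd_right q r)
    have hrpos : ∀ r ∈ T, 0 < r := by
      intro r hr
      have h5 := (hS r (hmem r hr).1).1
      have : (0 : ℝ) < (r : ℝ) := by linarith
      exact_mod_cast this
    have hinj : Set.InjOn (fun r => r / g) (T : Set ℕ) := by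
      intro a ha b hb hab
      simp only at hab
      rw [← hgr a ha, ← hgr b hb, hab]
    have hV : ∀ v ∈ T.image (fun r => r / g), 0 < v ∧ v < u ∧ Nat.Coprime u v ∧
        Nat.log 2 (g * v) = L ∧
        0 ≤ ψ (g * v) ∧ ψ (g * v) ≤ c0 / ((g * v : ℕ) : ℝ) ∧ ND γ ψ (g * u) (g * v) := by
      intro v hv
      rw [Finset.mem_image] at hv
      obtain ⟨r, hr, rfl⟩ := hv
      obtain ⟨m1, m2, m3, m4, m5⟩ := hmem r hr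
      have e := hgr r hr
      refine ⟨?_, ?_, ?_, ?_, ?_, ?_, ?_⟩
      · exact Nat.div_pos (Nat.le_of_dvd (hrpos r hr) ⟨r / g, e.symm⟩) hg0
      · rw [← e, hu] at m2
        exact lt_of_mul_lt_mul_left m2 (Nat.zero_le g)
      · have := Nat.coprime_div_gcd_div_gcd (m := q) (n := r) (by rw [m4]; exact hg0)
        rw [m4, hqg] at this
        exact this
      · rw [e]; exact m5
      · rw [e]; exact (hS r m1).2.1
      · rw [e]; exact (hS r m1).2.2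
      · rw [e, ← hu]; exact m3
    have hmain := h1 γ ψ c0 g u L hg0 hu0 hc0 hc04 (by rw [← hu]; exact (hS q hqS).2.1)
      (by rw [← hu]; exact (hS q hqS).2.2) _ hV
    rw [Finset.sum_image hinj, ← hu] at hmain
    have hterm : ∀ r ∈ T, ((q : ℝ) / r) ^ (5 / 8 : ℝ) *
        Real.exp (4 * Phi (r1 q r) - 4 * Phi (q1 q r)) / ((q1 q r : ℝ) * ww (q1 q r))
        = (((q : ℝ) / ((g * (r / g) : ℕ) : ℝ)) ^ (5 / 8 : ℝ) * Real.exp (4 * Phi (r / g)) / u) *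
          (Real.exp (-(4 * Phi u)) * (ww u)⁻¹) := by
      intro r hr
      obtain ⟨m1, m2, m3, m4, m5⟩ := hmem r hr
      have eq1 : q1 q r = u := by unfold q1; rw [m4]; exact hqg
      have er1 : r1 q r = r / g := by unfold r1; rw [m4]
      rw [eq1, er1, hgr r hr, sub_eq_add_neg, Real.exp_add]
      have : ww u ≠ 0 := (ww_pos u).ne'
      have : (u : ℝ) ≠ 0 := by exact_mod_cast hu0.ne'
      field_simp
    rw [Finset.sum_congr rfl hterm, ← Finset.sum_mul]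
    obtain ⟨m1, m2, m3, m4, m5⟩ := hmem r0 hr0
    have hscal := alpha2_scal c0 Q0 g L r0 q hc0 hQ0 hg0
      (Nat.le_of_dvd (hrpos r0 hr0) (m4 ▸ Nat.gcd_dvd_right q r0)) (hS r0 m1).1 m5 m2
    calc _ ≤ (K1 * (2 * (g : ℝ) ^ (-(1 / 32) : ℝ) * (c0 ^ (1 / 8 : ℝ) + Q0 ^ (-(1 / 32) : ℝ)) *
        ((q : ℝ) / 2 ^ L) ^ (-(1 / 8) : ℝ))) * (Real.exp (-(4 * Phi u)) * (ww u)⁻¹) := by
          refine mul_le_mul_of_nonneg_right (hmain.trans ?_) hWpos.le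
          exact mul_le_mul_of_nonneg_left hscal hK1.le
      _ = _ := by ring

open Classical in
theorem alpha_sum : ∃ K : ℝ, 0 < K ∧ ∀ (γ : ℝ) (ψ : ℕ → ℝ) (c0 Q0 : ℝ) (S : Finset ℕ) (q : ℕ),
    0 < c0 → c0 ≤ 1 / 4 → 1 ≤ Q0 →
    (∀ r ∈ S, Q0 ≤ (r : ℝ) ∧ 0 ≤ ψ r ∧ ψ r ≤ c0 / r) → q ∈ S →
    ∑ r ∈ S with r < q ∧ ND γ ψ q r,
      ((q : ℝ) / r) ^ (5 / 8 : ℝ) * Real.exp (4 * Phi (r1 q r) - 4 * Phi (q1 q r)) /
        ((q1 q r : ℝ) * ww (q1 q r))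
      ≤ K * (c0 ^ (1 / 8 : ℝ) + Q0 ^ (-(1 / 32) : ℝ)) := by
  obtain ⟨K1, hK1, h1⟩ := alpha1
  obtain ⟨K3, hK3, h3⟩ := phi_div
  have hK2 : 0 < (1 - (2 : ℝ) ^ (-(1 / 8) : ℝ))⁻¹ :=
    inv_pos.mpr (by linarith [alpha2_theta_lt])
  refine ⟨2 * K1 * (1 - (2 : ℝ) ^ (-(1 / 8) : ℝ))⁻¹ * K3, by positivity, ?_⟩
  intro γ ψ c0 Q0 S q hc0 hc04 hQ0 hS hqS
  have hq0 : 0 < q := by
    have h5 := (hS q hqS).1
    have : (0 : ℝ) < (q : ℝ) := by linarith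
    exact_mod_cast this
  set X : ℝ := c0 ^ (1 / 8 : ℝ) + Q0 ^ (-(1 / 32) : ℝ) with hX
  have hX0 : 0 ≤ X := by
    have : 0 < Q0 := by linarith
    positivity
  have hmaps : ∀ r ∈ S.filter (fun r => r < q ∧ ND γ ψ q r),
      (Nat.gcd q r, Nat.log 2 r) ∈ q.divisors ×ˢ range (Nat.log 2 q + 1) := by
    intro r hr
    rw [Finset.mem_filter] at hr
    rw [Finset.mem_product]
    refine ⟨Nat.mem_divisors.mpr ⟨Nat.gcd_dvd_left q r, hq0.ne'⟩, ?_⟩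
    rw [Finset.mem_range]
    have hlog : Nat.log 2 r ≤ Nat.log 2 q := Nat.log_mono_right hr.2.1.le
    exact Nat.lt_succ_of_le hlog
  rw [← Finset.sum_fiberwise_of_maps_to hmaps, Finset.sum_product]
  have step1 : ∀ g ∈ q.divisors, ∑ L ∈ range (Nat.log 2 q + 1),
      ∑ r ∈ (S.filter (fun r => r < q ∧ ND γ ψ q r)).filter
        (fun r => (Nat.gcd q r, Nat.log 2 r) = (g, L)),
      ((q : ℝ) / r) ^ (5 / 8 : ℝ) * Real.exp (4 * Phi (r1 q r) - 4 * Phi (q1 q r)) /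
        ((q1 q r : ℝ) * ww (q1 q r))
      ≤ (2 * K1 * (1 - (2 : ℝ) ^ (-(1 / 8) : ℝ))⁻¹ * X) *
        ((g : ℝ) ^ (-(1 / 32) : ℝ) * Real.exp (2 * Phi g - Phi q)) := by
    intro g hg
    have hg' := Nat.mem_divisors.mp hg
    have hg0 : 0 < g := Nat.pos_of_dvd_of_pos hg'.1 hq0
    have hu0 : 0 < q / g := Nat.div_pos (Nat.le_of_dvd hq0 hg'.1) hg0
    have hgu : g * (q / g) = q := Nat.mul_div_cancel' hg'.1
    have hgpos : (0 : ℝ) < (g : ℝ) := by exact_mod_cast hg0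
    refine (Finset.sum_le_sum (fun L _ => alpha2_block K1 hK1 h1 γ ψ c0 Q0 S q hc0 hc04 hQ0 hS
      hqS g L hg)).trans ?_
    rw [← Finset.mul_sum]
    have hw : Real.exp (-(4 * Phi (q / g))) * (ww (q / g))⁻¹ ≤ Real.exp (2 * Phi g - Phi q) := by
      have h := weight_le hg0 hu0
      rw [hgu] at h
      refine le_trans ?_ h
      refine mul_le_mul_of_nonneg_right ?_ (inv_nonneg.mpr (ww_pos _).le)
      rw [← Real.exp_add]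
      apply Real.exp_le_exp.mpr
      have p1 := Phi_nonneg g
      have p2 := Phi_nonneg (q / g)
      linarith
    have hA : 0 ≤ (2 * K1 * X) * ((g : ℝ) ^ (-(1 / 32) : ℝ) *
        (Real.exp (-(4 * Phi (q / g))) * (ww (q / g))⁻¹)) := by
      have := ww_pos (q / g)
      positivity
    calc _ ≤ (2 * K1 * X) * ((g : ℝ) ^ (-(1 / 32) : ℝ) *
        (Real.exp (-(4 * Phi (q / g))) * (ww (q / g))⁻¹)) * (1 - (2 : ℝ) ^ (-(1 / 8) : ℝ))⁻¹ :=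
          mul_le_mul_of_nonneg_left (alpha2_geom q hq0) hA
      _ ≤ (2 * K1 * X) * ((g : ℝ) ^ (-(1 / 32) : ℝ) *
        Real.exp (2 * Phi g - Phi q)) * (1 - (2 : ℝ) ^ (-(1 / 8) : ℝ))⁻¹ := by
          refine mul_le_mul_of_nonneg_right ?_ hK2.le
          refine mul_le_mul_of_nonneg_left ?_ (by positivity)
          exact mul_le_mul_of_nonneg_left hw (by positivity)
      _ = _ := by ring
  refine (Finset.sum_le_sum step1).trans ?_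
  rw [← Finset.mul_sum]
  calc _ ≤ (2 * K1 * (1 - (2 : ℝ) ^ (-(1 / 8) : ℝ))⁻¹ * X) * K3 :=
        mul_le_mul_of_nonneg_left (h3 q hq0) (by positivity)
    _ = _ := by ring

end Vale.Agent.P028EV
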