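import Vale.Agent.P028EV.Weights
import Vale.Agent.P028EV.PhiSum
import Vale.Agent.P028EV.PhiDiv

/-!
Module BADA: bad pairs, fixed larger number `q`.

Group by `g = gcd(q,r)`, `u = q/g`, `v = r/g`, and `m = mm ψ q r`; `T' = u ψ r`,
`2^m ≤ 4 T' < 2^{m+1}`, `z = m/2`.  From `T' ≤ u c0/(g v)`: `v ≤ Y := 4 c0 u/(g 2^m)`.
`bad_gain`: `1 ≤ exp(-√z/2) (e^{Phi g} + e^{Phi u} + e^{Phi v}) ≤ 3 exp(-√z/2) e^{Phi g + Phi u + Phi v}`.
Sum over `v ≤ Y` of `exp (5 Phi v) ≤ K₅ Y` (`phi_sum 5`):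
`∑_v T' e^{4 Phi v - 4 Phi u}/(u ww u) ≤ (2^m/2) · 3 e^{-√z/2} e^{Phi g} e^{-3 Phi u} K₅ Y/(u ww u)
 ≤ K c0 (1/g) e^{Phi g} e^{-3 Phi u} (ww u)⁻¹ e^{-√z/2}`;
sum over `m` (`∑_m exp (-√(m/2)/2) < ∞`), then `weight_le`, `1/g ≤ g^{-1/32}`, `phi_div`.
-/

namespace Vale.Agent.P028EV

open Finset MeasureTheory

/-- the gain at the dyadic index `m` -/
noncomputable def bad_E (m : ℕ) : ℝ := Real.exp (-(Real.sqrt ((m / 2 : ℕ) : ℝ) / 2))

theorem bad_E_pos (m : ℕ) : 0 < bad_E m := Real.exp_pos _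

theorem bad_E_le (m : ℕ) : bad_E m ≤ 6144 * (1 / ((m + 1 : ℕ) : ℝ) ^ 2) := by
  unfold bad_E
  set z : ℕ := m / 2 with hz
  set x : ℝ := Real.sqrt (z : ℝ) / 2 with hx
  have hx0 : 0 ≤ x := by positivity
  have hm0 : (0 : ℝ) < ((m + 1 : ℕ) : ℝ) ^ 2 := by positivity
  have key : ((m + 1 : ℕ) : ℝ) ^ 2 ≤ 6144 * Real.exp x := by
    rcases Nat.eq_zero_or_pos z with h0 | h0
    · have h1 : m ≤ 1 := by omega
      have h2 : ((m + 1 : ℕ) : ℝ) ≤ 2 := by exact_mod_cast Nat.succ_le_succ h1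
      have h3 : (1 : ℝ) ≤ Real.exp x := Real.one_le_exp hx0
      have h4 : (0 : ℝ) ≤ ((m + 1 : ℕ) : ℝ) := by positivity
      nlinarith
    · have h1 : m + 1 ≤ 4 * z := by omega
      have h2 : ((m + 1 : ℕ) : ℝ) ≤ 4 * z := by exact_mod_cast h1
      have h3 := Real.pow_div_factorial_le_exp x hx0 4
      have h4 : x ^ 4 = (z : ℝ) ^ 2 / 16 := by
        have h5 : Real.sqrt (z : ℝ) ^ 2 = z := Real.sq_sqrt (Nat.cast_nonneg z)
        calc x ^ 4 = (Real.sqrt (z : ℝ) ^ 2) ^ 2 / 16 := by rw [hx]; ring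
          _ = _ := by rw [h5]
      rw [h4] at h3
      have h6 : ((Nat.factorial 4 : ℕ) : ℝ) = 24 := by norm_num [Nat.factorial]
      rw [h6] at h3
      have h7 : ((m + 1 : ℕ) : ℝ) ^ 2 ≤ (4 * (z : ℝ)) ^ 2 :=
        pow_le_pow_left₀ (by positivity) h2 2
      have h8 : (z : ℝ) ^ 2 ≤ 384 * Real.exp x := by
        have := (div_le_iff₀ (by norm_num : (0 : ℝ) < 24)).1 h3
        linarith
      nlinarith
  rw [Real.exp_neg, mul_one_div, le_div_iff₀ hm0, inv_mul_le_iff₀ (Real.exp_pos x)]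
  linarith

theorem bad_E_summable : Summable bad_E := by
  refine Summable.of_nonneg_of_le (fun m => (bad_E_pos m).le) bad_E_le ?_
  refine Summable.mul_left _ ?_
  exact (summable_nat_add_iff 1 (f := fun n : ℕ => 1 / (n : ℝ) ^ 2)).2
    (Real.summable_one_div_nat_pow.2 one_lt_two)

/-- the common summation argument -/
theorem bad_core : ∃ K : ℝ, 0 < K ∧ ∀ (n : ℕ), 0 < n → ∀ (S' : Finset ℕ)
    (gf mf wf : ℕ → ℕ) (F : ℕ → ℝ) (A Y : ℕ → ℕ → ℝ) (B : ℝ), 0 ≤ B →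
    (∀ g m, 0 ≤ A g m) → (∀ g m, 0 ≤ Y g m) →
    (∀ g m, g ∣ n → A g m * Y g m ≤
      B * (bad_E m * ((g : ℝ) ^ (-(1 / 32) : ℝ) * Real.exp (2 * Phi g - Phi n)))) →
    (∀ x ∈ S', gf x ∣ n ∧ 1 ≤ wf x ∧ (wf x : ℝ) ≤ Y (gf x) (mf x) ∧ x = gf x * wf x ∧
      F x ≤ A (gf x) (mf x) * Real.exp (5 * Phi (wf x))) →
    ∑ x ∈ S', F x ≤ K * B := by
  classical
  obtain ⟨K5, hK5, h5⟩ := phi_sum 5
  obtain ⟨Kd, hKd, hd⟩ := phi_div
  have hEt : 0 < ∑' m, bad_E m :=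
    bad_E_summable.tsum_pos (fun m => (bad_E_pos m).le) 0 (bad_E_pos 0)
  refine ⟨K5 * ((∑' m, bad_E m) * Kd), by positivity, ?_⟩
  intro n hn S' gf mf wf F A Y B hB hA hY hAY hS
  set M : ℕ := S'.sup mf + 1 with hM
  set T : Finset (Σ _ : ℕ × ℕ, ℕ) :=
    (n.divisors ×ˢ range M).sigma (fun p => Icc 1 ⌊Y p.1 p.2⌋₊) with hT
  let φ : ℕ → (Σ _ : ℕ × ℕ, ℕ) := fun x => ⟨(gf x, mf x), wf x⟩
  let G : (Σ _ : ℕ × ℕ, ℕ) → ℝ := fun y => A y.1.1 y.1.2 * Real.exp (5 * Phi y.2)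
  have hG0 : ∀ y, 0 ≤ G y := fun y => mul_nonneg (hA _ _) (Real.exp_pos _).le
  have h1 : ∑ x ∈ S', F x ≤ ∑ x ∈ S', G (φ x) :=
    Finset.sum_le_sum fun x hx => (hS x hx).2.2.2.2
  have hinj : Set.InjOn φ (S' : Set ℕ) := by
    intro x hx y hy hxy
    have e1 : gf x = gf y := congrArg (fun z : (Σ _ : ℕ × ℕ, ℕ) => z.1.1) hxy
    have e2 : wf x = wf y := congrArg (fun z : (Σ _ : ℕ × ℕ, ℕ) => z.2) hxy
    rw [(hS x hx).2.2.2.1, (hS y hy).2.2.2.1, e1, e2]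
  have h2 : ∑ x ∈ S', G (φ x) = ∑ y ∈ S'.image φ, G y := (Finset.sum_image hinj).symm
  have hsub : S'.image φ ⊆ T := by
    intro y hy
    obtain ⟨x, hx, rfl⟩ := Finset.mem_image.1 hy
    obtain ⟨a1, a2, a3, a4, a5⟩ := hS x hx
    rw [hT, Finset.mem_sigma]
    refine ⟨Finset.mem_product.2 ⟨Nat.mem_divisors.2 ⟨a1, hn.ne'⟩, ?_⟩, ?_⟩
    · rw [Finset.mem_range, hM]
      exact Nat.lt_succ_of_le (Finset.le_sup hx)
    · rw [Finset.mem_Icc]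
      exact ⟨a2, Nat.le_floor a3⟩
  have h3 : ∑ y ∈ S'.image φ, G y ≤ ∑ y ∈ T, G y :=
    Finset.sum_le_sum_of_subset_of_nonneg hsub fun y _ _ => hG0 y
  have h4 : ∑ y ∈ T, G y = ∑ p ∈ n.divisors ×ˢ range M, A p.1 p.2 *
      ∑ w ∈ Icc 1 ⌊Y p.1 p.2⌋₊, Real.exp (5 * Phi w) := by
    rw [hT, Finset.sum_sigma]
    refine Finset.sum_congr rfl fun p _ => ?_
    rw [Finset.mul_sum]
  have h6 : ∑ p ∈ n.divisors ×ˢ range M, A p.1 p.2 *
      ∑ w ∈ Icc 1 ⌊Y p.1 p.2⌋₊, Real.exp (5 * Phi w) ≤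
      ∑ p ∈ n.divisors ×ˢ range M, K5 * B * (((p.1 : ℝ) ^ (-(1 / 32) : ℝ) *
        Real.exp (2 * Phi p.1 - Phi n)) * bad_E p.2) := by
    refine Finset.sum_le_sum fun p hp => ?_
    have b1 := h5 (Y p.1 p.2) (hY _ _)
    have b2 : ∑ w ∈ Icc 1 ⌊Y p.1 p.2⌋₊, Real.exp (5 * Phi w) ≤ K5 * Y p.1 p.2 := by
      simpa using b1
    have b3 := hAY p.1 p.2 (Nat.dvd_of_mem_divisors (Finset.mem_product.1 hp).1)
    calc A p.1 p.2 * ∑ w ∈ Icc 1 ⌊Y p.1 p.2⌋₊, Real.exp (5 * Phi w)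
        ≤ A p.1 p.2 * (K5 * Y p.1 p.2) := mul_le_mul_of_nonneg_left b2 (hA _ _)
      _ = K5 * (A p.1 p.2 * Y p.1 p.2) := by ring
      _ ≤ K5 * (B * (bad_E p.2 * ((p.1 : ℝ) ^ (-(1 / 32) : ℝ) *
            Real.exp (2 * Phi p.1 - Phi n)))) := mul_le_mul_of_nonneg_left b3 hK5.le
      _ = _ := by ring
  have h7 : ∑ p ∈ n.divisors ×ˢ range M, K5 * B * (((p.1 : ℝ) ^ (-(1 / 32) : ℝ) *
        Real.exp (2 * Phi p.1 - Phi n)) * bad_E p.2) =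
      K5 * B * ((∑ g ∈ n.divisors, (g : ℝ) ^ (-(1 / 32) : ℝ) * Real.exp (2 * Phi g - Phi n)) *
        ∑ m ∈ range M, bad_E m) := by
    rw [← Finset.mul_sum, Finset.sum_product, Finset.sum_mul]
    congr 1
    refine Finset.sum_congr rfl fun g _ => ?_
    rw [Finset.mul_sum]
  have h8 : ∑ m ∈ range M, bad_E m ≤ ∑' m, bad_E m :=
    bad_E_summable.sum_le_tsum _ (fun m _ => (bad_E_pos m).le)
  have h9 := hd n hn
  have h10 : 0 ≤ ∑ m ∈ range M, bad_E m := Finset.sum_nonneg fun m _ => (bad_E_pos m).le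
  calc ∑ x ∈ S', F x ≤ K5 * B * ((∑ g ∈ n.divisors, (g : ℝ) ^ (-(1 / 32) : ℝ) *
        Real.exp (2 * Phi g - Phi n)) * ∑ m ∈ range M, bad_E m) := by
        rw [← h7]
        exact h1.trans (h2.le.trans (h3.trans (h4.le.trans h6)))
    _ ≤ K5 * B * (Kd * ∑' m, bad_E m) := by
        refine mul_le_mul_of_nonneg_left ?_ (by positivity)
        exact mul_le_mul h9 h8 h10 hKd.le
    _ = _ := by ring

/-- the dyadic index -/
theorem bad_dyadic {T : ℝ} (h : 1 / 4 ≤ T) :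
    (2 : ℝ) ^ (Nat.log 2 ⌊4 * T⌋₊) ≤ 4 * T ∧ 4 * T < 2 * (2 : ℝ) ^ (Nat.log 2 ⌊4 * T⌋₊) := by
  have h1 : (1 : ℝ) ≤ 4 * T := by linarith
  have h2 : 1 ≤ ⌊4 * T⌋₊ := Nat.le_floor (by simpa using h1)
  constructor
  · have h3 : 2 ^ (Nat.log 2 ⌊4 * T⌋₊) ≤ ⌊4 * T⌋₊ := Nat.pow_log_le_self 2 (by omega)
    have h4 : ((2 ^ (Nat.log 2 ⌊4 * T⌋₊) : ℕ) : ℝ) ≤ (⌊4 * T⌋₊ : ℝ) := by exact_mod_cast h3
    have h5 : (⌊4 * T⌋₊ : ℝ) ≤ 4 * T := Nat.floor_le (by linarith)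
    push_cast at h4
    linarith
  · have h3 : ⌊4 * T⌋₊ < 2 ^ (Nat.log 2 ⌊4 * T⌋₊ + 1) := Nat.lt_pow_succ_log_self (by norm_num) _
    have h4 : ⌊4 * T⌋₊ + 1 ≤ 2 ^ (Nat.log 2 ⌊4 * T⌋₊ + 1) := h3
    have h5 : ((⌊4 * T⌋₊ : ℝ)) + 1 ≤ (2 : ℝ) ^ (Nat.log 2 ⌊4 * T⌋₊ + 1) := by exact_mod_cast h4
    have h6 := Nat.lt_floor_add_one (4 * T)
    rw [pow_succ] at h5
    linarith

/-- the gain of a bad pair in product form -/
theorem bad_gain3 {m g u v : ℕ} (hg : 0 < g) (hu : 0 < u) (hv : 0 < v)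
    (h : 1 < ss (m / 2) (g * u) ∨ 1 < ss (m / 2) (g * v)) :
    1 ≤ 3 * bad_E m * (Real.exp (Phi g) * Real.exp (Phi u) * Real.exp (Phi v)) := by
  have h1 := bad_gain hg hu hv h
  have a1 : 1 ≤ Real.exp (Phi g) := Real.one_le_exp (Phi_nonneg g)
  have a2 : 1 ≤ Real.exp (Phi u) := Real.one_le_exp (Phi_nonneg u)
  have a3 : 1 ≤ Real.exp (Phi v) := Real.one_le_exp (Phi_nonneg v)
  have hE := bad_E_pos m
  have hE' : Real.exp (-(Real.sqrt ((m / 2 : ℕ) : ℝ) / 2)) = bad_E m := rfl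
  rw [hE'] at h1
  set a := Real.exp (Phi g)
  set b := Real.exp (Phi u)
  set c := Real.exp (Phi v)
  have b1 : a ≤ a * b * c := by
    have : 1 ≤ b * c := by nlinarith
    nlinarith
  have b2 : b ≤ a * b * c := by
    have : 1 ≤ a * c := by nlinarith
    nlinarith
  have b3 : c ≤ a * b * c := by
    have : 1 ≤ a * b := by nlinarith
    nlinarith
  have b4 : a + b + c ≤ 3 * (a * b * c) := by linarith
  nlinarith [mul_le_mul_of_nonneg_left b4 hE.le]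

theorem bad_inv_le {g : ℕ} (hg : 0 < g) : (1 : ℝ) / g ≤ (g : ℝ) ^ (-(1 / 32) : ℝ) := by
  have h1 : (1 : ℝ) ≤ g := by exact_mod_cast hg
  have h2 : (1 : ℝ) / g = (g : ℝ) ^ (-1 : ℝ) := by
    rw [Real.rpow_neg_one, one_div]
  rw [h2]
  exact Real.rpow_le_rpow_of_exponent_le h1 (by norm_num)

open Classical in
theorem bad_alpha : ∃ K : ℝ, 0 < K ∧ ∀ (ψ : ℕ → ℝ) (c0 : ℝ) (S : Finset ℕ) (q : ℕ),
    0 < c0 → c0 ≤ 1 / 4 → (∀ r ∈ S, 0 < r ∧ 0 ≤ ψ r ∧ ψ r ≤ c0 / r) → q ∈ S →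
    ∑ r ∈ S with r < q ∧ BAD ψ q r,
      ((q1 q r : ℝ) * ψ r) * Real.exp (4 * Phi (r1 q r) - 4 * Phi (q1 q r)) /
        ((q1 q r : ℝ) * ww (q1 q r)) ≤ K * c0 := by
  obtain ⟨K, hK, hcore⟩ := bad_core
  refine ⟨K * 6, by positivity, ?_⟩
  intro ψ c0 S q hc0 _ hS hq
  obtain ⟨hq0, -, -⟩ := hS q hq
  have main := hcore q hq0 (S.filter fun r => r < q ∧ BAD ψ q r)
    (fun r => Nat.gcd q r) (fun r => mm ψ q r) (fun r => r1 q r)
    (fun r => ((q1 q r : ℝ) * ψ r) * Real.exp (4 * Phi (r1 q r) - 4 * Phi (q1 q r)) /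
        ((q1 q r : ℝ) * ww (q1 q r)))
    (fun g m => 3 / 2 * (2 : ℝ) ^ m * bad_E m * Real.exp (Phi g) *
      Real.exp (-(3 * Phi (q / g))) / (((q / g : ℕ) : ℝ) * ww (q / g)))
    (fun g m => 4 * c0 * ((q / g : ℕ) : ℝ) / ((g : ℝ) * 2 ^ m)) (6 * c0) (by positivity)
    ?_ ?_ ?_ ?_
  · calc _ ≤ K * (6 * c0) := main
      _ = _ := by ring
  · intro g m
    have := bad_E_pos m
    have := ww_pos (q / g)
    positivity
  · intro g m
    positivity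
  · intro g m hg
    obtain ⟨u, hu⟩ := hg
    have hg0 : 0 < g := Nat.pos_of_ne_zero (by rintro rfl; simp at hu; omega)
    have hu0 : 0 < u := Nat.pos_of_ne_zero (by rintro rfl; simp at hu; omega)
    have e1 : q / g = u := by rw [hu]; exact Nat.mul_div_cancel_left u hg0
    rw [e1]
    have hw := ww_pos u
    have hE := bad_E_pos m
    have hgR : (0 : ℝ) < g := by exact_mod_cast hg0
    have huR : (0 : ℝ) < u := by exact_mod_cast hu0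
    have h2m : (0 : ℝ) < 2 ^ m := by positivity
    have h1 := weight_le hg0 hu0
    have h2 := bad_inv_le hg0
    have e2 : 3 / 2 * (2 : ℝ) ^ m * bad_E m * Real.exp (Phi g) * Real.exp (-(3 * Phi u)) /
        ((u : ℝ) * ww u) * (4 * c0 * (u : ℝ) / ((g : ℝ) * 2 ^ m)) =
        6 * c0 * (bad_E m * ((1 / (g : ℝ)) *
          (Real.exp (Phi g) * Real.exp (-(3 * Phi u)) * (ww u)⁻¹))) := by
      field_simp
      ring
    rw [e2, hu]
    refine mul_le_mul_of_nonneg_left ?_ (by positivity)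
    refine mul_le_mul_of_nonneg_left ?_ hE.le
    exact mul_le_mul h2 h1 (by positivity) (by positivity)
  · intro r hr
    rw [Finset.mem_filter] at hr
    obtain ⟨hrS, hrq, hbad⟩ := hr
    obtain ⟨hr0, hψ0, hψ⟩ := hS r hrS
    obtain ⟨g, u, v, hg, hu, hv, hcop, eq1, er1, eg, eu, ev⟩ := pair_cases hq0 hr0
    obtain ⟨hT, hss⟩ := hbad
    have hw := ww_pos u
    have hgR : (0 : ℝ) < g := by exact_mod_cast hg
    have huR : (0 : ℝ) < u := by exact_mod_cast hu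
    have hvR : (0 : ℝ) < v := by exact_mod_cast hv
    have e1 : q / g = u := by rw [eq1]; exact Nat.mul_div_cancel_left u hg
    rw [← eg, ← ev, ← eu, e1]
    rw [← eu] at hT
    have hd := bad_dyadic hT
    have hmm : mm ψ q r = Nat.log 2 ⌊4 * ((u : ℝ) * ψ r)⌋₊ := by
      unfold mm; rw [← eu]
    rw [← hmm] at hd
    set m := mm ψ q r with hm
    have h2m : (0 : ℝ) < 2 ^ m := by positivity
    have hss' : 1 < ss (m / 2) (g * u) ∨ 1 < ss (m / 2) (g * v) := by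
      rw [← eq1, ← er1]; exact hss
    have hgain := bad_gain3 hg hu hv hss'
    refine ⟨?_, hv, ?_, er1, ?_⟩
    · rw [eq1]; exact Dvd.intro u rfl
    · -- v ≤ Y
      rw [le_div_iff₀ (by positivity)]
      have h1 : ψ r ≤ c0 / ((g : ℝ) * v) := by
        have : ((r : ℕ) : ℝ) = (g : ℝ) * v := by rw [er1]; push_cast; ring
        rw [this] at hψ; exact hψ
      rw [le_div_iff₀ (by positivity)] at h1
      calc (v : ℝ) * ((g : ℝ) * 2 ^ m) = 2 ^ m * ((g : ℝ) * v) := by ring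
        _ ≤ 4 * ((u : ℝ) * ψ r) * ((g : ℝ) * v) :=
            mul_le_mul_of_nonneg_right hd.1 (by positivity)
        _ = 4 * (u : ℝ) * (ψ r * ((g : ℝ) * v)) := by ring
        _ ≤ 4 * (u : ℝ) * c0 := mul_le_mul_of_nonneg_left h1 (by positivity)
        _ = _ := by ring
    · have h1 : (u : ℝ) * ψ r ≤ 2 ^ m / 2 := by linarith [hd.2]
      have h0 : 0 ≤ (u : ℝ) * ψ r := by positivity
      have e3 : Real.exp (4 * Phi v - 4 * Phi u) * (Real.exp (Phi g) * Real.exp (Phi u) *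
          Real.exp (Phi v)) = Real.exp (Phi g) * Real.exp (-(3 * Phi u)) *
            Real.exp (5 * Phi v) := by
        rw [← Real.exp_add, ← Real.exp_add, ← Real.exp_add, ← Real.exp_add, ← Real.exp_add]
        congr 1; ring
      have hE := bad_E_pos m
      calc (u : ℝ) * ψ r * Real.exp (4 * Phi v - 4 * Phi u) / ((u : ℝ) * ww u)
          ≤ 2 ^ m / 2 * Real.exp (4 * Phi v - 4 * Phi u) / ((u : ℝ) * ww u) := by
            gcongr
        _ = 2 ^ m / 2 * Real.exp (4 * Phi v - 4 * Phi u) / ((u : ℝ) * ww u) * 1 := by ring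
        _ ≤ 2 ^ m / 2 * Real.exp (4 * Phi v - 4 * Phi u) / ((u : ℝ) * ww u) *
            (3 * bad_E m * (Real.exp (Phi g) * Real.exp (Phi u) * Real.exp (Phi v))) := by
            refine mul_le_mul_of_nonneg_left hgain (by positivity)
        _ = 3 / 2 * 2 ^ m * bad_E m * (Real.exp (4 * Phi v - 4 * Phi u) *
            (Real.exp (Phi g) * Real.exp (Phi u) * Real.exp (Phi v))) /
              ((u : ℝ) * ww u) := by ring
        _ = _ := by rw [e3]; ring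

end Vale.Agent.P028EV
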