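import Vale.Agent.P028EV.Weights
import Vale.Agent.P028EV.PhiSum
import Vale.Agent.P028EV.PhiDiv
import Vale.Agent.P028EV.BadA

/-!
Module BADB: bad pairs, fixed smaller number `r`, `P = ψ r` (if `P = 0` there are no bad pairs).

Group by `g = gcd(q,r)`, `u = q/g`, `v = r/g`, `m = mm ψ q r`, `z = m/2`: `4 u P ∈ [2^m, 2^{m+1})`,
i.e. `u ∈ [Y, 2Y)`, `Y = 2^m/(4P)`.  `min ≤ ψ q/q ≤ c0/q²`, so the summand is at most
`u P · g c0/(g u)² · e^{4 Phi u - 4 Phi v}/ww v = c0 P/(g u) ...`.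
`bad_gain` and `∑_{u < 2Y} exp (5 Phi u) ≤ 2 K₅ Y` give for fixed `g, m`
`≤ K c0 P (1/g) e^{Phi g} e^{-3 Phi v} (ww v)⁻¹ e^{-√z/2}`; sum over `m`, `weight_le`
(with `u := v`), `phi_div` (for `r`).
-/

namespace Vale.Agent.P028EV

open Finset MeasureTheory

open Classical in
theorem bad_beta : ∃ K : ℝ, 0 < K ∧ ∀ (ψ : ℕ → ℝ) (c0 : ℝ) (S : Finset ℕ) (r : ℕ),
    0 < c0 → c0 ≤ 1 / 4 → (∀ q ∈ S, 0 < q ∧ 0 ≤ ψ q ∧ ψ q ≤ c0 / q) → r ∈ S →
    ∑ q ∈ S with r < q ∧ BAD ψ q r,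
      Real.exp (4 * Phi (q1 q r) - 4 * Phi (r1 q r)) *
        (((q1 q r : ℝ) * ψ r) * ((Nat.gcd q r : ℝ) * min (ψ q / q) (ψ r / r))) / ww (r1 q r)
      ≤ K * (c0 * ψ r) := by
  obtain ⟨K, hK, hcore⟩ := bad_core
  refine ⟨K * 6, by positivity, ?_⟩
  intro ψ c0 S r hc0 _ hS hr
  obtain ⟨hr0, hP0, -⟩ := hS r hr
  rcases hP0.eq_or_lt with hP | hP
  · rw [← hP]
    refine (Finset.sum_eq_zero fun q hq => ?_).le.trans (by positivity)
    exfalso
    have h1 := (Finset.mem_filter.1 hq).2.2.1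
    rw [← hP, mul_zero] at h1
    norm_num at h1
  have main := hcore r hr0 (S.filter fun q => r < q ∧ BAD ψ q r)
    (fun q => Nat.gcd q r) (fun q => mm ψ q r) (fun q => q1 q r)
    (fun q => Real.exp (4 * Phi (q1 q r) - 4 * Phi (r1 q r)) *
        (((q1 q r : ℝ) * ψ r) * ((Nat.gcd q r : ℝ) * min (ψ q / q) (ψ r / r))) / ww (r1 q r))
    (fun g m => 12 * c0 * ψ r ^ 2 / ((g : ℝ) * 2 ^ m) * bad_E m * (Real.exp (Phi g) *
      Real.exp (-(3 * Phi (r / g))) * (ww (r / g))⁻¹))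
    (fun _ m => 2 ^ m / (2 * ψ r)) (6 * (c0 * ψ r)) (by positivity)
    ?_ ?_ ?_ ?_
  · calc _ ≤ K * (6 * (c0 * ψ r)) := main
      _ = _ := by ring
  · intro g m
    have := bad_E_pos m
    have := ww_pos (r / g)
    positivity
  · intro g m
    positivity
  · intro g m hg
    obtain ⟨v, hv⟩ := hg
    have hg0 : 0 < g := Nat.pos_of_ne_zero (by rintro rfl; simp at hv; omega)
    have hv0 : 0 < v := Nat.pos_of_ne_zero (by rintro rfl; simp at hv; omega)
    have e1 : r / g = v := by rw [hv]; exact Nat.mul_div_cancel_left v hg0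
    rw [e1]
    have hw := ww_pos v
    have hE := bad_E_pos m
    have hgR : (0 : ℝ) < g := by exact_mod_cast hg0
    have hvR : (0 : ℝ) < v := by exact_mod_cast hv0
    have h2m : (0 : ℝ) < 2 ^ m := by positivity
    have h1 := weight_le hg0 hv0
    have h2 := bad_inv_le hg0
    have e2 : 12 * c0 * ψ r ^ 2 / ((g : ℝ) * 2 ^ m) * bad_E m * (Real.exp (Phi g) *
        Real.exp (-(3 * Phi v)) * (ww v)⁻¹) * (2 ^ m / (2 * ψ r)) =
        6 * (c0 * ψ r) * (bad_E m * ((1 / (g : ℝ)) *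
          (Real.exp (Phi g) * Real.exp (-(3 * Phi v)) * (ww v)⁻¹))) := by
      field_simp
      ring
    rw [e2]
    have e3 : Phi r = Phi (g * v) := by rw [← hv]
    rw [e3]
    refine mul_le_mul_of_nonneg_left ?_ (by positivity)
    refine mul_le_mul_of_nonneg_left ?_ hE.le
    exact mul_le_mul h2 h1 (by positivity) (by positivity)
  · intro q hq
    rw [Finset.mem_filter] at hq
    obtain ⟨hqS, hrq, hbad⟩ := hq
    obtain ⟨hq0, hψ0, hψ⟩ := hS q hqS
    obtain ⟨g, u, v, hg, hu, hv, hcop, eq1, er1, eg, eu, ev⟩ := pair_cases hq0 hr0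
    obtain ⟨hT, hss⟩ := hbad
    have hw := ww_pos v
    have hgR : (0 : ℝ) < g := by exact_mod_cast hg
    have huR : (0 : ℝ) < u := by exact_mod_cast hu
    have hvR : (0 : ℝ) < v := by exact_mod_cast hv
    have e1 : r / g = v := by rw [er1]; exact Nat.mul_div_cancel_left v hg
    rw [← eg, ← ev, ← eu, e1]
    rw [← eu] at hT
    have hd := bad_dyadic hT
    have hmm : mm ψ q r = Nat.log 2 ⌊4 * ((u : ℝ) * ψ r)⌋₊ := by
      unfold mm; rw [← eu]
    rw [← hmm] at hd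
    set m := mm ψ q r with hm
    have h2m : (0 : ℝ) < 2 ^ m := by positivity
    have hss' : 1 < ss (m / 2) (g * u) ∨ 1 < ss (m / 2) (g * v) := by
      rw [← eq1, ← er1]; exact hss
    have hgain := bad_gain3 hg hu hv hss'
    refine ⟨?_, hu, ?_, eq1, ?_⟩
    · rw [er1]; exact Dvd.intro v rfl
    · rw [le_div_iff₀ (by positivity)]
      linarith [hd.2]
    · have hqR : ((q : ℕ) : ℝ) = (g : ℝ) * u := by rw [eq1]; push_cast; ring
      have h1 : min (ψ q / q) (ψ r / r) ≤ c0 / ((g : ℝ) * u) ^ 2 := by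
        refine (min_le_left _ _).trans ?_
        rw [hqR] at hψ ⊢
        rw [div_le_div_iff₀ (by positivity) (by positivity)]
        rw [le_div_iff₀ (by positivity)] at hψ
        nlinarith [mul_pos hgR huR]
      have hmin0 : 0 ≤ min (ψ q / q) (ψ r / r) := le_min (by positivity) (by positivity)
      have h3 : 1 / (u : ℝ) ≤ 4 * ψ r / 2 ^ m := by
        rw [div_le_div_iff₀ huR h2m]
        linarith [hd.1]
      have e3 : Real.exp (4 * Phi u - 4 * Phi v) * (Real.exp (Phi g) * Real.exp (Phi u) *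
          Real.exp (Phi v)) = Real.exp (Phi g) * Real.exp (-(3 * Phi v)) *
            Real.exp (5 * Phi u) := by
        rw [← Real.exp_add, ← Real.exp_add, ← Real.exp_add, ← Real.exp_add, ← Real.exp_add]
        congr 1; ring
      have hE := bad_E_pos m
      have h4 : (u : ℝ) * ψ r * ((g : ℝ) * min (ψ q / q) (ψ r / r)) ≤
          4 * c0 * ψ r ^ 2 / ((g : ℝ) * 2 ^ m) := by
        calc (u : ℝ) * ψ r * ((g : ℝ) * min (ψ q / q) (ψ r / r))
            ≤ (u : ℝ) * ψ r * ((g : ℝ) * (c0 / ((g : ℝ) * u) ^ 2)) := by gcongr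
          _ = c0 * ψ r / g * (1 / (u : ℝ)) := by field_simp
          _ ≤ c0 * ψ r / g * (4 * ψ r / 2 ^ m) :=
              mul_le_mul_of_nonneg_left h3 (by positivity)
          _ = _ := by field_simp
      calc Real.exp (4 * Phi u - 4 * Phi v) * ((u : ℝ) * ψ r *
            ((g : ℝ) * min (ψ q / q) (ψ r / r))) / ww v
          ≤ Real.exp (4 * Phi u - 4 * Phi v) * (4 * c0 * ψ r ^ 2 / ((g : ℝ) * 2 ^ m)) /
            ww v := by
            gcongr
        _ = Real.exp (4 * Phi u - 4 * Phi v) * (4 * c0 * ψ r ^ 2 / ((g : ℝ) * 2 ^ m)) /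
            ww v * 1 := by ring
        _ ≤ Real.exp (4 * Phi u - 4 * Phi v) * (4 * c0 * ψ r ^ 2 / ((g : ℝ) * 2 ^ m)) /
            ww v * (3 * bad_E m * (Real.exp (Phi g) * Real.exp (Phi u) *
              Real.exp (Phi v))) := by
            refine mul_le_mul_of_nonneg_left hgain (by positivity)
        _ = 12 * c0 * ψ r ^ 2 / ((g : ℝ) * 2 ^ m) * bad_E m *
            (Real.exp (4 * Phi u - 4 * Phi v) *
            (Real.exp (Phi g) * Real.exp (Phi u) * Real.exp (Phi v))) * (ww v)⁻¹ := by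
              rw [div_eq_mul_inv _ (ww v)]; ring
        _ = _ := by rw [e3]; ring

end Vale.Agent.P028EV
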