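import Vale.Agent.P028EV.Den
import Vale.Agent.P028EV.Weights
import Vale.Agent.P028EV.Count
import Vale.Agent.P028EV.PhiSum

/-!
Module BETA1: for fixed `r = g v`, the larger numbers `q = g u` in one dyadic block.
All estimates are done for the squares: with `X = 2^L'`, `Q = X/g`, `S = ∑_U exp (4 Phi u)`,
`S² ≤ N ∑ exp (8 Phi)`, `N ≤ 28 Q δ + 16 Q r^{-1/2}`.
-/

namespace Vale.Agent.P028EV

open Finset MeasureTheory

/-- the integer of a nondegenerate pair is large: `√R ≤ 3 u` -/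
theorem BETA1_sqrt (A : ℤ) (B : ℕ) (γ R Δ u h : ℝ) (t hz : ℤ) (hR : 1 ≤ R)
    (hB : (B : ℝ) ≤ Real.sqrt R) (hA : |(B : ℝ) * γ - A| ≤ 2 / Real.sqrt R)
    (hh : h = (hz : ℝ)) (hu : |h| ≤ u) (hΔ : Δ ≤ u / (2 * R)) (ht : |(t : ℝ) + γ * h| < Δ)
    (hne : hz * A + t * (B : ℤ) ≠ 0) : Real.sqrt R ≤ 3 * u := by
  have hs : 0 < Real.sqrt R := Real.sqrt_pos.2 (by linarith)
  have hsq : Real.sqrt R * Real.sqrt R = R := Real.mul_self_sqrt (by linarith)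
  have hu0 : 0 ≤ u := (abs_nonneg h).trans hu
  have h1 : (1 : ℝ) ≤ |((hz * A + t * (B : ℤ) : ℤ) : ℝ)| := by
    have := Int.one_le_abs hne
    exact_mod_cast this
  have h2 : ((hz * A + t * (B : ℤ) : ℤ) : ℝ) = B * ((t : ℝ) + γ * h) - h * ((B : ℝ) * γ - A) := by
    push_cast
    rw [hh]
    ring
  have h3 : |(B : ℝ) * ((t : ℝ) + γ * h) - h * ((B : ℝ) * γ - A)| ≤
      Real.sqrt R * (u / (2 * R)) + u * (2 / Real.sqrt R) := by
    refine (abs_sub _ _).trans (add_le_add ?_ ?_)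
    · rw [abs_mul, abs_of_nonneg (Nat.cast_nonneg B)]
      exact mul_le_mul hB (ht.le.trans hΔ) (abs_nonneg _) hs.le
    · rw [abs_mul]
      exact mul_le_mul hu hA (abs_nonneg _) hu0
  rw [h2] at h1
  have h4 := h1.trans h3
  have h5 : Real.sqrt R * (u / (2 * R)) = u / (2 * Real.sqrt R) := by
    have h7 : ∀ w : ℝ, 0 < w → w * (u / (2 * (w * w))) = u / (2 * w) := by
      intro w hw
      field_simp
    have h8 := h7 _ hs
    rwa [hsq] at h8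
  rw [h5] at h4
  have h6 : u / (2 * Real.sqrt R) + u * (2 / Real.sqrt R) = (5 / 2 * u) / Real.sqrt R := by
    field_simp
    ring
  rw [h6, le_div_iff₀ hs] at h4
  linarith

/-- the final inequality between the squares -/
theorem BETA1_alg (K8 c0 g r X P m E : ℝ) (hK : 0 ≤ K8) (hc : 0 < c0) (hg : 1 ≤ g)
    (hr : 0 < r) (hgr : g ≤ r) (hX : 0 < X) (hrX : r ≤ 2 * X) (hP : 0 < P)
    (hPr : r ^ (-(5 / 4) : ℝ) ≤ P) (hm0 : 0 ≤ m) (hm1 : m ≤ P / r) (hm2 : m ≤ c0 / X ^ 2)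
    (hE : E ≤ 28 * c0 * (r / g) / X + 56 * (X / g) * P + 16 * r ^ (-(1 / 2) : ℝ)) :
    (r / X) * (m ^ 2 * X ^ 2 * (2 * K8 * E)) ≤
      (232 * K8) * (c0 * P ^ 2 * g ^ (-(1 / 4) : ℝ)) := by
  have hg0 : 0 < g := by linarith
  have hm3 : m ^ 2 ≤ (P / r) ^ 2 := pow_le_pow_left₀ hm0 hm1 2
  have hm4 : m ^ 2 ≤ (P / r) * (c0 / X ^ 2) := by
    rw [sq]; exact mul_le_mul hm1 hm2 hm0 (by positivity)
  have hgg : g⁻¹ ≤ g ^ (-(1 / 4) : ℝ) := by
    rw [← Real.rpow_neg_one]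
    exact Real.rpow_le_rpow_of_exponent_le hg (by norm_num)
  have hrg : r ^ (-(1 / 4) : ℝ) ≤ g ^ (-(1 / 4) : ℝ) :=
    Real.rpow_le_rpow_of_nonpos hg0 hgr (by norm_num)
  have t1 : (r / X) * (m ^ 2 * X ^ 2 * (28 * c0 * (r / g) / X)) ≤ 28 * (c0 * P ^ 2 * g⁻¹) := by
    have : (r / X) * ((P / r) ^ 2 * X ^ 2 * (28 * c0 * (r / g) / X)) = 28 * (c0 * P ^ 2 * g⁻¹) := by
      field_simp
    rw [← this]
    gcongr
  have t2 : (r / X) * (m ^ 2 * X ^ 2 * (56 * (X / g) * P)) ≤ 56 * (c0 * P ^ 2 * g⁻¹) := by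
    have : (r / X) * (((P / r) * (c0 / X ^ 2)) * X ^ 2 * (56 * (X / g) * P))
        = 56 * (c0 * P ^ 2 * g⁻¹) := by
      field_simp
    rw [← this]
    gcongr
  have t3 : (r / X) * (m ^ 2 * X ^ 2 * (16 * r ^ (-(1 / 2) : ℝ)))
      ≤ 32 * (c0 * P ^ 2 * r ^ (-(1 / 4) : ℝ)) := by
    have h1 : (r / X) * (m ^ 2 * X ^ 2 * (16 * r ^ (-(1 / 2) : ℝ))) ≤
        (r / X) * (((P / r) * (c0 / X ^ 2)) * X ^ 2 * (16 * r ^ (-(1 / 2) : ℝ))) := by
      have : 0 ≤ r ^ (-(1 / 2) : ℝ) := Real.rpow_nonneg hr.le _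
      gcongr
    have h2 : (r / X) * (((P / r) * (c0 / X ^ 2)) * X ^ 2 * (16 * r ^ (-(1 / 2) : ℝ)))
        = 16 * (c0 * P) * (r ^ (-(1 / 2) : ℝ) * (1 / X)) := by
      field_simp
    have h3 : 1 / X ≤ 2 * r ^ (-1 : ℝ) := by
      rw [Real.rpow_neg_one, div_le_iff₀ hX]
      have : r⁻¹ * r = 1 := inv_mul_cancel₀ hr.ne'
      have h4 : 0 < r⁻¹ := inv_pos.2 hr
      nlinarith
    have h5 : r ^ (-(1 / 2) : ℝ) * r ^ (-1 : ℝ) = r ^ (-(1 / 4) : ℝ) * r ^ (-(5 / 4) : ℝ) := by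
      rw [← Real.rpow_add hr, ← Real.rpow_add hr]
      norm_num
    have h6 : 0 ≤ r ^ (-(1 / 2) : ℝ) := Real.rpow_nonneg hr.le _
    have h7 : 0 ≤ r ^ (-(1 / 4) : ℝ) := Real.rpow_nonneg hr.le _
    calc _ ≤ _ := h1
      _ = _ := h2
      _ ≤ 16 * (c0 * P) * (r ^ (-(1 / 2) : ℝ) * (2 * r ^ (-1 : ℝ))) := by gcongr
      _ = 32 * (c0 * P) * (r ^ (-(1 / 4) : ℝ) * r ^ (-(5 / 4) : ℝ)) := by rw [← h5]; ring
      _ ≤ 32 * (c0 * P) * (r ^ (-(1 / 4) : ℝ) * P) := by gcongr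
      _ = _ := by ring
  have h0 : 0 ≤ (r / X) * (m ^ 2 * X ^ 2) := by positivity
  have t4 : (r / X) * (m ^ 2 * X ^ 2) * E ≤ 116 * (c0 * P ^ 2 * g ^ (-(1 / 4) : ℝ)) := by
    have h1 := mul_le_mul_of_nonneg_left hE h0
    have h2 : c0 * P ^ 2 * g⁻¹ ≤ c0 * P ^ 2 * g ^ (-(1 / 4) : ℝ) := by gcongr
    have h3 : c0 * P ^ 2 * r ^ (-(1 / 4) : ℝ) ≤ c0 * P ^ 2 * g ^ (-(1 / 4) : ℝ) := by gcongr
    nlinarith [t1, t2, t3, h1, h2, h3]
  nlinarith [mul_le_mul_of_nonneg_left t4 (show (0 : ℝ) ≤ 2 * K8 by linarith)]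

/-- the count of the nondegenerate partners -/
theorem BETA1_count (γ : ℝ) (ψ : ℕ → ℝ) (c0 : ℝ) (g v L' : ℕ)
    (hg : 0 < g) (hv : 0 < v) (hc0 : 0 < c0) (hc1 : c0 ≤ 1 / 4)
    (hP0 : 0 ≤ ψ (g * v)) (hP2 : ψ (g * v) ≤ c0 / ((g * v : ℕ) : ℝ))
    (U : Finset ℕ) (hU : ∀ u ∈ U, v < u ∧ Nat.Coprime u v ∧ Nat.log 2 (g * u) = L' ∧
      0 ≤ ψ (g * u) ∧ ψ (g * u) ≤ c0 / ((g * u : ℕ) : ℝ) ∧ ND γ ψ (g * u) (g * v))
    (hne : U.Nonempty) :
    (U.card : ℝ) ≤ ((2 : ℝ) ^ L' / g) * (28 * c0 * (((g * v : ℕ) : ℝ) / g) / (2 : ℝ) ^ L'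
      + 56 * ((2 : ℝ) ^ L' / g) * ψ (g * v) + 16 * ((g * v : ℕ) : ℝ) ^ (-(1 / 2) : ℝ)) := by
  classical
  set X : ℝ := (2 : ℝ) ^ L' with hX
  set P : ℝ := ψ (g * v) with hP
  set r : ℝ := ((g * v : ℕ) : ℝ) with hr
  have hg0 : (0 : ℝ) < g := by exact_mod_cast hg
  have hv0 : (0 : ℝ) < v := by exact_mod_cast hv
  have hX0 : 0 < X := by positivity
  have hgv : r = g * v := by rw [hr]; push_cast; ring
  have hr0 : 0 < r := by rw [hgv]; positivity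
  set L : ℕ := Nat.log 2 (g * v) with hL
  set R : ℝ := (2 : ℝ) ^ L with hRdef
  have hRr : R ≤ r := by
    have := Nat.pow_log_le_self 2 (show g * v ≠ 0 by positivity)
    rw [hRdef, hr]; exact_mod_cast this
  have hrR : r < 2 * R := by
    have := Nat.lt_pow_succ_log_self (b := 2) (by norm_num) (g * v)
    rw [pow_succ] at this
    rw [hRdef, hr, mul_comm (2 : ℝ) ((2 : ℝ) ^ L)]; exact_mod_cast this
  have hR1 : 1 ≤ R := one_le_pow₀ (by norm_num)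
  have hs : 0 < Real.sqrt R := Real.sqrt_pos.2 (by linarith)
  have hu : ∀ u ∈ U, v < u ∧ X ≤ g * u ∧ (g : ℝ) * u < 2 * X := by
    intro u huU
    obtain ⟨h1, _, h3, _⟩ := hU u huU
    refine ⟨h1, ?_, ?_⟩
    · have := Nat.pow_log_le_self 2 (show g * u ≠ 0 by
        have : 0 < u := by omega
        positivity)
      rw [h3] at this
      rw [hX]; exact_mod_cast this
    · have := Nat.lt_pow_succ_log_self (b := 2) (by norm_num) (g * u)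
      rw [h3, pow_succ] at this
      rw [hX, mul_comm (2 : ℝ) ((2 : ℝ) ^ L')]; exact_mod_cast this
  set Q : ℝ := X / g with hQ
  have hQ0 : 0 < Q := by positivity
  have hu2 : ∀ u ∈ U, (u : ℝ) < 2 * Q := by
    intro u huU
    have := (hu u huU).2.2
    rw [hQ, ← mul_div_assoc, lt_div_iff₀ hg0]
    linarith
  set δ : ℝ := c0 * v / X + 2 * Q * P with hδ
  have hδ0 : 0 ≤ δ := by positivity
  -- data of the pair
  have hdat : ∀ u ∈ U, ∃ t : ℤ, |(t : ℝ) + γ * (((v : ℤ) - (u : ℤ) : ℤ) : ℝ)| <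
      (v : ℝ) * ψ (g * u) + (u : ℝ) * P ∧
      ((v : ℤ) - (u : ℤ)) * Ad γ L + t * (Bd γ L : ℤ) ≠ 0 := by
    intro u huU
    obtain ⟨_, hcop, _, _, _, hnd⟩ := hU u huU
    obtain ⟨_, t, ht, hne'⟩ := hnd
    rw [mem_Ts] at ht
    unfold Del hh at *
    rw [q1_mul_left g u v hg hcop, r1_mul_left g u v hg hcop] at *
    exact ⟨t, ht, hne'⟩
  have hΔ1 : ∀ u ∈ U, (v : ℝ) * ψ (g * u) + (u : ℝ) * P ≤ δ := by
    intro u huU
    obtain ⟨_, _, _, h4, h5, _⟩ := hU u huU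
    have h6 : ψ (g * u) ≤ c0 / X := by
      refine h5.trans ?_
      have := (hu u huU).2.1
      push_cast
      gcongr
    have h7 := (hu2 u huU).le
    rw [hδ]
    have h8 : (v : ℝ) * ψ (g * u) ≤ c0 * v / X := by
      calc (v : ℝ) * ψ (g * u) ≤ v * (c0 / X) := by gcongr
        _ = _ := by ring
    have h9 : (u : ℝ) * P ≤ 2 * Q * P := by gcongr
    linarith
  have hΔ2 : ∀ u ∈ U, (v : ℝ) * ψ (g * u) + (u : ℝ) * P ≤ u / (2 * R) := by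
    intro u huU
    obtain ⟨h1, _, _, h4, h5, _⟩ := hU u huU
    have hu0 : (0 : ℝ) < u := by
      have : 0 < u := by omega
      exact_mod_cast this
    have hvu : (v : ℝ) ≤ u := by exact_mod_cast h1.le
    have h6 : (v : ℝ) * ψ (g * u) ≤ c0 * u / r := by
      have : (v : ℝ) * ψ (g * u) ≤ v * (c0 / ((g * u : ℕ) : ℝ)) := by gcongr
      refine this.trans ?_
      rw [hgv, mul_div_assoc', div_le_div_iff₀ (by push_cast; positivity) (by positivity)]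
      push_cast
      have : (v : ℝ) * v ≤ u * u := by nlinarith
      nlinarith [mul_pos hc0 hg0]
    have h7 : (u : ℝ) * P ≤ c0 * u / r := by
      calc (u : ℝ) * P ≤ u * (c0 / r) := by gcongr
        _ = _ := by ring
    have h8 : c0 * u / r + c0 * u / r ≤ u / (2 * R) := by
      have : c0 * u / r + c0 * u / r = 2 * c0 * u / r := by ring
      rw [this, div_le_div_iff₀ hr0 (by positivity)]
      nlinarith [mul_pos hu0 hr0, mul_pos hu0 (show 0 < R by linarith)]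
    linarith
  -- `√R ≤ 6 Q`
  have hsR : Real.sqrt R ≤ 6 * Q := by
    obtain ⟨u, huU⟩ := hne
    obtain ⟨t, ht, hne'⟩ := hdat u huU
    have h1 := (hu u huU).1
    have hb : |((((v : ℤ) - (u : ℤ) : ℤ) : ℤ) : ℝ)| ≤ (u : ℝ) := by
      push_cast
      have h2 : (v : ℝ) ≤ u := by exact_mod_cast h1.le
      rw [abs_le]; constructor <;> linarith
    have := BETA1_sqrt (Ad γ L) (Bd γ L) γ R _ u _ t ((v : ℤ) - (u : ℤ)) hR1 (Bd_le_sqrt γ L)
      (Bd_approx' γ L) rfl hb (hΔ2 u huU) ht hne'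
    have h3 := hu2 u huU
    linarith
  -- the count
  have hinj : Set.InjOn (fun u : ℕ => (v : ℤ) - (u : ℤ)) U := by
    intro a _ b _ hab
    simp only at hab
    omega
  have hcard : (U.image (fun u : ℕ => (v : ℤ) - (u : ℤ))).card = U.card :=
    Finset.card_image_of_injOn hinj
  have hcount := count_nd (Ad γ L) (Bd γ L) (Bd_pos γ L) (Bd_coprime γ L) γ δ (2 * Q)
    (2 / Real.sqrt R) (Bd_approx' γ L) hδ0 (by positivity)
    (U.image (fun u : ℕ => (v : ℤ) - (u : ℤ))) (by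
      intro h hh'
      rw [Finset.mem_image] at hh'
      obtain ⟨u, huU, rfl⟩ := hh'
      refine ⟨?_, ?_⟩
      · have h1 := (hu u huU).1
        have h2 : (v : ℝ) ≤ u := by exact_mod_cast h1.le
        have h3 := hu2 u huU
        push_cast
        rw [abs_le]; constructor <;> linarith
      · obtain ⟨t, ht, hne'⟩ := hdat u huU
        exact ⟨t, ht.trans_le (hΔ1 u huU), hne'⟩)
  rw [hcard] at hcount
  have hB6 : (Bd γ L : ℝ) ≤ 6 * Q := (Bd_le_sqrt γ L).trans hsR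
  have h1 : 2 * (Bd γ L : ℝ) * δ ≤ 12 * Q * δ := by nlinarith
  have h2 : 1 / Real.sqrt R ≤ 2 * r ^ (-(1 / 2) : ℝ) := by
    have h3 : r ^ (-(1 / 2) : ℝ) = 1 / Real.sqrt r := by
      rw [Real.rpow_neg hr0.le, ← Real.sqrt_eq_rpow, one_div]
    rw [h3]
    have h4 : Real.sqrt r ≤ 2 * Real.sqrt R := by
      have : (2 : ℝ) * Real.sqrt R = Real.sqrt (4 * R) := by
        rw [Real.sqrt_mul (by norm_num), show (4 : ℝ) = 2 ^ 2 by norm_num,
          Real.sqrt_sq (by norm_num)]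
      rw [this]
      exact Real.sqrt_le_sqrt (by linarith)
    rw [mul_one_div, div_le_div_iff₀ hs (Real.sqrt_pos.2 hr0)]
    linarith
  have h3 : 2 * (2 * Q) * (2 / Real.sqrt R) ≤ 16 * Q * r ^ (-(1 / 2) : ℝ) := by
    have : 2 * (2 * Q) * (2 / Real.sqrt R) = 8 * Q * (1 / Real.sqrt R) := by ring
    rw [this]
    nlinarith
  have h4 : (U.card : ℝ) ≤ 28 * Q * δ + 16 * Q * r ^ (-(1 / 2) : ℝ) := by
    have : 8 * (2 * Q) * δ = 16 * Q * δ := by ring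
    linarith
  refine h4.trans (le_of_eq ?_)
  have h5 : r / g = v := by rw [hgv]; field_simp
  rw [hδ, h5]
  ring

theorem beta1 : ∃ K : ℝ, 0 < K ∧ ∀ (γ : ℝ) (ψ : ℕ → ℝ) (c0 : ℝ) (g v L' : ℕ),
    0 < g → 0 < v → 0 < c0 → c0 ≤ 1 / 4 →
    ((g * v : ℕ) : ℝ) ^ (-(5 / 4) : ℝ) ≤ ψ (g * v) → ψ (g * v) ≤ c0 / ((g * v : ℕ) : ℝ) →
    ∀ U : Finset ℕ, (∀ u ∈ U, v < u ∧ Nat.Coprime u v ∧ Nat.log 2 (g * u) = L' ∧
      0 ≤ ψ (g * u) ∧ ψ (g * u) ≤ c0 / ((g * u : ℕ) : ℝ) ∧ ND γ ψ (g * u) (g * v)) →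
    ∑ u ∈ U, (((g * v : ℕ) : ℝ) / ((g * u : ℕ) : ℝ)) ^ (5 / 8 : ℝ) * Real.exp (4 * Phi u) *
        ((g : ℝ) * min (ψ (g * u) / ((g * u : ℕ) : ℝ)) (ψ (g * v) / ((g * v : ℕ) : ℝ)))
      ≤ K * (c0 ^ (1 / 2 : ℝ) * ψ (g * v) * (g : ℝ) ^ (-(1 / 8) : ℝ) *
          ((2 : ℝ) ^ L' / ((g * v : ℕ) : ℝ)) ^ (-(1 / 8) : ℝ)) := by
  obtain ⟨K8, hK8, hphi⟩ := phi_sum 8
  refine ⟨232 * K8 + 1, by positivity, ?_⟩
  intro γ ψ c0 g v L' hg hv hc0 hc1 hP1 hP2 U hU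
  have hr0' : (0 : ℝ) < ((g * v : ℕ) : ℝ) := by
    have : 0 < g * v := Nat.mul_pos hg hv
    exact_mod_cast this
  have hP0 : 0 < ψ (g * v) := lt_of_lt_of_le (Real.rpow_pos_of_pos hr0' _) hP1
  rcases U.eq_empty_or_nonempty with rfl | hne
  · rw [Finset.sum_empty]
    have hg0 : (0 : ℝ) < g := by exact_mod_cast hg
    positivity
  have hcnt := BETA1_count γ ψ c0 g v L' hg hv hc0 hc1 hP0.le hP2 U hU hne
  set X : ℝ := (2 : ℝ) ^ L' with hX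
  set P : ℝ := ψ (g * v) with hP
  set r : ℝ := ((g * v : ℕ) : ℝ) with hr
  have hg0 : (0 : ℝ) < g := by exact_mod_cast hg
  have hg1 : (1 : ℝ) ≤ g := by exact_mod_cast hg
  have hv1 : (1 : ℝ) ≤ v := by exact_mod_cast hv
  have hX0 : 0 < X := by positivity
  have hgv : r = g * v := by rw [hr]; push_cast; ring
  have hgr : (g : ℝ) ≤ r := by rw [hgv]; nlinarith
  have hu : ∀ u ∈ U, v < u ∧ X ≤ g * u ∧ (g : ℝ) * u < 2 * X := by
    intro u huU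
    obtain ⟨h1, _, h3, _⟩ := hU u huU
    refine ⟨h1, ?_, ?_⟩
    · have := Nat.pow_log_le_self 2 (show g * u ≠ 0 by
        have : 0 < u := by omega
        positivity)
      rw [h3] at this
      rw [hX]; exact_mod_cast this
    · have := Nat.lt_pow_succ_log_self (b := 2) (by norm_num) (g * u)
      rw [h3, pow_succ] at this
      rw [hX, mul_comm (2 : ℝ) ((2 : ℝ) ^ L')]; exact_mod_cast this
  have hrX : r ≤ 2 * X := by
    obtain ⟨u, huU⟩ := hne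
    obtain ⟨h1, _, h3⟩ := hu u huU
    have : (v : ℝ) ≤ u := by exact_mod_cast h1.le
    rw [hgv]; nlinarith
  set E : ℝ := 28 * c0 * (r / g) / X + 56 * (X / g) * P + 16 * r ^ (-(1 / 2) : ℝ) with hE
  have hrp : 0 ≤ r ^ (-(1 / 2) : ℝ) := Real.rpow_nonneg hr0'.le _
  have hE0 : 0 ≤ E := by positivity
  set m : ℝ := min (P / r) (c0 / X ^ 2) with hm
  have hm0 : 0 ≤ m := le_min (by positivity) (by positivity)
  set S : ℝ := ∑ u ∈ U, Real.exp (4 * Phi u) with hS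
  have hS0 : 0 ≤ S := Finset.sum_nonneg fun _ _ => (Real.exp_pos _).le
  -- every term
  have hterm : ∀ u ∈ U, (r / ((g * u : ℕ) : ℝ)) ^ (5 / 8 : ℝ) * Real.exp (4 * Phi u) *
      ((g : ℝ) * min (ψ (g * u) / ((g * u : ℕ) : ℝ)) (P / r)) ≤
      (r / X) ^ (5 / 8 : ℝ) * (g * m) * Real.exp (4 * Phi u) := by
    intro u huU
    obtain ⟨h1, h2, h3⟩ := hu u huU
    obtain ⟨_, _, _, h4, h5, _⟩ := hU u huU
    have hq : X ≤ ((g * u : ℕ) : ℝ) := by push_cast; exact h2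
    have hq0 : 0 < ((g * u : ℕ) : ℝ) := lt_of_lt_of_le hX0 hq
    have e1 : (r / ((g * u : ℕ) : ℝ)) ^ (5 / 8 : ℝ) ≤ (r / X) ^ (5 / 8 : ℝ) := by
      refine Real.rpow_le_rpow (by positivity) ?_ (by norm_num)
      gcongr
    have e2 : min (ψ (g * u) / ((g * u : ℕ) : ℝ)) (P / r) ≤ m := by
      refine le_min (min_le_right _ _) ((min_le_left _ _).trans ?_)
      calc ψ (g * u) / ((g * u : ℕ) : ℝ) ≤ (c0 / ((g * u : ℕ) : ℝ)) / ((g * u : ℕ) : ℝ) := by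
            gcongr
        _ ≤ (c0 / X) / X := by gcongr
        _ = _ := by rw [div_div, sq]
    have e3 : 0 ≤ min (ψ (g * u) / ((g * u : ℕ) : ℝ)) (P / r) :=
      le_min (by positivity) (by positivity)
    calc _ ≤ (r / X) ^ (5 / 8 : ℝ) * Real.exp (4 * Phi u) * (g * m) := by
          have : 0 ≤ (r / X) ^ (5 / 8 : ℝ) := Real.rpow_nonneg (by positivity) _
          gcongr
      _ = _ := by ring
  have hsum : ∑ u ∈ U, (r / ((g * u : ℕ) : ℝ)) ^ (5 / 8 : ℝ) * Real.exp (4 * Phi u) *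
      ((g : ℝ) * min (ψ (g * u) / ((g * u : ℕ) : ℝ)) (P / r)) ≤
      (r / X) ^ (5 / 8 : ℝ) * (g * m) * S := by
    rw [hS, Finset.mul_sum]
    exact Finset.sum_le_sum hterm
  -- Cauchy-Schwarz
  have hS2 : S ^ 2 ≤ (U.card : ℝ) * (K8 * (2 * (X / g))) := by
    have h1 : S ^ 2 ≤ (U.card : ℝ) * ∑ u ∈ U, Real.exp (4 * Phi u) ^ 2 :=
      sq_sum_le_card_mul_sum_sq
    have h2 : ∑ u ∈ U, Real.exp (4 * Phi u) ^ 2 ≤ K8 * (2 * (X / g)) := by
      refine le_trans ?_ (hphi (2 * (X / g)) (by positivity))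
      refine le_trans (b := ∑ u ∈ U, Real.exp ((8 : ℕ) * Phi u)) ?_ ?_
      · refine le_of_eq (Finset.sum_congr rfl fun u _ => ?_)
        rw [← Real.exp_nat_mul]
        congr 1
        push_cast; ring
      · refine Finset.sum_le_sum_of_subset_of_nonneg ?_ fun _ _ _ => (Real.exp_pos _).le
        intro u huU
        obtain ⟨h1, _, h3⟩ := hu u huU
        rw [Finset.mem_Icc]
        refine ⟨by omega, Nat.le_floor ?_⟩
        rw [← mul_div_assoc, le_div_iff₀ hg0]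
        linarith
    exact h1.trans (mul_le_mul_of_nonneg_left h2 (Nat.cast_nonneg _))
  have hS3 : S ^ 2 ≤ (X / g) ^ 2 * (2 * K8 * E) := by
    refine hS2.trans ?_
    have : (U.card : ℝ) * (K8 * (2 * (X / g))) ≤ ((X / g) * E) * (K8 * (2 * (X / g))) :=
      mul_le_mul_of_nonneg_right hcnt (by positivity)
    refine this.trans (le_of_eq ?_)
    ring
  have halg := BETA1_alg K8 c0 g r X P m E hK8.le hc0 hg1 hr0' hgr hX0 hrX hP0 hP1 hm0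
    (min_le_left _ _) (min_le_right _ _) le_rfl
  refine hsum.trans ?_
  -- compare the squares
  have hy : 0 < X / r := by positivity
  have hry : r / X = (X / r)⁻¹ := by rw [inv_div]
  have e58 : (r / X) ^ (5 / 8 : ℝ) = (X / r) ^ (-(1 / 8) : ℝ) * Real.sqrt (r / X) := by
    rw [Real.sqrt_eq_rpow, hry, Real.inv_rpow hy.le, Real.inv_rpow hy.le, ← Real.rpow_neg hy.le,
      ← Real.rpow_neg hy.le, ← Real.rpow_add hy]
    norm_num
  have hA : (Real.sqrt (r / X) * (g * m) * S) ^ 2 ≤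
      ((232 * K8 + 1) * (c0 ^ (1 / 2 : ℝ) * P * (g : ℝ) ^ (-(1 / 8) : ℝ))) ^ 2 := by
    have h1 : (Real.sqrt (r / X) * (g * m) * S) ^ 2 = (r / X) * ((g * m) ^ 2 * S ^ 2) := by
      rw [mul_pow, mul_pow, Real.sq_sqrt (by positivity)]
      ring
    have h2 : ((232 * K8 + 1) * (c0 ^ (1 / 2 : ℝ) * P * (g : ℝ) ^ (-(1 / 8) : ℝ))) ^ 2
        = (232 * K8 + 1) ^ 2 * (c0 * P ^ 2 * (g : ℝ) ^ (-(1 / 4) : ℝ)) := by
      have h3 : (c0 ^ (1 / 2 : ℝ)) ^ 2 = c0 := by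
        rw [← Real.rpow_natCast, ← Real.rpow_mul hc0.le]; norm_num
      have h4 : ((g : ℝ) ^ (-(1 / 8) : ℝ)) ^ 2 = (g : ℝ) ^ (-(1 / 4) : ℝ) := by
        rw [← Real.rpow_natCast, ← Real.rpow_mul hg0.le]; norm_num
      rw [mul_pow, mul_pow, mul_pow, h3, h4]
    rw [h1, h2]
    have hgp : 0 ≤ (g : ℝ) ^ (-(1 / 4) : ℝ) := Real.rpow_nonneg hg0.le _
    calc (r / X) * ((g * m) ^ 2 * S ^ 2)
        ≤ (r / X) * ((g * m) ^ 2 * ((X / g) ^ 2 * (2 * K8 * E))) := by gcongr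
      _ = (r / X) * (m ^ 2 * X ^ 2 * (2 * K8 * E)) := by
          field_simp
      _ ≤ (232 * K8) * (c0 * P ^ 2 * (g : ℝ) ^ (-(1 / 4) : ℝ)) := halg
      _ ≤ (232 * K8 + 1) ^ 2 * (c0 * P ^ 2 * (g : ℝ) ^ (-(1 / 4) : ℝ)) := by
          have : 232 * K8 ≤ (232 * K8 + 1) ^ 2 := by nlinarith
          gcongr
  have hgp : 0 ≤ (g : ℝ) ^ (-(1 / 8) : ℝ) := Real.rpow_nonneg hg0.le _
  have hB := abs_le_of_sq_le_sq' hA (by positivity)
  rw [e58]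
  have hyp : 0 ≤ (X / r) ^ (-(1 / 8) : ℝ) := Real.rpow_nonneg hy.le _
  calc (X / r) ^ (-(1 / 8) : ℝ) * Real.sqrt (r / X) * (g * m) * S
      = (X / r) ^ (-(1 / 8) : ℝ) * (Real.sqrt (r / X) * (g * m) * S) := by ring
    _ ≤ (X / r) ^ (-(1 / 8) : ℝ) *
        ((232 * K8 + 1) * (c0 ^ (1 / 2 : ℝ) * P * (g : ℝ) ^ (-(1 / 8) : ℝ))) :=
        mul_le_mul_of_nonneg_left hB.2 hyp
    _ = _ := by ring

end Vale.Agent.P028EV
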