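import Vale.Agent.P028EV.Beta1
import Vale.Agent.P028EV.PhiDiv

/-!
Module BETA2: sum of `beta1` over the dyadic blocks `L'` and over `g ∣ r`.

Group the `q` by `g = gcd(q,r) ∈ r.divisors` and `L' = log₂ q` (`2^L' > r/2`);
`∑_{L' : 2^L' > r/2} (2^L'/r)^{-1/8} ≤ K`; `g^{-1/8} ≤ g^{-1/32}`; then `weight_le`
(with `exp(-4 Phi v) ≤ exp (-3 Phi v)`, `1 ≤ exp (Phi g)`) and `phi_div`.
-/

namespace Vale.Agent.P028EV

open Finset MeasureTheory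

/-- one `g`, one dyadic block -/
theorem beta2_block : ∃ K : ℝ, 0 < K ∧ ∀ (γ : ℝ) (ψ : ℕ → ℝ) (c0 : ℝ) (g v L' : ℕ) (T : Finset ℕ),
    0 < g → 0 < v → 0 < c0 → c0 ≤ 1 / 4 →
    ((g * v : ℕ) : ℝ) ^ (-(5 / 4) : ℝ) ≤ ψ (g * v) → ψ (g * v) ≤ c0 / ((g * v : ℕ) : ℝ) →
    (∀ q ∈ T, g * v < q ∧ Nat.gcd q (g * v) = g ∧ Nat.log 2 q = L' ∧ 0 ≤ ψ q ∧ ψ q ≤ c0 / q ∧
      ND γ ψ q (g * v)) →
    ∑ q ∈ T, (((g * v : ℕ) : ℝ) / q) ^ (5 / 8 : ℝ) *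
        Real.exp (4 * Phi (q1 q (g * v)) - 4 * Phi (r1 q (g * v))) *
        ((Nat.gcd q (g * v) : ℝ) * min (ψ q / q) (ψ (g * v) / ((g * v : ℕ) : ℝ))) /
          ww (r1 q (g * v))
      ≤ (Real.exp (-(4 * Phi v)) * (ww v)⁻¹) * (K * (c0 ^ (1 / 2 : ℝ) * ψ (g * v) *
        (g : ℝ) ^ (-(1 / 8) : ℝ) * ((2 : ℝ) ^ L' / ((g * v : ℕ) : ℝ)) ^ (-(1 / 8) : ℝ))) := by
  obtain ⟨K, hK, h⟩ := beta1
  refine ⟨K, hK, ?_⟩
  intro γ ψ c0 g v L' T hg hv hc hc4 h1 h2 hT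
  have hq : ∀ q ∈ T, g * q1 q (g * v) = q := by
    intro q hq
    have := q1_mul q (g * v)
    rw [(hT q hq).2.1, mul_comm] at this
    exact this
  have hr : ∀ q ∈ T, r1 q (g * v) = v := by
    intro q hq
    have := r1_mul q (g * v)
    rw [(hT q hq).2.1, mul_comm] at this
    exact Nat.eq_of_mul_eq_mul_left hg this
  have hinj : Set.InjOn (fun q => q1 q (g * v)) (T : Set ℕ) := by
    intro a ha b hb hab
    have e1 := hq a ha
    have e2 := hq b hb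
    simp only at hab
    rw [← e1, ← e2, hab]
  have hU := h γ ψ c0 g v L' hg hv hc hc4 h1 h2 (T.image fun q => q1 q (g * v)) (by
    intro u hu
    obtain ⟨q, hqT, rfl⟩ := Finset.mem_image.1 hu
    obtain ⟨a1, a2, a3, a4, a5, a6⟩ := hT q hqT
    rw [hq q hqT]
    refine ⟨?_, ?_, a3, a4, a5, a6⟩
    · have : g * v < g * q1 q (g * v) := by rw [hq q hqT]; exact a1
      exact Nat.lt_of_mul_lt_mul_left this
    · have e := Nat.coprime_div_gcd_div_gcd (m := q) (n := g * v) (by rw [a2]; exact hg)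
      have e1 : q / Nat.gcd q (g * v) = q1 q (g * v) := rfl
      have e2 : g * v / Nat.gcd q (g * v) = r1 q (g * v) := rfl
      rw [e1, e2, hr q hqT] at e
      exact e)
  rw [Finset.sum_image hinj] at hU
  have hww : (0 : ℝ) ≤ (ww v)⁻¹ := inv_nonneg.2 (ww_pos v).le
  refine le_trans (le_of_eq ?_) (mul_le_mul_of_nonneg_left hU
    (mul_nonneg (Real.exp_pos (-(4 * Phi v))).le hww))
  rw [Finset.mul_sum]
  refine Finset.sum_congr rfl fun q hqT => ?_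
  rw [hr q hqT, hq q hqT, (hT q hqT).2.1, sub_eq_add_neg, Real.exp_add, div_eq_mul_inv]
  ring

/-- the geometric sum over the blocks -/
theorem beta2_geom (r M : ℕ) (hr : 0 < r) :
    ∑ L' ∈ Finset.Ico (Nat.log 2 r) M, ((2 : ℝ) ^ L' / (r : ℝ)) ^ (-(1 / 8) : ℝ) ≤
      (2 : ℝ) ^ (1 / 8 : ℝ) * (1 - (2 : ℝ) ^ (-(1 / 8) : ℝ))⁻¹ := by
  have hr0 : (0 : ℝ) < r := by exact_mod_cast hr
  have hrL : (r : ℝ) ≤ 2 * 2 ^ Nat.log 2 r := by
    have := Nat.lt_pow_succ_log_self (b := 2) (by norm_num) r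
    have h2 : r ≤ 2 * 2 ^ Nat.log 2 r := by rw [← pow_succ']; exact this.le
    exact_mod_cast h2
  have hρ0 : (0 : ℝ) ≤ (2 : ℝ) ^ (-(1 / 8) : ℝ) := by positivity
  have hρ1 : (2 : ℝ) ^ (-(1 / 8) : ℝ) < 1 :=
    Real.rpow_lt_one_of_one_lt_of_neg (by norm_num) (by norm_num)
  rw [Finset.sum_Ico_eq_sum_range]
  calc ∑ j ∈ Finset.range (M - Nat.log 2 r),
        ((2 : ℝ) ^ (Nat.log 2 r + j) / (r : ℝ)) ^ (-(1 / 8) : ℝ)
      ≤ ∑ j ∈ Finset.range (M - Nat.log 2 r),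
        (2 : ℝ) ^ (1 / 8 : ℝ) * ((2 : ℝ) ^ (-(1 / 8) : ℝ)) ^ j := by
        refine Finset.sum_le_sum fun j _ => ?_
        have h1 : (2 : ℝ) ^ j / 2 ≤ (2 : ℝ) ^ (Nat.log 2 r + j) / (r : ℝ) := by
          rw [div_le_div_iff₀ (by norm_num) hr0, pow_add]
          have : (0 : ℝ) < 2 ^ j := by positivity
          nlinarith
        have h2 : (0 : ℝ) < (2 : ℝ) ^ j / 2 := by positivity
        have h3 := Real.rpow_le_rpow_of_nonpos h2 h1 (show (-(1 / 8) : ℝ) ≤ 0 by norm_num)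
        refine h3.trans (le_of_eq ?_)
        rw [Real.div_rpow (by positivity) (by norm_num), ← Real.rpow_natCast, ← Real.rpow_natCast,
          ← Real.rpow_mul (by norm_num), ← Real.rpow_mul (by norm_num), div_eq_mul_inv,
          ← Real.rpow_neg (by norm_num), neg_neg, mul_comm]
        congr 2
        ring
    _ = (2 : ℝ) ^ (1 / 8 : ℝ) * ∑ j ∈ Finset.range (M - Nat.log 2 r),
          ((2 : ℝ) ^ (-(1 / 8) : ℝ)) ^ j := by rw [Finset.mul_sum]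
    _ ≤ _ := by
        refine mul_le_mul_of_nonneg_left ?_ (by positivity)
        rw [← tsum_geometric_of_lt_one hρ0 hρ1]
        exact (summable_geometric_of_lt_one hρ0 hρ1).sum_le_tsum _ fun j _ => by positivity

open Classical in
theorem beta_sum : ∃ K : ℝ, 0 < K ∧ ∀ (γ : ℝ) (ψ : ℕ → ℝ) (c0 : ℝ) (S : Finset ℕ) (r : ℕ),
    0 < c0 → c0 ≤ 1 / 4 →
    (∀ q ∈ S, 0 < q ∧ 0 ≤ ψ q ∧ ψ q ≤ c0 / q) → r ∈ S → (r : ℝ) ^ (-(5 / 4) : ℝ) ≤ ψ r →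
    ∑ q ∈ S with r < q ∧ ND γ ψ q r,
      ((r : ℝ) / q) ^ (5 / 8 : ℝ) * Real.exp (4 * Phi (q1 q r) - 4 * Phi (r1 q r)) *
        ((Nat.gcd q r : ℝ) * min (ψ q / q) (ψ r / r)) / ww (r1 q r)
      ≤ K * (c0 ^ (1 / 2 : ℝ) * ψ r) := by
  obtain ⟨K1, hK1, h1⟩ := beta2_block
  obtain ⟨K2, hK2, h2⟩ := phi_div
  have hρ1 : (2 : ℝ) ^ (-(1 / 8) : ℝ) < 1 :=
    Real.rpow_lt_one_of_one_lt_of_neg (by norm_num) (by norm_num)
  obtain ⟨G, hG⟩ : ∃ G : ℝ, G = (2 : ℝ) ^ (1 / 8 : ℝ) * (1 - (2 : ℝ) ^ (-(1 / 8) : ℝ))⁻¹ :=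
    ⟨_, rfl⟩
  have hG0 : 0 < G := by
    rw [hG]
    exact mul_pos (by positivity) (inv_pos.2 (by linarith))
  refine ⟨K1 * G * K2, by positivity, ?_⟩
  intro γ ψ c0 S r hc hc4 hS hrS hr
  have hr0 : 0 < r := (hS r hrS).1
  set S' := S.filter (fun q => r < q ∧ ND γ ψ q r) with hS'
  set M := (S'.sup (Nat.log 2)) + 1 with hM
  have hψ0 : 0 ≤ ψ r := (hS r hrS).2.1
  have hmap1 : ∀ q ∈ S', Nat.gcd q r ∈ r.divisors := fun q _ =>
    Nat.mem_divisors.2 ⟨Nat.gcd_dvd_right q r, hr0.ne'⟩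
  rw [← Finset.sum_fiberwise_of_maps_to hmap1]
  have hblock : ∀ g ∈ r.divisors,
      ∑ q ∈ S' with Nat.gcd q r = g,
        ((r : ℝ) / q) ^ (5 / 8 : ℝ) * Real.exp (4 * Phi (q1 q r) - 4 * Phi (r1 q r)) *
          ((Nat.gcd q r : ℝ) * min (ψ q / q) (ψ r / r)) / ww (r1 q r)
      ≤ (K1 * G * (c0 ^ (1 / 2 : ℝ) * ψ r)) *
        ((g : ℝ) ^ (-(1 / 32) : ℝ) * Real.exp (2 * Phi g - Phi r)) := by
    intro g hg
    have hgr := Nat.dvd_of_mem_divisors hg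
    obtain ⟨v, hv⟩ := hgr
    have hg0 : 0 < g := Nat.pos_of_mem_divisors hg
    have hv0 : 0 < v := by
      rcases Nat.eq_zero_or_pos v with h | h
      · rw [h, mul_zero] at hv
        omega
      · exact h
    have hmap2 : ∀ q ∈ S'.filter (fun q => Nat.gcd q r = g),
        Nat.log 2 q ∈ Finset.Ico (Nat.log 2 r) M := by
      intro q hq
      obtain ⟨hq1, hq2⟩ := Finset.mem_filter.1 hq
      have hq3 := (Finset.mem_filter.1 hq1).2.1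
      rw [Finset.mem_Ico]
      refine ⟨Nat.log_mono_right hq3.le, ?_⟩
      rw [hM, Nat.lt_succ_iff]
      exact Finset.le_sup (f := Nat.log 2) hq1
    rw [← Finset.sum_fiberwise_of_maps_to hmap2]
    have hL : ∀ L' ∈ Finset.Ico (Nat.log 2 r) M,
        ∑ q ∈ (S'.filter (fun q => Nat.gcd q r = g)).filter (fun q => Nat.log 2 q = L'),
          ((r : ℝ) / q) ^ (5 / 8 : ℝ) * Real.exp (4 * Phi (q1 q r) - 4 * Phi (r1 q r)) *
            ((Nat.gcd q r : ℝ) * min (ψ q / q) (ψ r / r)) / ww (r1 q r)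
        ≤ (Real.exp (-(4 * Phi v)) * (ww v)⁻¹) * (K1 * (c0 ^ (1 / 2 : ℝ) * ψ r *
          (g : ℝ) ^ (-(1 / 8) : ℝ) * ((2 : ℝ) ^ L' / (r : ℝ)) ^ (-(1 / 8) : ℝ))) := by
      intro L' _
      subst hv
      refine h1 γ ψ c0 g v L' _ hg0 hv0 hc hc4 hr (hS _ hrS).2.2 ?_
      intro q hq
      obtain ⟨hq1, hq2⟩ := Finset.mem_filter.1 hq
      obtain ⟨hq3, hq4⟩ := Finset.mem_filter.1 hq1
      obtain ⟨hq5, hq6, hq7⟩ := Finset.mem_filter.1 hq3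
      exact ⟨hq6, hq4, hq2, (hS q hq5).2.1, (hS q hq5).2.2, hq7⟩
    refine (Finset.sum_le_sum hL).trans ?_
    rw [← Finset.mul_sum, ← Finset.mul_sum, ← Finset.mul_sum]
    have hgeo := beta2_geom r M hr0
    rw [← hG] at hgeo
    have hg1 : (1 : ℝ) ≤ g := by exact_mod_cast hg0
    have hgp : (g : ℝ) ^ (-(1 / 8) : ℝ) ≤ (g : ℝ) ^ (-(1 / 32) : ℝ) :=
      Real.rpow_le_rpow_of_exponent_le hg1 (by norm_num)
    have hgp0 : (0 : ℝ) ≤ (g : ℝ) ^ (-(1 / 8) : ℝ) := by positivity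
    have hw := weight_le hg0 hv0
    rw [← hv] at hw
    have hww : (0 : ℝ) ≤ (ww v)⁻¹ := inv_nonneg.2 (ww_pos v).le
    have hw2 : Real.exp (-(4 * Phi v)) * (ww v)⁻¹ ≤ Real.exp (2 * Phi g - Phi r) := by
      refine le_trans ?_ hw
      refine mul_le_mul_of_nonneg_right ?_ hww
      rw [← Real.exp_add, Real.exp_le_exp]
      have e1 := Phi_nonneg v
      have e2 := Phi_nonneg g
      linarith
    have hc0 : (0 : ℝ) ≤ c0 ^ (1 / 2 : ℝ) := by positivity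
    calc (Real.exp (-(4 * Phi v)) * (ww v)⁻¹) * (K1 * (c0 ^ (1 / 2 : ℝ) * ψ r *
          (g : ℝ) ^ (-(1 / 8) : ℝ) *
            ∑ i ∈ Finset.Ico (Nat.log 2 r) M, ((2 : ℝ) ^ i / (r : ℝ)) ^ (-(1 / 8) : ℝ)))
        ≤ Real.exp (2 * Phi g - Phi r) * (K1 * (c0 ^ (1 / 2 : ℝ) * ψ r *
          (g : ℝ) ^ (-(1 / 32) : ℝ) * G)) := by
          refine mul_le_mul hw2 ?_ ?_ (Real.exp_pos _).le
          · refine mul_le_mul_of_nonneg_left ?_ hK1.le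
            refine mul_le_mul ?_ hgeo ?_ ?_
            · exact mul_le_mul_of_nonneg_left hgp (mul_nonneg hc0 hψ0)
            · exact Finset.sum_nonneg fun i _ => by positivity
            · exact mul_nonneg (mul_nonneg hc0 hψ0) (by positivity)
          · refine mul_nonneg hK1.le (mul_nonneg (mul_nonneg (mul_nonneg hc0 hψ0) hgp0) ?_)
            exact Finset.sum_nonneg fun i _ => by positivity
      _ = _ := by ring
  refine (Finset.sum_le_sum hblock).trans ?_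
  rw [← Finset.mul_sum]
  have hc0 : (0 : ℝ) ≤ c0 ^ (1 / 2 : ℝ) := by positivity
  calc (K1 * G * (c0 ^ (1 / 2 : ℝ) * ψ r)) *
        ∑ g ∈ r.divisors, ((g : ℝ) ^ (-(1 / 32) : ℝ) * Real.exp (2 * Phi g - Phi r))
      ≤ (K1 * G * (c0 ^ (1 / 2 : ℝ) * ψ r)) * K2 :=
        mul_le_mul_of_nonneg_left (h2 r hr0) (by positivity)
    _ = _ := by ring

end Vale.Agent.P028EV
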