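import Mathlib

/-!
Module BLOCK: choice of a block with small mass at every scale.

`I_k = {q : 4^k ≤ log₂ q < 4^{k+1}}` (i.e. `2^(4^k) ≤ q < 2^(4^(k+1))`), `m_k = ∑_{q ∈ I_k} μ q`.
Since `μ q ≤ 1/(4q)` and `∑_{log₂ q = j} 1/q ≤ 1`: `m_k ≤ 4^k ≤ log₂ q` for `q ∈ I_k`.
`lam q = ε / max ε m_k` for `q ∈ I_k`; the new masses are `min m_k ε`; their sum diverges (if
infinitely many `m_k ≥ ε` clear, otherwise `m_k = min` eventually).  Take `k₀` large
(so that `q ≥ N` and `ε / max ε (log₂ q) ≥ q^{-1/8}` for `log₂ q ≥ 4^k₀`) and `k₁` minimal with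
`∑_{k₀ ≤ k ≤ k₁} min m_k ε ≥ 1`; the sum is `≤ 1 + ε ≤ 2`.  `S = ∪_{k₀≤k≤k₁} I_k`.
If `r < q < r^4` and `r ∈ I_k` then `q ∈ I_k ∪ I_{k+1}`: the last sum is
`≤ ∑_k min(m_k,ε) (min(m_k,ε) + min(m_{k+1},ε)) ≤ 2 ε · 2`.
-/

namespace Vale.Agent.P028EV

open Finset

/-- the `k`-th block -/
def blkI (k : ℕ) : Finset ℕ := Finset.Ico (2 ^ (4 ^ k)) (2 ^ (4 ^ (k + 1)))

/-- index of the block containing `q` -/
def blkK (q : ℕ) : ℕ := Nat.log 4 (Nat.log 2 q)

theorem blk_mem_self {q : ℕ} (hq : 2 ≤ q) : q ∈ blkI (blkK q) := by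
  have h1 : Nat.log 2 q ≠ 0 := by
    have := (Nat.le_log_iff_pow_le (b := 2) (x := 1) (y := q) (by norm_num) (by omega)).2 (by simpa using hq)
    omega
  rw [blkI, Finset.mem_Ico]
  constructor
  · apply (Nat.le_log_iff_pow_le (by norm_num) (by omega)).1
    exact Nat.pow_log_le_self 4 h1
  · apply (Nat.log_lt_iff_lt_pow (by norm_num) (by omega)).1
    exact Nat.lt_pow_succ_log_self (by norm_num) _

theorem blkK_of_mem {q k : ℕ} (hq : q ∈ blkI k) : blkK q = k := by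
  rw [blkI, Finset.mem_Ico] at hq
  have h0 : 0 < 2 ^ (4 ^ k) := by positivity
  have hq0 : q ≠ 0 := by omega
  have h1 := (Nat.le_log_iff_pow_le (b := 2) (by norm_num) hq0).2 hq.1
  have h2 := (Nat.log_lt_iff_lt_pow (b := 2) (by norm_num) hq0).2 hq.2
  have h3 : 0 < 4 ^ k := by positivity
  have h4 : Nat.log 2 q ≠ 0 := by omega
  have h5 := (Nat.le_log_iff_pow_le (b := 4) (by norm_num) h4).2 h1
  have h6 := (Nat.log_lt_iff_lt_pow (b := 4) (by norm_num) h4).2 h2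
  unfold blkK
  omega

theorem blk_two_le {q k : ℕ} (hq : q ∈ blkI k) : 2 ≤ q := by
  rw [blkI, Finset.mem_Ico] at hq
  have h1 : 2 ^ 1 ≤ 2 ^ (4 ^ k) := Nat.pow_le_pow_right (by norm_num) (Nat.one_le_pow _ _ (by norm_num))
  omega

theorem blk_mono {k l : ℕ} (h : k ≤ l) : 2 ^ (4 ^ k) ≤ 2 ^ (4 ^ l) :=
  Nat.pow_le_pow_right (by norm_num) (Nat.pow_le_pow_right (by norm_num) h)

theorem blk_sum (f : ℕ → ℝ) {k l : ℕ} (h : k ≤ l) :
    ∑ q ∈ Finset.Ico (2 ^ (4 ^ k)) (2 ^ (4 ^ l)), f q = ∑ j ∈ Finset.Ico k l, ∑ q ∈ blkI j, f q := by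
  induction l, h using Nat.le_induction with
  | base => simp
  | succ l hl ih =>
    rw [Finset.sum_Ico_succ_top hl, ← ih, blkI, Finset.sum_Ico_consecutive _ (blk_mono hl)
      (blk_mono (Nat.le_succ l))]

theorem blk_dyadic {a b : ℕ} (h : a ≤ b) :
    ∑ q ∈ Finset.Ico ((2 : ℕ) ^ a) (2 ^ b), (1 / (4 * (q : ℝ))) ≤ ((b : ℝ) - a) / 4 := by
  induction b, h using Nat.le_induction with
  | base => simp
  | succ b hb ih =>
    rw [← Finset.sum_Ico_consecutive _ (Nat.pow_le_pow_right (by norm_num) hb)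
      (Nat.pow_le_pow_right (by norm_num) (Nat.le_succ b))]
    have h1 : ∑ q ∈ Finset.Ico ((2 : ℕ) ^ b) (2 ^ (b + 1)), (1 / (4 * (q : ℝ))) ≤ 1 / 4 := by
      have h2 : ∀ q ∈ Finset.Ico ((2 : ℕ) ^ b) (2 ^ (b + 1)), (1 / (4 * (q : ℝ))) ≤ 1 / (4 * 2 ^ b) := by
        intro q hq
        rw [Finset.mem_Ico] at hq
        apply one_div_le_one_div_of_le (by positivity)
        have : ((2 ^ b : ℕ) : ℝ) ≤ q := by exact_mod_cast hq.1
        push_cast at this
        linarith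
      refine (Finset.sum_le_card_nsmul _ _ _ h2).trans ?_
      rw [Nat.card_Ico, nsmul_eq_mul]
      have h3 : 2 ^ (b + 1) - 2 ^ b = 2 ^ b := by
        rw [pow_succ]; omega
      rw [h3]
      push_cast
      have : (2 : ℝ) ^ b ≠ 0 := by positivity
      field_simp
      norm_num
    push_cast at ih ⊢
    linarith

theorem blk_mass {μ : ℕ → ℝ} (hμ1 : ∀ q, 1 ≤ q → μ q ≤ 1 / (4 * q)) (k : ℕ) :
    ∑ q ∈ blkI k, μ q ≤ (4 : ℝ) ^ k := by
  have h1 : ∑ q ∈ blkI k, μ q ≤ ∑ q ∈ blkI k, (1 / (4 * (q : ℝ))) := by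
    apply Finset.sum_le_sum
    intro q hq
    exact hμ1 q (by have := blk_two_le hq; omega)
  refine h1.trans ((blk_dyadic (Nat.pow_le_pow_right (by norm_num) (Nat.le_succ k))).trans ?_)
  push_cast
  have : (0 : ℝ) < 4 ^ k := by positivity
  rw [pow_succ]
  linarith

theorem blk_tendsto : Filter.Tendsto (fun k : ℕ => (2 : ℕ) ^ (4 ^ k)) Filter.atTop Filter.atTop := by
  apply Filter.tendsto_atTop_mono (f := fun k : ℕ => k)
  · intro k
    have h1 : k < 4 ^ k := Nat.lt_pow_self (by norm_num)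
    have h2 : 4 ^ k < 2 ^ (4 ^ k) := Nat.lt_pow_self (by norm_num)
    exact (h1.trans h2).le
  · exact Filter.tendsto_id

theorem blk_not_summable {μ : ℕ → ℝ} (hμ : ∀ q, 0 ≤ μ q) (hdiv : ¬ Summable μ) :
    ¬ Summable (fun k => ∑ q ∈ blkI k, μ q) := by
  have h0 : ∀ k, 0 ≤ ∑ q ∈ blkI k, μ q := fun k => Finset.sum_nonneg fun q _ => hμ q
  rw [not_summable_iff_tendsto_nat_atTop_of_nonneg h0]
  rw [not_summable_iff_tendsto_nat_atTop_of_nonneg hμ] at hdiv
  have h1 := hdiv.comp blk_tendsto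
  have h2 : ∀ K : ℕ, ∑ k ∈ Finset.range K, ∑ q ∈ blkI k, μ q =
      -(∑ q ∈ Finset.range 2, μ q) + ∑ q ∈ Finset.range (2 ^ (4 ^ K)), μ q := by
    intro K
    have h3 := blk_sum μ (Nat.zero_le K)
    rw [← Finset.range_eq_Ico, show (2 : ℕ) ^ (4 ^ 0) = 2 by norm_num] at h3
    have h5 : (2 : ℕ) ≤ 2 ^ (4 ^ K) := by
      have := blk_mono (Nat.zero_le K)
      simpa using this
    rw [← h3, ← Finset.sum_range_add_sum_Ico μ h5]
    ring
  have h3 : (fun K : ℕ => ∑ k ∈ Finset.range K, ∑ q ∈ blkI k, μ q) =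
      fun K : ℕ => -(∑ q ∈ Finset.range 2, μ q) + ∑ q ∈ Finset.range (2 ^ (4 ^ K)), μ q := funext h2
  rw [h3]
  exact Filter.tendsto_atTop_add_const_left _ _ h1

theorem blk_min_not_summable {m : ℕ → ℝ} (hm : ∀ k, 0 ≤ m k) (hdiv : ¬ Summable m) {ε : ℝ} (hε : 0 < ε) :
    ¬ Summable (fun k => min (m k) ε) := by
  intro h
  apply hdiv
  have h1 := h.tendsto_atTop_zero
  have h2 : ∀ᶠ k in Filter.atTop, min (m k) ε < ε := h1.eventually (gt_mem_nhds hε)
  refine h.congr_atTop ?_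
  filter_upwards [h2] with k hk
  rcases min_lt_iff.1 hk with h3 | h3
  · exact min_eq_left h3.le
  · exact absurd h3 (lt_irrefl _)

theorem blk_decay {ε : ℝ} (hε : 0 < ε) :
    ∀ᶠ k : ℕ in Filter.atTop, (4 : ℝ) ^ k * (2 : ℝ) ^ (-((4 : ℝ) ^ k / 8)) ≤ ε := by
  have h1 := Real.tendsto_pow_mul_exp_neg_atTop_nhds_zero 1
  have hc : 0 < Real.log 2 / 8 := by
    have := Real.log_pos (by norm_num : (1 : ℝ) < 2)
    positivity
  have h2 : Filter.Tendsto (fun k : ℕ => (4 : ℝ) ^ k * (Real.log 2 / 8)) Filter.atTop Filter.atTop :=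
    (tendsto_pow_atTop_atTop_of_one_lt (by norm_num)).atTop_mul_const hc
  have h3 := h1.comp h2
  have h4 : ∀ᶠ k : ℕ in Filter.atTop,
      ((fun x : ℝ => x ^ 1 * Real.exp (-x)) ∘ fun k : ℕ => (4 : ℝ) ^ k * (Real.log 2 / 8)) k <
        ε * (Real.log 2 / 8) := h3.eventually (gt_mem_nhds (by positivity))
  filter_upwards [h4] with k hk
  simp only [Function.comp_apply, pow_one] at hk
  have h5 : (2 : ℝ) ^ (-((4 : ℝ) ^ k / 8)) = Real.exp (-((4 : ℝ) ^ k * (Real.log 2 / 8))) := by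
    rw [Real.rpow_def_of_pos (by norm_num)]
    congr 1
    ring
  rw [h5]
  have h6 : (4 : ℝ) ^ k * (Real.log 2 / 8) * Real.exp (-((4 : ℝ) ^ k * (Real.log 2 / 8))) =
    ((4 : ℝ) ^ k * Real.exp (-((4 : ℝ) ^ k * (Real.log 2 / 8)))) * (Real.log 2 / 8) := by ring
  rw [h6] at hk
  exact (lt_of_mul_lt_mul_right hk hc.le).le

theorem block (μ : ℕ → ℝ) (hμ : ∀ q, 0 ≤ μ q) (hμ1 : ∀ q, 1 ≤ q → μ q ≤ 1 / (4 * q))
    (hdiv : ¬ Summable μ) (ε : ℝ) (hε : 0 < ε) (hε1 : ε ≤ 1) (N : ℕ) :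
    ∃ (lam : ℕ → ℝ) (S : Finset ℕ), (∀ q, 0 ≤ lam q ∧ lam q ≤ 1) ∧
      (∀ q ∈ S, N ≤ q ∧ 1 ≤ q ∧ (q : ℝ) ^ (-(1 / 8) : ℝ) ≤ lam q) ∧
      1 ≤ ∑ q ∈ S, lam q * μ q ∧ ∑ q ∈ S, lam q * μ q ≤ 2 ∧
      ∑ q ∈ S, ∑ r ∈ S with r < q ∧ q < r ^ 4, (lam q * μ q) * (lam r * μ r) ≤ 4 * ε := by
  set m : ℕ → ℝ := fun k => ∑ q ∈ blkI k, μ q with hm
  have hm0 : ∀ k, 0 ≤ m k := fun k => Finset.sum_nonneg fun q _ => hμ q
  have hmle : ∀ k, m k ≤ (4 : ℝ) ^ k := fun k => blk_mass hμ1 k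
  set w : ℕ → ℝ := fun k => min (m k) ε with hw
  have hw0 : ∀ k, 0 ≤ w k := fun k => le_min (hm0 k) hε.le
  have hwε : ∀ k, w k ≤ ε := fun k => min_le_right _ _
  have hwdiv : ¬ Summable w := blk_min_not_summable hm0 (blk_not_summable hμ hdiv) hε
  set lam : ℕ → ℝ := fun q => ε / max ε (m (blkK q)) with hlam
  have hmaxpos : ∀ k, 0 < max ε (m k) := fun k => lt_max_of_lt_left hε
  have hlam0 : ∀ q, 0 ≤ lam q := fun q => (div_pos hε (hmaxpos _)).le
  have hlam1 : ∀ q, lam q ≤ 1 := fun q => (div_le_one (hmaxpos _)).2 (le_max_left _ _)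
  have hsumI : ∀ k, ∑ q ∈ blkI k, lam q * μ q = w k := by
    intro k
    have h1 : ∀ q ∈ blkI k, lam q * μ q = ε / max ε (m k) * μ q := by
      intro q hq
      simp only [hlam, blkK_of_mem hq]
    rw [Finset.sum_congr rfl h1, ← Finset.mul_sum]
    change ε / max ε (m k) * m k = min (m k) ε
    rcases le_total (m k) ε with h | h
    · rw [max_eq_left h, min_eq_left h, div_self hε.ne', one_mul]
    · rw [max_eq_right h, min_eq_right h, div_mul_cancel₀]
      exact (hε.trans_le h).ne'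
  -- choice of `k₀`
  obtain ⟨k₀, hk₀N, hk₀⟩ : ∃ k₀ : ℕ, N ≤ 2 ^ (4 ^ k₀) ∧
      ∀ k, k₀ ≤ k → (4 : ℝ) ^ k * (2 : ℝ) ^ (-((4 : ℝ) ^ k / 8)) ≤ ε := by
    obtain ⟨K1, hK1⟩ := Filter.eventually_atTop.1 (blk_decay hε)
    obtain ⟨K2, hK2⟩ := Filter.eventually_atTop.1 (blk_tendsto.eventually (Filter.eventually_ge_atTop N))
    exact ⟨max K1 K2, hK2 _ (le_max_right _ _), fun k hk => hK1 k (le_trans (le_max_left _ _) hk)⟩
  -- choice of `K`
  have hex : ∃ K : ℕ, k₀ ≤ K ∧ 1 ≤ ∑ k ∈ Finset.Ico k₀ K, w k := by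
    rw [not_summable_iff_tendsto_nat_atTop_of_nonneg hw0] at hwdiv
    obtain ⟨K, hK⟩ := Filter.eventually_atTop.1
      (hwdiv.eventually (Filter.eventually_ge_atTop (1 + ∑ k ∈ Finset.range k₀, w k)))
    refine ⟨max K k₀, le_max_right _ _, ?_⟩
    have h1 := hK (max K k₀) (le_max_left _ _)
    rw [← Finset.sum_range_add_sum_Ico _ (le_max_right K k₀)] at h1
    linarith
  classical
  obtain ⟨hK1, hK2⟩ := Nat.find_spec hex
  set K := Nat.find hex with hKdef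
  have hKmin : ∀ K', K' < K → ¬ (k₀ ≤ K' ∧ 1 ≤ ∑ k ∈ Finset.Ico k₀ K', w k) := fun K' h => Nat.find_min hex h
  have hKk : k₀ < K := by
    rcases hK1.eq_or_lt with h | h
    · rw [← h] at hK2
      simp at hK2
      linarith
    · exact h
  have hKsum : ∑ k ∈ Finset.Ico k₀ K, w k ≤ 2 := by
    obtain ⟨K', hK'⟩ : ∃ K', K = K' + 1 := ⟨K - 1, by omega⟩
    have h1 := hKmin K' (by omega)
    have h2 : ∑ k ∈ Finset.Ico k₀ K', w k < 1 := by
      by_contra h3
      push Not at h3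
      exact h1 ⟨by omega, h3⟩
    rw [hK', Finset.sum_Ico_succ_top (by omega)]
    have := hwε K'
    linarith
  refine ⟨lam, Finset.Ico (2 ^ (4 ^ k₀)) (2 ^ (4 ^ K)), fun q => ⟨hlam0 q, hlam1 q⟩, ?_, ?_, ?_, ?_⟩
  · intro q hq
    rw [Finset.mem_Ico] at hq
    have hq1 : 2 ≤ q := by
      have := blk_mono (Nat.zero_le k₀)
      simp at this
      omega
    refine ⟨hk₀N.trans hq.1, by omega, ?_⟩
    have hmem := blk_mem_self hq1
    set k := blkK q with hk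
    rw [blkI, Finset.mem_Ico] at hmem
    have hk0k : k₀ ≤ k := by
      by_contra hlt
      push Not at hlt
      have := blk_mono (show k + 1 ≤ k₀ by omega)
      omega
    have h1 := hk₀ k hk0k
    have h4 : (0 : ℝ) < 4 ^ k := by positivity
    have h2 : (q : ℝ) ^ (-(1 / 8) : ℝ) ≤ (2 : ℝ) ^ (-((4 : ℝ) ^ k / 8)) := by
      have h3 : ((2 : ℝ) ^ ((4 : ℝ) ^ k)) ≤ q := by
        have : ((2 ^ (4 ^ k) : ℕ) : ℝ) ≤ q := by exact_mod_cast hmem.1
        rw [show ((4 : ℝ) ^ k) = (((4 ^ k : ℕ)) : ℝ) by push_cast; rfl, Real.rpow_natCast]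
        push_cast at this
        exact this
      have h5 : (2 : ℝ) ^ (-((4 : ℝ) ^ k / 8)) = ((2 : ℝ) ^ ((4 : ℝ) ^ k)) ^ (-(1 / 8) : ℝ) := by
        rw [← Real.rpow_mul (by norm_num)]
        congr 1
        ring
      rw [h5]
      exact Real.rpow_le_rpow_of_nonpos (by positivity) h3 (by norm_num)
    refine h2.trans ?_
    have h6 : (2 : ℝ) ^ (-((4 : ℝ) ^ k / 8)) ≤ ε / 4 ^ k := by
      rw [le_div_iff₀ h4]
      linarith
    refine h6.trans ?_
    change ε / 4 ^ k ≤ ε / max ε (m k)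
    apply div_le_div_of_nonneg_left hε.le (hmaxpos k)
    apply max_le _ (hmle k)
    refine hε1.trans ?_
    exact one_le_pow₀ (by norm_num)
  · rw [blk_sum _ hK1]
    simp only [hsumI]
    exact hK2
  · rw [blk_sum _ hK1]
    simp only [hsumI]
    exact hKsum
  · have hinner : ∀ q ∈ Finset.Ico (2 ^ (4 ^ k₀)) (2 ^ (4 ^ K)),
        ∑ r ∈ Finset.Ico (2 ^ (4 ^ k₀)) (2 ^ (4 ^ K)) with r < q ∧ q < r ^ 4,
          (lam q * μ q) * (lam r * μ r) ≤ (lam q * μ q) * (2 * ε) := by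
      intro q hq
      rw [← Finset.mul_sum]
      apply mul_le_mul_of_nonneg_left _ (mul_nonneg (hlam0 q) (hμ q))
      have hq' := Finset.mem_Ico.1 hq
      have hq1 : 2 ≤ q := by
        have := blk_mono (Nat.zero_le k₀)
        simp at this
        omega
      set k := blkK q with hk
      have hqk := blk_mem_self hq1
      rw [← hk, blkI, Finset.mem_Ico] at hqk
      have hsub : (Finset.Ico (2 ^ (4 ^ k₀)) (2 ^ (4 ^ K))).filter (fun r => r < q ∧ q < r ^ 4) ⊆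
          blkI (k - 1) ∪ blkI k := by
        intro r hr
        rw [Finset.mem_filter] at hr
        obtain ⟨hr1, hr2, hr3⟩ := hr
        rw [Finset.mem_Ico] at hr1
        have hr4 : 2 ≤ r := by
          have := blk_mono (Nat.zero_le k₀)
          simp at this
          omega
        have hrj := blk_mem_self hr4
        set j := blkK r with hj
        have hrj' := Finset.mem_Ico.1 hrj
        have hjk : j ≤ k := by
          by_contra hlt
          push Not at hlt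
          have := blk_mono (show k + 1 ≤ j by omega)
          omega
        have hkj : k < j + 2 := by
          have h1 : r ^ 4 < (2 ^ (4 ^ (j + 1))) ^ 4 := Nat.pow_lt_pow_left hrj'.2 (by norm_num)
          rw [← pow_mul, ← pow_succ] at h1
          have h2 : 2 ^ (4 ^ k) < 2 ^ (4 ^ (j + 2)) := lt_of_le_of_lt hqk.1 (hr3.trans h1)
          have h3 := (Nat.pow_lt_pow_iff_right (by norm_num)).1 h2
          exact (Nat.pow_lt_pow_iff_right (by norm_num)).1 h3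
        rw [Finset.mem_union]
        rcases hjk.eq_or_lt with h | h
        · right
          rw [← h]
          exact hrj
        · left
          have : k - 1 = j := by omega
          rw [this]
          exact hrj
      calc ∑ r ∈ Finset.Ico (2 ^ (4 ^ k₀)) (2 ^ (4 ^ K)) with r < q ∧ q < r ^ 4, lam r * μ r
          ≤ ∑ r ∈ blkI (k - 1) ∪ blkI k, lam r * μ r :=
            Finset.sum_le_sum_of_subset_of_nonneg hsub fun r _ _ => mul_nonneg (hlam0 r) (hμ r)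
        _ ≤ ∑ r ∈ blkI (k - 1), lam r * μ r + ∑ r ∈ blkI k, lam r * μ r := by
            rw [← Finset.sum_union_inter]
            have : 0 ≤ ∑ r ∈ blkI (k - 1) ∩ blkI k, lam r * μ r :=
              Finset.sum_nonneg fun r _ => mul_nonneg (hlam0 r) (hμ r)
            linarith
        _ ≤ 2 * ε := by
            rw [hsumI, hsumI]
            have h1 := hwε (k - 1)
            have h2 := hwε k
            linarith
    refine (Finset.sum_le_sum hinner).trans ?_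
    rw [← Finset.sum_mul, blk_sum _ hK1]
    simp only [hsumI]
    nlinarith

end Vale.Agent.P028EV
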