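import Mathlib

/-!
Module CE: the Chung-Erdos inequality, real-valued form (Cauchy-Schwarz for
`f = ∑ indicator (A i)`, `(∫ f)² ≤ μ(∪ A i) ∫ f²`).
-/

namespace Vale.Agent.P028EV

open Finset MeasureTheory

theorem chung_erdos {Ω : Type*} [MeasurableSpace Ω] (μ : Measure Ω) [IsFiniteMeasure μ]
    (S : Finset ℕ) (A : ℕ → Set Ω) (hA : ∀ i ∈ S, MeasurableSet (A i)) :
    (∑ i ∈ S, (μ (A i)).toReal) ^ 2
      ≤ (μ (⋃ i ∈ S, A i)).toReal * ∑ i ∈ S, ∑ j ∈ S, (μ (A i ∩ A j)).toReal := by
  classical
  set U : Set Ω := ⋃ i ∈ S, A i with hU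
  have hUm : MeasurableSet U := Finset.measurableSet_biUnion S hA
  let ind : Set Ω → Ω → ℝ := fun B => B.indicator (fun _ => (1 : ℝ))
  have hint : ∀ B : Set Ω, MeasurableSet B → Integrable (ind B) μ := fun B hB =>
    (integrable_const (1 : ℝ)).indicator hB
  have hval : ∀ B : Set Ω, MeasurableSet B → ∫ x, ind B x ∂μ = (μ B).toReal := by
    intro B hB
    simp only [ind]
    rw [integral_indicator hB]
    simp [Measure.real]
  set a : ℝ := ∑ i ∈ S, (μ (A i)).toReal with ha
  set b : ℝ := ∑ i ∈ S, ∑ j ∈ S, (μ (A i ∩ A j)).toReal with hb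
  set m : ℝ := (μ U).toReal with hm
  have key : ∀ t : ℝ, 0 ≤ b - 2 * t * a + t ^ 2 * m := by
    intro t
    have h1 : ∫ x, (∑ i ∈ S, ind (A i) x - t * ind U x) ^ 2 ∂μ = b - 2 * t * a + t ^ 2 * m := by
      have h2 : ∀ x, (∑ i ∈ S, ind (A i) x - t * ind U x) ^ 2 =
          (∑ i ∈ S, ∑ j ∈ S, ind (A i ∩ A j) x) - (2 * t) * (∑ i ∈ S, ind (A i) x)
            + t ^ 2 * ind U x := by
        intro x
        have e1 : (∑ i ∈ S, ind (A i) x) ^ 2 = ∑ i ∈ S, ∑ j ∈ S, ind (A i ∩ A j) x := by
          rw [sq, Finset.sum_mul_sum]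
          refine Finset.sum_congr rfl fun i _ => Finset.sum_congr rfl fun j _ => ?_
          simp only [ind, Set.indicator]
          by_cases h1 : x ∈ A i <;> by_cases h2 : x ∈ A j <;> simp [h1, h2]
        have e2 : ind U x * ind U x = ind U x := by
          simp only [ind, Set.indicator]
          split_ifs <;> simp
        have e3 : (∑ i ∈ S, ind (A i) x) * ind U x = ∑ i ∈ S, ind (A i) x := by
          by_cases hx : x ∈ U
          · simp [ind, hx]
          · have : ∀ i ∈ S, ind (A i) x = 0 := by
              intro i hi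
              have : x ∉ A i := fun h => hx (Set.mem_biUnion hi h)
              simp [ind, this]
            rw [Finset.sum_eq_zero this, zero_mul]
        calc (∑ i ∈ S, ind (A i) x - t * ind U x) ^ 2
            = (∑ i ∈ S, ind (A i) x) ^ 2 - 2 * t * ((∑ i ∈ S, ind (A i) x) * ind U x)
              + t ^ 2 * (ind U x * ind U x) := by ring
          _ = _ := by rw [e1, e2, e3]
      have i1 : Integrable (fun x => ∑ i ∈ S, ∑ j ∈ S, ind (A i ∩ A j) x) μ :=
        integrable_finset_sum _ fun i hi => integrable_finset_sum _ fun j hj =>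
          hint _ ((hA i hi).inter (hA j hj))
      have i2 : Integrable (fun x => ∑ i ∈ S, ind (A i) x) μ :=
        integrable_finset_sum _ fun i hi => hint _ (hA i hi)
      have i3 : Integrable (fun x => (∑ i ∈ S, ∑ j ∈ S, ind (A i ∩ A j) x) -
          (2 * t) * (∑ i ∈ S, ind (A i) x)) μ := i1.sub (i2.const_mul (2 * t))
      simp only [h2]
      rw [integral_add i3 ((hint U hUm).const_mul (t ^ 2)),
        integral_sub i1 (i2.const_mul (2 * t)), integral_const_mul, integral_const_mul,
        integral_finset_sum _ (fun i hi => integrable_finset_sum _ fun j hj =>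
          hint _ ((hA i hi).inter (hA j hj))),
        integral_finset_sum _ (fun i hi => hint _ (hA i hi)), hval U hUm]
      congr 1
      congr 1
      · refine Finset.sum_congr rfl fun i hi => ?_
        rw [integral_finset_sum _ (fun j hj => hint _ ((hA i hi).inter (hA j hj)))]
        exact Finset.sum_congr rfl fun j hj => hval _ ((hA i hi).inter (hA j hj))
      · congr 1
        exact Finset.sum_congr rfl fun i hi => hval _ (hA i hi)
    rw [← h1]
    exact integral_nonneg fun x => sq_nonneg _
  by_cases hm0 : m = 0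
  · have : a = 0 := by
      have hle : ∀ i ∈ S, (μ (A i)).toReal = 0 := by
        intro i hi
        have h1 : μ (A i) ≤ μ U := measure_mono (Set.subset_biUnion_of_mem (u := A) hi)
        have h2 : (μ (A i)).toReal ≤ m := ENNReal.toReal_mono (measure_ne_top _ _) h1
        have h3 : 0 ≤ (μ (A i)).toReal := ENNReal.toReal_nonneg
        linarith
      rw [ha]; exact Finset.sum_eq_zero hle
    rw [this, hm0]; simp
  · have hmpos : 0 < m := lt_of_le_of_ne ENNReal.toReal_nonneg (Ne.symm hm0)
    have h1 := key (a / m)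
    have h2 : b - 2 * (a / m) * a + (a / m) ^ 2 * m = b - a ^ 2 / m := by
      field_simp; ring
    rw [h2] at h1
    have h3 : a ^ 2 / m ≤ b := by linarith
    rw [div_le_iff₀ hmpos] at h3
    linarith

end Vale.Agent.P028EV
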