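import Mathlib

/-!
# P028: the inhomogeneous Erdos-Vaaler theorem for all shifts -- definitions

`Bd γ L / Ad γ L` is a fixed rational approximation of `γ` attached to the dyadic scale `2^L`.
`Gd γ q a`: the numerator `a` is admissible for the denominator `q`, i.e. `gcd(B a + A, q) = 1`
where `A/B` is the approximation at the scale of `q`.
-/

namespace Vale.Agent.P028EV

open Finset MeasureTheory

/-- Dirichlet scale attached to `L` -/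
def Nd (L : ℕ) : ℕ := 2 ^ (L / 2)

theorem exists_den (γ : ℝ) (L : ℕ) :
    ∃ B : ℕ, 0 < B ∧ |(B : ℝ) * γ - round ((B : ℝ) * γ)| ≤ 1 / ((Nd L : ℝ) + 1) := by
  obtain ⟨k, hk, _, h⟩ := Real.exists_nat_abs_mul_sub_round_le γ (n := Nd L)
    (by unfold Nd; positivity)
  exact ⟨k, hk, h⟩

open Classical in
/-- least `B ≥ 1` with `‖Bγ‖ ≤ 1/(Nd L + 1)` -/
noncomputable def Bd (γ : ℝ) (L : ℕ) : ℕ := Nat.find (exists_den γ L)

noncomputable def Ad (γ : ℝ) (L : ℕ) : ℤ := round ((Bd γ L : ℝ) * γ)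

/-- denominator of the type of `q` -/
noncomputable def bq (γ : ℝ) (q : ℕ) : ℕ := Bd γ (Nat.log 2 q)

/-- numerator of the type of `q` -/
noncomputable def aq (γ : ℝ) (q : ℕ) : ℤ := Ad γ (Nat.log 2 q)

/-- admissible numerators -/
def Gd (γ : ℝ) (q : ℕ) (a : ℤ) : Prop :=
  ∀ p : ℕ, p.Prime → p ∣ q → ¬ ((p : ℤ) ∣ (bq γ q : ℤ) * a + aq γ q)

/-- the approximation set with admissible numerators -/
def AS (γ : ℝ) (ψ : ℕ → ℝ) (q : ℕ) : Set ℝ :=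
  {x | ∃ a : ℤ, Gd γ q a ∧ |(q : ℝ) * x - a - γ| < ψ q}

/-- the density of the admissible numerators (at least `φ(q)/q`) -/
noncomputable def WW (γ : ℝ) (q : ℕ) : ℝ :=
  ∏ p ∈ q.primeFactors with ¬ p ∣ bq γ q, (1 - 1 / (p : ℝ))

/-- `φ(n)/n` as a product -/
noncomputable def ww (n : ℕ) : ℝ := ∏ p ∈ n.primeFactors, (1 - 1 / (p : ℝ))

/-- additive weight -/
noncomputable def Phi (n : ℕ) : ℝ := ∑ p ∈ n.primeFactors, (p : ℝ) ^ (-(1 / 64) : ℝ)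

/-- sum of reciprocals of the prime factors larger than `z` -/
noncomputable def ss (z n : ℕ) : ℝ := ∑ p ∈ n.primeFactors with z < p, 1 / (p : ℝ)

/-- integers `t` with `|t + γ h| < Δ` -/
noncomputable def Ts (γ : ℝ) (h : ℤ) (Δ : ℝ) : Finset ℤ :=
  (Finset.Icc ⌊-(γ * h) - Δ⌋ ⌈-(γ * h) + Δ⌉).filter (fun t => |(t : ℝ) + γ * h| < Δ)

/-- `q' = q / gcd(q,r)` -/
def q1 (q r : ℕ) : ℕ := q / Nat.gcd q r

/-- `r' = r / gcd(q,r)` -/
def r1 (q r : ℕ) : ℕ := r / Nat.gcd q r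

/-- the resonance width of the pair `(q,r)` -/
noncomputable def Del (ψ : ℕ → ℝ) (q r : ℕ) : ℝ := (r1 q r : ℝ) * ψ q + (q1 q r : ℝ) * ψ r

/-- `r' - q'` -/
def hh (q r : ℕ) : ℤ := (r1 q r : ℤ) - (q1 q r : ℤ)

/-- nondegenerate close pair -/
def ND (γ : ℝ) (ψ : ℕ → ℝ) (q r : ℕ) : Prop :=
  Del ψ q r < 1 / 2 ∧ ∃ t ∈ Ts γ (hh q r) (Del ψ q r), hh q r * aq γ r + t * bq γ r ≠ 0

/-- transitional pair -/
def TR (γ : ℝ) (q r : ℕ) : Prop :=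
  r ∣ q ∧ r < q ∧ bq γ r ≠ bq γ q ∧ ((bq γ r : ℤ) ∣ hh q r)

/-- dyadic index of `q' ψ(r)` -/
noncomputable def mm (ψ : ℕ → ℝ) (q r : ℕ) : ℕ := Nat.log 2 ⌊4 * ((q1 q r : ℝ) * ψ r)⌋₊

/-- bad pair: one of the numbers has many prime factors above the sieve level -/
def BAD (ψ : ℕ → ℝ) (q r : ℕ) : Prop :=
  1 / 4 ≤ (q1 q r : ℝ) * ψ r ∧ (1 < ss (mm ψ q r / 2) q ∨ 1 < ss (mm ψ q r / 2) r)

/-- measure of the overlap in one period -/
noncomputable def ov (γ : ℝ) (ψ : ℕ → ℝ) (q r : ℕ) : ℝ :=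
  (volume (AS γ ψ q ∩ AS γ ψ r ∩ Set.Ico (0 : ℝ) 1)).toReal

theorem mem_Ts {γ : ℝ} {h : ℤ} {Δ : ℝ} {t : ℤ} : t ∈ Ts γ h Δ ↔ |(t : ℝ) + γ * h| < Δ := by
  unfold Ts
  rw [Finset.mem_filter, and_iff_right_iff_imp]
  intro ht
  rw [abs_lt] at ht
  rw [Finset.mem_Icc]
  constructor
  · exact Int.floor_le_iff.mpr (by linarith) |>.trans le_rfl
  · exact Int.le_ceil_iff.mpr (by linarith)

theorem q1_mul (q r : ℕ) : q1 q r * Nat.gcd q r = q := Nat.div_mul_cancel (Nat.gcd_dvd_left q r)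

theorem r1_mul (q r : ℕ) : r1 q r * Nat.gcd q r = r := Nat.div_mul_cancel (Nat.gcd_dvd_right q r)

theorem q1_mul_left (g u v : ℕ) (hg : 0 < g) (h : Nat.Coprime u v) : q1 (g * u) (g * v) = u := by
  unfold q1
  rw [Nat.gcd_mul_left, h.gcd_eq_one, mul_one, Nat.mul_div_cancel_left _ hg]

theorem r1_mul_left (g u v : ℕ) (hg : 0 < g) (h : Nat.Coprime u v) : r1 (g * u) (g * v) = v := by
  unfold r1
  rw [Nat.gcd_mul_left, h.gcd_eq_one, mul_one, Nat.mul_div_cancel_left _ hg]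

/-- every pair of positive numbers is `(g u, g v)` with `u, v` coprime -/
theorem pair_cases {q r : ℕ} (hq : 0 < q) (hr : 0 < r) :
    ∃ g u v : ℕ, 0 < g ∧ 0 < u ∧ 0 < v ∧ Nat.Coprime u v ∧ q = g * u ∧ r = g * v ∧
      g = Nat.gcd q r ∧ u = q1 q r ∧ v = r1 q r := by
  have hg : 0 < Nat.gcd q r := Nat.gcd_pos_of_pos_left _ hq
  refine ⟨Nat.gcd q r, q1 q r, r1 q r, hg, ?_, ?_, ?_, ?_, ?_, rfl, rfl, rfl⟩
  · exact Nat.div_pos (Nat.le_of_dvd hq (Nat.gcd_dvd_left q r)) hg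
  · exact Nat.div_pos (Nat.le_of_dvd hr (Nat.gcd_dvd_right q r)) hg
  · exact Nat.coprime_div_gcd_div_gcd hg
  · rw [mul_comm]; exact (q1_mul q r).symm
  · rw [mul_comm]; exact (r1_mul q r).symm

end Vale.Agent.P028EV
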