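import Vale.Agent.P028EV.Defs

/-!
Module DEN: basic facts on the denominators `Bd`.
`Bd_le`: `Real.exists_nat_abs_mul_sub_round_le` + `Nat.find_min'`.
`Bd_coprime`: if `d ∣ A, d ∣ B`, `d > 1`, then `B/d` satisfies
`|(B/d) γ - A/d| = |Bγ - A|/d ≤ 1/(Nd+1)` (and `round_le`: `|x - round x| ≤ |x - k|` for every
integer `k`), contradicting minimality.  (`B > 0`, so gcd is positive.)
`Bd_mono`: `Nd` is monotone, so `Bd γ L'` satisfies the property at `L ≤ L'`; `Nat.find_min'`.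
`Bd_le_sqrt`: `2^(L/2) ≤ √(2^L)`.  `Bd_approx'`: `√(2^L) ≤ 2 (2^(L/2)+1)`.
-/

namespace Vale.Agent.P028EV

open Finset MeasureTheory

theorem Bd_pos (γ : ℝ) (L : ℕ) : 0 < Bd γ L := by
  classical
  exact (Nat.find_spec (exists_den γ L)).1

theorem Bd_le (γ : ℝ) (L : ℕ) : Bd γ L ≤ Nd L := by
  classical
  obtain ⟨k, hk, hkn, h⟩ := Real.exists_nat_abs_mul_sub_round_le γ (n := Nd L)
    (by unfold Nd; positivity)
  exact (Nat.find_min' (exists_den γ L) ⟨hk, h⟩).trans hkn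

theorem Bd_approx (γ : ℝ) (L : ℕ) :
    |(Bd γ L : ℝ) * γ - Ad γ L| ≤ 1 / ((Nd L : ℝ) + 1) := by
  classical
  exact (Nat.find_spec (exists_den γ L)).2

theorem Bd_coprime (γ : ℝ) (L : ℕ) : IsCoprime (Ad γ L) (Bd γ L : ℤ) := by
  classical
  rw [Int.isCoprime_iff_gcd_eq_one]
  by_contra hne
  have hB := Bd_pos γ L
  set d : ℕ := Int.gcd (Ad γ L) (Bd γ L : ℤ) with hd
  have hdpos : 0 < d := Int.gcd_pos_of_ne_zero_right _ (by exact_mod_cast hB.ne')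
  have hd2 : 2 ≤ d := by omega
  obtain ⟨A', hA'⟩ : (d : ℤ) ∣ Ad γ L := Int.gcd_dvd_left _ _
  obtain ⟨B', hB'⟩ : (d : ℤ) ∣ (Bd γ L : ℤ) := Int.gcd_dvd_right _ _
  have hB'pos : 0 < B' := by
    by_contra h
    push Not at h
    have h1 : (0 : ℤ) < (Bd γ L : ℤ) := by exact_mod_cast hB
    have h2 : (d : ℤ) * B' ≤ 0 := mul_nonpos_of_nonneg_of_nonpos (by positivity) h
    omega
  obtain ⟨b, rfl⟩ : ∃ b : ℕ, B' = (b : ℤ) := ⟨B'.toNat, (Int.toNat_of_nonneg hB'pos.le).symm⟩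
  have hb : 0 < b := by exact_mod_cast hB'pos
  have hBb : Bd γ L = d * b := by exact_mod_cast hB'
  have hlt : b < Bd γ L := by
    rw [hBb]
    nlinarith
  have happ := Bd_approx γ L
  have hd1 : (1 : ℝ) ≤ d := by exact_mod_cast hdpos
  have h3 : |(b : ℝ) * γ - A'| ≤ |(Bd γ L : ℝ) * γ - Ad γ L| := by
    have h4 : (Bd γ L : ℝ) * γ - Ad γ L = d * ((b : ℝ) * γ - A') := by
      rw [hA', hBb]
      push_cast
      ring
    rw [h4, abs_mul, abs_of_nonneg (by positivity : (0 : ℝ) ≤ d)]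
    exact le_mul_of_one_le_left (abs_nonneg _) hd1
  have h5 : |(b : ℝ) * γ - round ((b : ℝ) * γ)| ≤ 1 / ((Nd L : ℝ) + 1) :=
    (round_le ((b : ℝ) * γ) A').trans (h3.trans happ)
  exact Nat.find_min (exists_den γ L) hlt ⟨hb, h5⟩

theorem Bd_mono (γ : ℝ) : Monotone (Bd γ) := by
  classical
  intro L L' h
  refine Nat.find_min' (exists_den γ L) ⟨Bd_pos γ L', ?_⟩
  refine (Bd_approx γ L').trans ?_
  have h1 : (Nd L : ℝ) ≤ Nd L' := by
    unfold Nd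
    exact_mod_cast Nat.pow_le_pow_right (by norm_num) (Nat.div_le_div_right h)
  have h2 : (0 : ℝ) ≤ Nd L := by positivity
  exact one_div_le_one_div_of_le (by positivity) (by linarith)

theorem Bd_le_sqrt (γ : ℝ) (L : ℕ) : (Bd γ L : ℝ) ≤ Real.sqrt ((2 : ℝ) ^ L) := by
  have h1 : (Bd γ L : ℝ) ≤ (2 : ℝ) ^ (L / 2) := by
    have := Bd_le γ L
    unfold Nd at this
    exact_mod_cast this
  refine h1.trans (Real.le_sqrt_of_sq_le ?_)
  rw [← pow_mul]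
  exact pow_le_pow_right₀ (by norm_num) (by omega)

theorem Bd_approx' (γ : ℝ) (L : ℕ) :
    |(Bd γ L : ℝ) * γ - Ad γ L| ≤ 2 / Real.sqrt ((2 : ℝ) ^ L) := by
  refine (Bd_approx γ L).trans ?_
  have hs : 0 < Real.sqrt ((2 : ℝ) ^ L) := Real.sqrt_pos.2 (by positivity)
  have hN : (0 : ℝ) < (Nd L : ℝ) + 1 := by positivity
  rw [div_le_div_iff₀ hN hs, one_mul]
  refine Real.sqrt_le_iff.2 ⟨by positivity, ?_⟩
  have h1 : ((2 : ℝ) ^ L) ≤ 2 * ((2 : ℝ) ^ (L / 2)) ^ 2 := by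
    rw [← pow_mul, ← pow_succ']
    exact pow_le_pow_right₀ (by norm_num) (by omega)
  have h2 : (Nd L : ℝ) = (2 : ℝ) ^ (L / 2) := by
    unfold Nd
    push_cast
    rfl
  have h3 : (0 : ℝ) < (2 : ℝ) ^ (L / 2) := by positivity
  rw [h2]
  nlinarith

theorem aq_eq_of_bq_eq {γ : ℝ} {q r : ℕ} (h : bq γ q = bq γ r) : aq γ q = aq γ r := by
  unfold aq Ad
  unfold bq at h
  rw [h]

end Vale.Agent.P028EV
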