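import Vale.Agent.P028EV.Intv

/-!
Module DIAG: for `q` large in terms of `ℓ`, `AS_interval_le/ge` with
`WW + 2^ω ≤ (ℓ q / 2) WW` (because `2^ω/WW ≤ 4^ω ≤ K q^{1/8}`: `WW_ge`, `omega_bound`).
Lower: `(ℓ q - 1) WW - 2^ω ≥ (ℓ q/2) WW`; upper: `(ℓ q + 1) WW + 2^ω ≤ 2 ℓ q WW`.
-/

namespace Vale.Agent.P028EV

open Finset MeasureTheory

theorem large_q (ℓ : ℝ) (hℓ : 0 < ℓ) : ∃ Q : ℕ, 0 < Q ∧ ∀ q : ℕ, Q ≤ q → ∀ γ : ℝ,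
    WW γ q + 2 ^ q.primeFactors.card ≤ (ℓ * (q : ℝ) ^ ((3 / 8 : ℝ)) / 2) * WW γ q := by
  obtain ⟨K, hK, hKq⟩ := omega_bound
  obtain ⟨Q, hQ⟩ := exists_nat_ge ((2 * (1 + K) / ℓ) ^ 4)
  refine ⟨Q + 1, Nat.succ_pos _, fun q hq γ => ?_⟩
  have hq0 : 0 < q := by omega
  have hq1 : (1 : ℝ) ≤ q := by exact_mod_cast hq0
  have hqp : (0 : ℝ) < q := by linarith
  have hW := WW_pos γ q
  have h1 := WW_ge γ q
  have h2 := hKq q hq0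
  set ω := q.primeFactors.card with hω
  have h3 : (2 : ℝ) ^ ω ≤ 4 ^ ω * WW γ q := by
    have h4 : (4 : ℝ) ^ ω = 2 ^ ω * 2 ^ ω := by
      rw [← mul_pow]; norm_num
    have h5 : (0 : ℝ) < 2 ^ ω := by positivity
    calc (2 : ℝ) ^ ω = 2 ^ ω * (2 ^ ω * (2 ^ ω)⁻¹) := by
          rw [mul_inv_cancel₀ h5.ne', mul_one]
      _ ≤ 2 ^ ω * (2 ^ ω * WW γ q) := by gcongr
      _ = 4 ^ ω * WW γ q := by rw [h4]; ring
  have hq8 : (1 : ℝ) ≤ (q : ℝ) ^ ((1 / 8 : ℝ)) := Real.one_le_rpow hq1 (by norm_num)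
  have h6 : 2 * (1 + K) / ℓ ≤ (q : ℝ) ^ ((1 / 4 : ℝ)) := by
    have h7 : (2 * (1 + K) / ℓ) ^ 4 ≤ (q : ℝ) := by
      refine hQ.trans ?_
      have : (Q : ℝ) + 1 ≤ q := by exact_mod_cast hq
      linarith
    have h8 : 0 ≤ 2 * (1 + K) / ℓ := by positivity
    calc 2 * (1 + K) / ℓ = ((2 * (1 + K) / ℓ) ^ (4 : ℕ)) ^ ((1 / 4 : ℝ)) := by
          rw [← Real.rpow_natCast, ← Real.rpow_mul h8]
          norm_num
      _ ≤ (q : ℝ) ^ ((1 / 4 : ℝ)) := Real.rpow_le_rpow (by positivity) h7 (by norm_num)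
  have h9 : (q : ℝ) ^ ((3 / 8 : ℝ)) = (q : ℝ) ^ ((1 / 4 : ℝ)) * (q : ℝ) ^ ((1 / 8 : ℝ)) := by
    rw [← Real.rpow_add hqp]
    norm_num
  have h10 : (1 + K) * (q : ℝ) ^ ((1 / 8 : ℝ)) ≤ ℓ * (q : ℝ) ^ ((3 / 8 : ℝ)) / 2 := by
    rw [div_le_iff₀ hℓ] at h6
    rw [h9]
    nlinarith
  calc WW γ q + 2 ^ ω ≤ WW γ q + 4 ^ ω * WW γ q := by linarith
    _ ≤ WW γ q + K * (q : ℝ) ^ ((1 / 8 : ℝ)) * WW γ q := by gcongr
    _ = (1 + K * (q : ℝ) ^ ((1 / 8 : ℝ))) * WW γ q := by ring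
    _ ≤ ((1 + K) * (q : ℝ) ^ ((1 / 8 : ℝ))) * WW γ q := by
        refine mul_le_mul_of_nonneg_right ?_ hW.le
        nlinarith
    _ ≤ _ := mul_le_mul_of_nonneg_right h10 hW.le

theorem diag_bounds (ℓ : ℝ) (hℓ : 0 < ℓ) : ∃ Q : ℕ, 0 < Q ∧ ∀ q : ℕ, Q ≤ q →
    ∀ (γ : ℝ) (ψ : ℕ → ℝ) (x0 : ℝ), 0 ≤ ψ q → ψ q < 1 / 2 →
      ℓ * WW γ q * ψ q ≤ (volume (AS γ ψ q ∩ Set.Ico x0 (x0 + ℓ))).toReal ∧
      (volume (AS γ ψ q ∩ Set.Ico x0 (x0 + ℓ))).toReal ≤ 4 * ℓ * WW γ q * ψ q := by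
  obtain ⟨Q, hQ, h⟩ := large_q ℓ hℓ
  refine ⟨Q, hQ, fun q hq γ ψ x0 h0 h1 => ?_⟩
  have hq0 : 0 < q := lt_of_lt_of_le hQ hq
  have hq1 : (1 : ℝ) ≤ q := by exact_mod_cast hq0
  have hqp : (0 : ℝ) < q := by linarith
  have hW := WW_pos γ q
  have h2 := h q hq γ
  have h3 : (q : ℝ) ^ ((3 / 8 : ℝ)) ≤ q := by
    calc (q : ℝ) ^ ((3 / 8 : ℝ)) ≤ (q : ℝ) ^ (1 : ℝ) :=
          Real.rpow_le_rpow_of_exponent_le hq1 (by norm_num)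
      _ = q := Real.rpow_one _
  have h4 : WW γ q + 2 ^ q.primeFactors.card ≤ (ℓ * q / 2) * WW γ q := by
    refine h2.trans (mul_le_mul_of_nonneg_right ?_ hW.le)
    have := mul_le_mul_of_nonneg_left h3 hℓ.le
    linarith
  have hc : 0 ≤ 2 * ψ q / q := by positivity
  have hle := AS_interval_le γ ψ q hq0 h0 h1 x0 (x0 + ℓ) (by linarith)
  have hge := AS_interval_ge γ ψ q hq0 h0 h1 x0 (x0 + ℓ) (by linarith)
  have hx : x0 + ℓ - x0 = ℓ := by ring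
  rw [hx] at hle hge
  constructor
  · refine le_trans (le_trans (le_of_eq ?_) (mul_le_mul_of_nonneg_right
      (show ℓ * q / 2 * WW γ q ≤ (q * ℓ - 1) * WW γ q - 2 ^ q.primeFactors.card by
        linarith [(by ring : (q * ℓ - 1) * WW γ q = ℓ * q * WW γ q - WW γ q)]) hc)) hge
    field_simp
  · refine hle.trans (le_trans (mul_le_mul_of_nonneg_right
      (show (q * ℓ + 1) * WW γ q + 2 ^ q.primeFactors.card ≤ 3 / 2 * (ℓ * q * WW γ q) by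
        linarith [(by ring : (q * ℓ + 1) * WW γ q = ℓ * q * WW γ q + WW γ q)]) hc) ?_)
    have h5 : 3 / 2 * (ℓ * q * WW γ q) * (2 * ψ q / q) = 3 * (ℓ * WW γ q * ψ q) := by
      field_simp
    rw [h5]
    have h6 : 0 ≤ ℓ * WW γ q * ψ q := by positivity
    linarith [(by ring : 4 * ℓ * WW γ q * ψ q = 4 * (ℓ * WW γ q * ψ q))]

end Vale.Agent.P028EV
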