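import Vale.Agent.P028EV.Diag

/-!
Module FAR: two numbers of very different size are independent in every interval.

`r ≥ Q`: at most `2 r ℓ WW γ r` admissible `b` whose interval
`I_b = ((b+γ-ψ r)/r, (b+γ+ψ r)/r)` meets `[x0, x0+ℓ)` (as in `AS_interval_le`/`diag_bounds`).
For each of them `AS_interval_le` on the interval `I_b` (length `2 ψ r / r`) gives
`vol(AS q ∩ I_b) ≤ ((2 q ψ r / r + 1) WW q + 2^ω(q)) (2 ψ q/q) ≤ (4 q ψ r / r) WW q (2 ψ q / q)`,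
because `2 q ψ(r)/r ≥ 2 q r^{-9/4} ≥ 2 q^{7/16}` (`r^4 ≤ q`) dominates `1 + 4^ω(q)`
(use `large_q`, note `q^{3/8} ≤ q^{7/16}`).
Product: `2 r ℓ WW r · 8 ψ r ψ q WW q / r = 16 ℓ WW WW ψ ψ`.
-/

namespace Vale.Agent.P028EV

open Finset MeasureTheory

/-- the power inequality -/
private theorem far_pow {q r : ℕ} (hr : 0 < r) (hrq : r ^ 4 ≤ q) {t : ℝ}
    (ht : (r : ℝ) ^ (-(5 / 4) : ℝ) ≤ t) : (q : ℝ) ^ ((3 / 8 : ℝ)) * r ≤ q * t := by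
  have hr' : (0 : ℝ) < r := by exact_mod_cast hr
  have hr1 : (1 : ℕ) ≤ r := hr
  have hq1 : (1 : ℝ) ≤ q := by
    have : 1 ≤ q := le_trans (Nat.one_le_pow _ _ hr1) hrq
    exact_mod_cast this
  have hq0 : (0 : ℝ) < q := by linarith
  have h1 : (r : ℝ) ^ ((9 / 4 : ℝ)) ≤ (q : ℝ) ^ ((5 / 8 : ℝ)) := by
    have e : (r : ℝ) ^ ((9 / 4 : ℝ)) = ((r : ℝ) ^ (4 : ℕ)) ^ ((9 / 16 : ℝ)) := by
      rw [← Real.rpow_natCast, ← Real.rpow_mul hr'.le]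
      norm_num
    rw [e]
    calc ((r : ℝ) ^ (4 : ℕ)) ^ ((9 / 16 : ℝ)) ≤ (q : ℝ) ^ ((9 / 16 : ℝ)) :=
          Real.rpow_le_rpow (by positivity) (by exact_mod_cast hrq) (by norm_num)
      _ ≤ (q : ℝ) ^ ((5 / 8 : ℝ)) := Real.rpow_le_rpow_of_exponent_le hq1 (by norm_num)
  have h2 : (r : ℝ) = (r : ℝ) ^ ((9 / 4 : ℝ)) * (r : ℝ) ^ (-(5 / 4) : ℝ) := by
    rw [← Real.rpow_add hr']
    norm_num
  have h3 : (q : ℝ) = (q : ℝ) ^ ((3 / 8 : ℝ)) * (q : ℝ) ^ ((5 / 8 : ℝ)) := by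
    rw [← Real.rpow_add hq0]
    norm_num
  have h4 : (0 : ℝ) ≤ (r : ℝ) ^ (-(5 / 4) : ℝ) := Real.rpow_nonneg hr'.le _
  calc (q : ℝ) ^ ((3 / 8 : ℝ)) * r
      = (q : ℝ) ^ ((3 / 8 : ℝ)) * ((r : ℝ) ^ ((9 / 4 : ℝ)) * (r : ℝ) ^ (-(5 / 4) : ℝ)) := by
        rw [← h2]
    _ ≤ (q : ℝ) ^ ((3 / 8 : ℝ)) * ((q : ℝ) ^ ((5 / 8 : ℝ)) * (r : ℝ) ^ (-(5 / 4) : ℝ)) := by
        gcongr
    _ = q * (r : ℝ) ^ (-(5 / 4) : ℝ) := by rw [← mul_assoc, ← h3]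
    _ ≤ q * t := by gcongr

theorem far_bound (ℓ : ℝ) (hℓ : 0 < ℓ) : ∃ Q : ℕ, 0 < Q ∧ ∀ q r : ℕ, Q ≤ r → r ^ 4 ≤ q →
    ∀ (γ : ℝ) (ψ : ℕ → ℝ) (x0 : ℝ), 0 ≤ ψ q → ψ q < 1 / 2 →
      (r : ℝ) ^ (-(5 / 4) : ℝ) ≤ ψ r → ψ r < 1 / 2 →
      (volume (AS γ ψ q ∩ AS γ ψ r ∩ Set.Ico x0 (x0 + ℓ))).toReal
        ≤ 64 * ℓ * (WW γ q * ψ q) * (WW γ r * ψ r) := by
  classical
  obtain ⟨Q1, hQ1, H1⟩ := large_q ℓ hℓ
  obtain ⟨Q2, hQ2, H2⟩ := large_q 4 (by norm_num)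
  refine ⟨max Q1 Q2, lt_max_of_lt_left hQ1, ?_⟩
  intro q r hQr hrq γ ψ x0 hq0 hq1 hr0 hr1
  have hrN : 0 < r := lt_of_lt_of_le hQ1 (le_trans (le_max_left _ _) hQr)
  have hqN : 0 < q := lt_of_lt_of_le (pow_pos hrN 4) hrq
  have hQ2q : Q2 ≤ q :=
    le_trans (le_trans (le_max_right _ _) hQr) (le_trans (Nat.le_self_pow (by norm_num) r) hrq)
  have hr' : (0 : ℝ) < r := by exact_mod_cast hrN
  have hq' : (0 : ℝ) < q := by exact_mod_cast hqN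
  have hr1' : (1 : ℝ) ≤ r := by exact_mod_cast hrN
  have hψr : 0 ≤ ψ r := le_trans (Real.rpow_nonneg hr'.le _) hr0
  have hWq := WW_pos γ q
  have hWr := WW_pos γ r
  -- the admissible numerators
  set P := r.primeFactors.filter (fun p => ¬ p ∣ bq γ r) with hP
  set u : ℝ := r * x0 - γ - ψ r with hu
  set v : ℝ := r * (x0 + ℓ) - γ + ψ r with hv
  have huv : u ≤ v := by
    have : 0 < (r : ℝ) * ℓ := by positivity
    rw [hu, hv]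
    linarith
  set S := (Finset.Ico ⌈u⌉ ⌈v⌉).filter
    (fun k => ∀ p ∈ P, ¬ ((p : ℤ) ∣ (bq γ r : ℤ) * k + aq γ r)) with hS
  have hcount : (S.card : ℝ) ≤ 2 * r * ℓ * WW γ r := by
    have h1 := count_interval P (fun p hp => Nat.prime_of_mem_primeFactors
      (Finset.mem_filter.1 hp).1) (bq γ r : ℤ) (aq γ r) (fun p hp => by
        rw [Int.natCast_dvd_natCast]
        exact (Finset.mem_filter.1 hp).2) u v huv
    have h2 := (abs_le.1 h1).2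
    have h3 : (∏ p ∈ P, (1 - 1 / (p : ℝ))) = WW γ r := rfl
    rw [h3] at h2
    have h4 : (2 : ℝ) ^ P.card ≤ 2 ^ r.primeFactors.card :=
      pow_le_pow_right₀ (by norm_num) (Finset.card_filter_le _ _)
    have h5 := H1 r (le_trans (le_max_left _ _) hQr) γ
    have h6 : (r : ℝ) ^ ((3 / 8 : ℝ)) ≤ r := by
      calc (r : ℝ) ^ ((3 / 8 : ℝ)) ≤ (r : ℝ) ^ (1 : ℝ) :=
            Real.rpow_le_rpow_of_exponent_le hr1' (by norm_num)
        _ = r := Real.rpow_one _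
    have h7 : (ℓ * (r : ℝ) ^ ((3 / 8 : ℝ)) / 2) * WW γ r ≤ (ℓ * r / 2) * WW γ r := by
      gcongr
    have h8 : v - u = r * ℓ + 2 * ψ r := by
      rw [hu, hv]
      ring
    have h9 : (v - u) * WW γ r ≤ (r * ℓ + 1) * WW γ r := by
      rw [h8]
      have : r * ℓ + 2 * ψ r ≤ r * ℓ + 1 := by linarith
      exact mul_le_mul_of_nonneg_right this hWr.le
    have h10 : (S.card : ℝ) ≤ (v - u) * WW γ r + 2 ^ P.card := by
      rw [hS]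
      linarith
    have h11 : 0 ≤ ℓ * r * WW γ r := by positivity
    nlinarith
  -- the covering
  have hcover : AS γ ψ q ∩ AS γ ψ r ∩ Set.Ico x0 (x0 + ℓ) ⊆
      ⋃ k ∈ S, (AS γ ψ q ∩ Set.Ico (((k : ℝ) + γ - ψ r) / r) (((k : ℝ) + γ + ψ r) / r)) := by
    rintro x ⟨⟨hxq, ⟨b, hb, hbx⟩⟩, hx0, hx1⟩
    rw [abs_lt] at hbx
    obtain ⟨hb1, hb2⟩ := hbx
    refine Set.mem_iUnion₂.2 ⟨b, ?_, hxq, ?_, ?_⟩
    · rw [hS, Finset.mem_filter, Finset.mem_Ico]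
      refine ⟨⟨?_, ?_⟩, ?_⟩
      · rw [Int.ceil_le, hu]
        have : (r : ℝ) * x0 ≤ r * x := mul_le_mul_of_nonneg_left hx0 hr'.le
        linarith
      · rw [Int.lt_ceil, hv]
        have : (r : ℝ) * x < r * (x0 + ℓ) := mul_lt_mul_of_pos_left hx1 hr'
        linarith
      · exact (Gd_iff hrN b).1 hb
    · rw [div_le_iff₀ hr']
      linarith
    · rw [lt_div_iff₀ hr']
      linarith
  -- measure of each piece
  have hpiece : ∀ k ∈ S, (volume (AS γ ψ q ∩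
      Set.Ico (((k : ℝ) + γ - ψ r) / r) (((k : ℝ) + γ + ψ r) / r))).toReal ≤
        8 * ψ r * ψ q * WW γ q / r := by
    intro k _
    have h1 := AS_interval_le γ ψ q hqN hq0 hq1 (((k : ℝ) + γ - ψ r) / r)
      (((k : ℝ) + γ + ψ r) / r) (by gcongr; linarith)
    have h2 : (q : ℝ) * (((k : ℝ) + γ + ψ r) / r - ((k : ℝ) + γ - ψ r) / r) = 2 * q * ψ r / r := by
      field_simp
      ring
    rw [h2] at h1
    have h3 := H2 q hQ2q γ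
    have h4 := far_pow hrN hrq hr0
    have h5 : (q : ℝ) ^ ((3 / 8 : ℝ)) ≤ q * ψ r / r := by
      rw [le_div_iff₀ hr']
      exact h4
    have h6 : (4 * (q : ℝ) ^ ((3 / 8 : ℝ)) / 2) * WW γ q ≤ (2 * (q * ψ r / r)) * WW γ q := by
      refine mul_le_mul_of_nonneg_right ?_ hWq.le
      linarith
    have h7 : (2 * q * ψ r / r + 1) * WW γ q + 2 ^ q.primeFactors.card ≤
        (4 * (q * ψ r / r)) * WW γ q := by
      have e : 2 * (q : ℝ) * ψ r / r = 2 * (q * ψ r / r) := by ring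
      rw [e]
      linarith
    refine h1.trans ?_
    calc ((2 * q * ψ r / r + 1) * WW γ q + 2 ^ q.primeFactors.card) * (2 * ψ q / q)
        ≤ ((4 * (q * ψ r / r)) * WW γ q) * (2 * ψ q / q) :=
          mul_le_mul_of_nonneg_right h7 (by positivity)
      _ = 8 * ψ r * ψ q * WW γ q / r := by
          field_simp
          ring
  have hfin : ∀ k ∈ S, volume (AS γ ψ q ∩
      Set.Ico (((k : ℝ) + γ - ψ r) / r) (((k : ℝ) + γ + ψ r) / r)) ≠ ⊤ := by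
    intro k _
    exact ne_top_of_le_ne_top (by rw [Real.volume_Ico]; exact ENNReal.ofReal_ne_top)
      (measure_mono Set.inter_subset_right)
  have hsum : (volume (AS γ ψ q ∩ AS γ ψ r ∩ Set.Ico x0 (x0 + ℓ))).toReal ≤
      ∑ k ∈ S, (volume (AS γ ψ q ∩
        Set.Ico (((k : ℝ) + γ - ψ r) / r) (((k : ℝ) + γ + ψ r) / r))).toReal := by
    rw [← ENNReal.toReal_sum hfin]
    exact ENNReal.toReal_mono (ENNReal.sum_ne_top.2 hfin)
      ((measure_mono hcover).trans (measure_biUnion_finset_le _ _))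
  have h0 : 0 ≤ 8 * ψ r * ψ q * WW γ q / r := by positivity
  calc (volume (AS γ ψ q ∩ AS γ ψ r ∩ Set.Ico x0 (x0 + ℓ))).toReal
      ≤ ∑ k ∈ S, (volume (AS γ ψ q ∩
        Set.Ico (((k : ℝ) + γ - ψ r) / r) (((k : ℝ) + γ + ψ r) / r))).toReal := hsum
    _ ≤ ∑ _k ∈ S, 8 * ψ r * ψ q * WW γ q / r := Finset.sum_le_sum hpiece
    _ = S.card * (8 * ψ r * ψ q * WW γ q / r) := by rw [Finset.sum_const, nsmul_eq_mul]
    _ ≤ (2 * r * ℓ * WW γ r) * (8 * ψ r * ψ q * WW γ q / r) :=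
        mul_le_mul_of_nonneg_right hcount h0
    _ = 16 * ℓ * (WW γ q * ψ q) * (WW γ r * ψ r) := by
        field_simp
        ring
    _ ≤ 64 * ℓ * (WW γ q * ψ q) * (WW γ r * ψ r) := by
        have : 0 ≤ ℓ * (WW γ q * ψ q) * (WW γ r * ψ r) := by positivity
        nlinarith

end Vale.Agent.P028EV
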