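import Mathlib

/-!
Module FULL: positive proportion of every interval in every tail implies full measure of the
limsup set.

`limsup` set `Λ = ⋂_N ⋃_{q ≥ N} A q` is `1`-periodic; continuity from above gives
`vol (Λ ∩ [x0, x0+ℓ)) ≥ c ℓ` for all `[x0,x0+ℓ) ⊆ [0,1)`; if `vol (Λᶜ ∩ (0,1)) > 0`, Lebesgue's
density theorem (`Besicovitch.ae_tendsto_measure_inter_div` or
`VitaliFamily.ae_tendsto_measure_inter_div`, closed balls) gives a ball in `(0,1)` in which
`Λᶜ` has proportion `> 1 - c`, a contradiction.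
Then periodicity.
-/

namespace Vale.Agent.P028EV

open Finset MeasureTheory

theorem full_lim_eq (A : ℕ → Set ℝ) :
    {x : ℝ | {q : ℕ | x ∈ A q}.Infinite} = ⋂ N : ℕ, ⋃ q ∈ {q : ℕ | N ≤ q}, A q := by
  ext x
  simp only [Set.mem_ofPred_eq, Set.mem_iInter, Set.mem_iUnion]
  constructor
  · intro h N
    obtain ⟨q, hq, hN⟩ := h.exists_gt N
    exact ⟨q, hN.le, hq⟩
  · intro h hfin
    obtain ⟨M, hM⟩ := hfin.bddAbove
    obtain ⟨q, hq, hx⟩ := h (M + 1)
    have := hM hx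
    omega

theorem full_int (A : ℕ → Set ℝ) (hA : ∀ q, MeasurableSet (A q)) (c : ℝ)
    (x0 ℓ : ℝ) (h : ∀ N : ℕ,
      c * ℓ ≤ (volume ((⋃ q ∈ {q : ℕ | N ≤ q}, A q) ∩ Set.Ico x0 (x0 + ℓ))).toReal) :
    ENNReal.ofReal (c * ℓ) ≤
      volume ({x : ℝ | {q : ℕ | x ∈ A q}.Infinite} ∩ Set.Ico x0 (x0 + ℓ)) := by
  have e : {x : ℝ | {q : ℕ | x ∈ A q}.Infinite} ∩ Set.Ico x0 (x0 + ℓ)
      = ⋂ N : ℕ, ((⋃ q ∈ {q : ℕ | N ≤ q}, A q) ∩ Set.Ico x0 (x0 + ℓ)) := by
    rw [full_lim_eq, Set.iInter_inter]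
  have hfin : ∀ N : ℕ, volume ((⋃ q ∈ {q : ℕ | N ≤ q}, A q) ∩ Set.Ico x0 (x0 + ℓ)) ≠ ⊤ :=
    fun N => ne_top_of_le_ne_top (by rw [Real.volume_Ico]; exact ENNReal.ofReal_ne_top)
      (measure_mono Set.inter_subset_right)
  rw [e, Antitone.measure_iInter]
  · refine le_iInf fun N => ?_
    rw [← ENNReal.ofReal_toReal (hfin N)]
    exact ENNReal.ofReal_le_ofReal (h N)
  · intro N M hNM
    refine Set.inter_subset_inter_left _ ?_
    refine Set.biUnion_subset_biUnion_left ?_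
    intro q hq
    exact le_trans hNM hq
  · intro N
    refine MeasurableSet.nullMeasurableSet ?_
    refine MeasurableSet.inter (MeasurableSet.iUnion fun q => MeasurableSet.iUnion fun _ => hA q)
      measurableSet_Ico
  · exact ⟨0, hfin 0⟩

theorem full_unit (s : Set ℝ) (hs : MeasurableSet s) (c : ℝ) (hc : 0 < c)
    (h : ∀ x0 ℓ : ℝ, 0 < ℓ → ℓ ≤ 1 → 0 ≤ x0 → x0 + ℓ ≤ 1 →
      ENNReal.ofReal (c * ℓ) ≤ volume (sᶜ ∩ Set.Ico x0 (x0 + ℓ))) :
    volume (s ∩ Set.Ioo 0 1) = 0 := by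
  have hd := Besicovitch.ae_tendsto_measure_inter_div (volume : Measure ℝ) s
  rw [ae_restrict_iff' hs] at hd
  rw [measure_eq_zero_iff_ae_notMem]
  filter_upwards [hd] with x hx hmem
  obtain ⟨hxs, hx01⟩ := hmem
  have ht := hx hxs
  have hc1 : (1 : ENNReal) - ENNReal.ofReal (min c 1) < 1 := by
    refine ENNReal.sub_lt_self ENNReal.one_ne_top one_ne_zero ?_
    have : 0 < ENNReal.ofReal (min c 1) := ENNReal.ofReal_pos.2 (lt_min hc one_pos)
    exact this.ne'
  have h1 := (ht.eventually_const_lt hc1)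
  have h2 : ∀ᶠ r : ℝ in nhdsWithin 0 (Set.Ioi 0), r < min x (1 - x) := by
    have : (0 : ℝ) < min x (1 - x) := lt_min hx01.1 (by linarith [hx01.2])
    exact nhdsWithin_le_nhds (Iio_mem_nhds this)
  have h3 : ∀ᶠ r : ℝ in nhdsWithin 0 (Set.Ioi 0), 0 < r := self_mem_nhdsWithin
  obtain ⟨r, hr1, hr2, hr3⟩ := (h1.and (h2.and h3)).exists
  have hx1 : r < x := lt_of_lt_of_le hr2 (min_le_left _ _)
  have hx2 : r < 1 - x := lt_of_lt_of_le hr2 (min_le_right _ _)
  have h4 := h (x - r) (2 * r) (by linarith) (by linarith) (by linarith) (by linarith)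
  have hball : volume (Metric.closedBall x r) = ENNReal.ofReal (2 * r) := Real.volume_closedBall x r
  have h5 : volume (s ∩ Metric.closedBall x r) + volume (sᶜ ∩ Metric.closedBall x r)
      = ENNReal.ofReal (2 * r) := by
    rw [← hball, ← measure_inter_add_sdiff (Metric.closedBall x r) hs, Set.inter_comm s,
      Set.sdiff_eq, Set.inter_comm sᶜ]
  have h6 : ENNReal.ofReal (c * (2 * r)) ≤ volume (sᶜ ∩ Metric.closedBall x r) := by
    refine h4.trans (measure_mono (Set.inter_subset_inter_right _ ?_))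
    intro y hy
    rw [Real.closedBall_eq_Icc]
    exact ⟨hy.1, by linarith [hy.2]⟩
  have h2r : ENNReal.ofReal (2 * r) ≠ 0 := (ENNReal.ofReal_pos.2 (by linarith)).ne'
  have h7 : volume (s ∩ Metric.closedBall x r)
      ≤ (1 - ENNReal.ofReal (min c 1)) * ENNReal.ofReal (2 * r) := by
    have h8 : ENNReal.ofReal (min c 1) * ENNReal.ofReal (2 * r)
        ≤ volume (sᶜ ∩ Metric.closedBall x r) := by
      rw [← ENNReal.ofReal_mul (le_min hc.le zero_le_one)]
      refine le_trans (ENNReal.ofReal_le_ofReal ?_) h6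
      exact mul_le_mul_of_nonneg_right (min_le_left _ _) (by linarith)
    have hfin : ENNReal.ofReal (min c 1) * ENNReal.ofReal (2 * r) ≠ ⊤ :=
      ENNReal.mul_ne_top ENNReal.ofReal_ne_top ENNReal.ofReal_ne_top
    rw [ENNReal.sub_mul (fun _ _ => ENNReal.ofReal_ne_top), one_mul]
    refine ENNReal.le_sub_of_add_le_right hfin ?_
    calc volume (s ∩ Metric.closedBall x r) + ENNReal.ofReal (min c 1) * ENNReal.ofReal (2 * r)
        ≤ volume (s ∩ Metric.closedBall x r) + volume (sᶜ ∩ Metric.closedBall x r) := by gcongr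
      _ = ENNReal.ofReal (2 * r) := h5
  rw [hball] at hr1
  have h9 := (ENNReal.div_le_iff h2r ENNReal.ofReal_ne_top).2 h7
  exact absurd hr1 (not_lt.2 h9)

theorem full_of_local (A : ℕ → Set ℝ) (hA : ∀ q, MeasurableSet (A q))
    (hper : ∀ q x, x ∈ A q ↔ x + 1 ∈ A q) (c : ℝ) (hc : 0 < c)
    (h : ∀ x0 ℓ : ℝ, 0 < ℓ → ℓ ≤ 1 → 0 ≤ x0 → x0 + ℓ ≤ 1 → ∀ N : ℕ,
      c * ℓ ≤ (volume ((⋃ q ∈ {q : ℕ | N ≤ q}, A q) ∩ Set.Ico x0 (x0 + ℓ))).toReal) :
    volume {x : ℝ | {q : ℕ | x ∈ A q}.Infinite}ᶜ = 0 := by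
  set s : Set ℝ := {x : ℝ | {q : ℕ | x ∈ A q}.Infinite}ᶜ with hsdef
  have hs : MeasurableSet s := by
    rw [hsdef, full_lim_eq]
    exact (MeasurableSet.iInter fun N => MeasurableSet.iUnion fun q =>
      MeasurableSet.iUnion fun _ => hA q).compl
  have h0 : volume (s ∩ Set.Ioo 0 1) = 0 := by
    refine full_unit s hs c hc fun x0 ℓ h1 h2 h3 h4 => ?_
    rw [hsdef, compl_compl]
    exact full_int A hA c x0 ℓ (h x0 ℓ h1 h2 h3 h4)
  have h1 : volume (s ∩ Set.Ico 0 1) = 0 := by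
    refine measure_mono_null (t := (s ∩ Set.Ioo 0 1) ∪ {0}) ?_ ?_
    · intro x hx
      rcases eq_or_lt_of_le hx.2.1 with h2 | h2
      · right
        exact h2.symm
      · left
        exact ⟨hx.1, h2, hx.2.2⟩
    · rw [measure_union_null_iff]
      exact ⟨h0, by simp⟩
  have hps : ∀ x, x ∈ s ↔ x + 1 ∈ s := by
    intro x
    rw [hsdef, Set.mem_compl_iff, Set.mem_compl_iff, Set.mem_ofPred_eq, Set.mem_ofPred_eq]
    have : {q : ℕ | x ∈ A q} = {q : ℕ | x + 1 ∈ A q} := by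
      ext q
      exact hper q x
    rw [this]
  have hpn : ∀ n : ℤ, ∀ x, x ∈ s ↔ x + n ∈ s := by
    intro n
    induction n using Int.induction_on with
    | zero => intro x; simp
    | succ n ih =>
      intro x
      rw [ih x, hps (x + (n : ℤ))]
      push_cast
      rw [add_assoc]
    | pred n ih =>
      intro x
      rw [ih x, hps (x + ((-(n : ℤ) - 1 : ℤ) : ℝ))]
      push_cast
      have : x + (-(n : ℝ) - 1) + 1 = x + -(n : ℝ) := by ring
      rw [this]
  have hcov : s ⊆ ⋃ n : ℤ, (fun x : ℝ => x - n) ⁻¹' (s ∩ Set.Ico 0 1) := by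
    intro x hx
    rw [Set.mem_iUnion]
    refine ⟨⌊x⌋, ?_, ?_⟩
    · have := (hpn (-⌊x⌋) x).1 hx
      push_cast at this
      rw [← sub_eq_add_neg] at this
      exact this
    · exact ⟨by linarith [Int.floor_le x], by linarith [Int.lt_floor_add_one x]⟩
  refine measure_mono_null hcov ?_
  rw [measure_iUnion_null_iff]
  intro n
  have hmp : MeasurePreserving (fun x : ℝ => x - n) volume volume :=
    measurePreserving_sub_right volume (n : ℝ)
  rw [hmp.measure_preimage (hs.inter measurableSet_Ico).nullMeasurableSet]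
  exact h1

end Vale.Agent.P028EV
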