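import Vale.Agent.P028EV.Defs

/-!
Module SIEVE: exact and approximate counts for the sieve by a finite set of primes.

Both by induction on `P` (`Finset.induction_on`, statement for all `α, β` and all
intervals): for a new prime `p`, the `k` with `p ∣ α k + β` are `k = k₀ + p k'`, and they satisfy
the condition for `P` iff `k'` satisfies it with `α' = α p`, `β' = α k₀ + β`; the `k'` range over
the real interval `[(u-k₀)/p, (v-k₀)/p)` (second theorem; error `2^|P| + 2^|P|`), resp. over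
exactly `m/p` consecutive integers (first theorem).
`Finset.Ico ⌈u⌉ ⌈v⌉` is the set of integers `u ≤ k < v`.
-/

namespace Vale.Agent.P028EV

open Finset MeasureTheory

theorem sieve_exists_root {p : ℕ} (hp : p.Prime) {α : ℤ} (β : ℤ) (hα : ¬ ((p : ℤ) ∣ α)) :
    ∃ k₁ : ℤ, (p : ℤ) ∣ α * k₁ + β := by
  have hp' : Prime (p : ℤ) := Nat.prime_iff_prime_int.1 hp
  obtain ⟨a, b, hab⟩ := (hp'.irreducible.coprime_iff_not_dvd).2 hα
  refine ⟨-b * β, a * β, ?_⟩
  linear_combination (-β) * hab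

theorem sieve_dvd_iff {p : ℕ} (hp : p.Prime) {α β k₁ : ℤ} (hα : ¬ ((p : ℤ) ∣ α))
    (h1 : (p : ℤ) ∣ α * k₁ + β) (k : ℤ) : (p : ℤ) ∣ α * k + β ↔ (p : ℤ) ∣ k - k₁ := by
  have hp' : Prime (p : ℤ) := Nat.prime_iff_prime_int.1 hp
  have h2 : α * k + β = α * (k - k₁) + (α * k₁ + β) := by ring
  rw [h2, (Int.dvd_add_left h1)]
  constructor
  · intro h
    exact (hp'.dvd_or_dvd h).resolve_left hα
  · intro h
    exact Dvd.dvd.mul_left h _

theorem sieve_bij {p : ℕ} (hp : p.Prime) {α β k₁ : ℤ} (hα : ¬ ((p : ℤ) ∣ α))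
    (h1 : (p : ℤ) ∣ α * k₁ + β) (P : Finset ℕ) (u v : ℝ) :
    ((Finset.Ico ⌈u⌉ ⌈v⌉).filter
      (fun k => (∀ q ∈ P, ¬ ((q : ℤ) ∣ α * k + β)) ∧ (p : ℤ) ∣ α * k + β)).card
      = ((Finset.Ico ⌈(u - k₁) / p⌉ ⌈(v - k₁) / p⌉).filter
        (fun k => ∀ q ∈ P, ¬ ((q : ℤ) ∣ (α * p) * k + (α * k₁ + β)))).card := by
  have hp0 : (0 : ℝ) < p := by exact_mod_cast hp.pos
  have hpz : (p : ℤ) ≠ 0 := by exact_mod_cast hp.ne_zero
  symm
  refine Finset.card_bij (fun k _ => k₁ + p * k) ?_ ?_ ?_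
  · intro k hk
    rw [Finset.mem_filter, Finset.mem_Ico, Int.ceil_le, Int.lt_ceil] at hk ⊢
    obtain ⟨⟨ha, hb⟩, hc⟩ := hk
    rw [div_le_iff₀ hp0] at ha
    rw [lt_div_iff₀ hp0] at hb
    refine ⟨⟨?_, ?_⟩, ?_, ?_⟩
    · push_cast
      linarith
    · push_cast
      linarith
    · intro q hq hd
      apply hc q hq
      have h3 : α * p * k + (α * k₁ + β) = α * (k₁ + p * k) + β := by ring
      rw [h3]
      exact hd
    · rw [sieve_dvd_iff hp hα h1]
      exact ⟨k, by ring⟩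
  · intro a _ b _ hab
    have h3 : (p : ℤ) * a = p * b := by linarith
    exact mul_left_cancel₀ hpz h3
  · intro k hk
    rw [Finset.mem_filter, Finset.mem_Ico, Int.ceil_le, Int.lt_ceil] at hk
    obtain ⟨⟨ha, hb⟩, hc, hd⟩ := hk
    rw [sieve_dvd_iff hp hα h1] at hd
    obtain ⟨t, ht⟩ := hd
    have hk' : k = k₁ + p * t := by linarith
    subst hk'
    refine ⟨t, ?_, rfl⟩
    rw [Finset.mem_filter, Finset.mem_Ico, Int.ceil_le, Int.lt_ceil, div_le_iff₀ hp0,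
      lt_div_iff₀ hp0]
    push_cast at ha hb
    refine ⟨⟨by linarith, by linarith⟩, ?_⟩
    intro q hq hdq
    apply hc q hq
    have h3 : α * p * t + (α * k₁ + β) = α * (k₁ + p * t) + β := by ring
    rw [← h3]
    exact hdq

theorem sieve_split (s : Finset ℤ) (P : Finset ℕ) (p : ℕ) (α β : ℤ) :
    ((s.filter (fun k => ∀ q ∈ insert p P, ¬ ((q : ℤ) ∣ α * k + β))).card : ℝ)
      = ((s.filter (fun k => ∀ q ∈ P, ¬ ((q : ℤ) ∣ α * k + β))).card : ℝ)
        - ((s.filter (fun k => (∀ q ∈ P, ¬ ((q : ℤ) ∣ α * k + β)) ∧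
            (p : ℤ) ∣ α * k + β)).card : ℝ) := by
  classical
  have h1 : s.filter (fun k => ∀ q ∈ insert p P, ¬ ((q : ℤ) ∣ α * k + β))
      = (s.filter (fun k => ∀ q ∈ P, ¬ ((q : ℤ) ∣ α * k + β))).filter
        (fun k => ¬ ((p : ℤ) ∣ α * k + β)) := by
    ext k
    simp only [Finset.mem_filter, Finset.mem_insert, forall_eq_or_imp]
    tauto
  have h2 : s.filter (fun k => (∀ q ∈ P, ¬ ((q : ℤ) ∣ α * k + β)) ∧ (p : ℤ) ∣ α * k + β)
      = (s.filter (fun k => ∀ q ∈ P, ¬ ((q : ℤ) ∣ α * k + β))).filter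
        (fun k => (p : ℤ) ∣ α * k + β) := by
    ext k
    simp only [Finset.mem_filter]
    tauto
  have h3 := Finset.card_filter_add_card_filter_not
    (s := s.filter (fun k => ∀ q ∈ P, ¬ ((q : ℤ) ∣ α * k + β)))
    (p := fun k => (p : ℤ) ∣ α * k + β)
  rw [h1, h2]
  have h4 := congrArg (fun n : ℕ => (n : ℝ)) h3
  simp only [Nat.cast_add] at h4
  linarith

theorem sieve_not_dvd_mul {p q : ℕ} (hp : p.Prime) (hq : q.Prime) (hpq : q ≠ p) {α : ℤ}
    (hα : ¬ ((q : ℤ) ∣ α)) : ¬ ((q : ℤ) ∣ α * p) := by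
  intro h
  have hq' : Prime (q : ℤ) := Nat.prime_iff_prime_int.1 hq
  rcases hq'.dvd_or_dvd h with h | h
  · exact hα h
  · have h2 : q ∣ p := by exact_mod_cast h
    exact hpq ((Nat.prime_dvd_prime_iff_eq hq hp).1 h2)

theorem count_exact (P : Finset ℕ) (hP : ∀ p ∈ P, p.Prime) (m : ℕ) (hm : 0 < m)
    (hd : ∀ p ∈ P, p ∣ m) (α β : ℤ) (hα : ∀ p ∈ P, ¬ ((p : ℤ) ∣ α)) (k0 : ℤ) :
    (((Finset.Ico k0 (k0 + m)).filter (fun k => ∀ p ∈ P, ¬ ((p : ℤ) ∣ α * k + β))).card : ℝ)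
      = m * ∏ p ∈ P, (1 - 1 / (p : ℝ)) := by
  classical
  induction P using Finset.induction_on generalizing m α β k0 with
  | empty => simp
  | insert p P hpP ih =>
    have hp : p.Prime := hP p (Finset.mem_insert_self p P)
    have hαp := hα p (Finset.mem_insert_self p P)
    have hP' : ∀ q ∈ P, q.Prime := fun q hq => hP q (Finset.mem_insert_of_mem hq)
    have hd' : ∀ q ∈ P, q ∣ m := fun q hq => hd q (Finset.mem_insert_of_mem hq)
    have hα' : ∀ q ∈ P, ¬ ((q : ℤ) ∣ α) := fun q hq => hα q (Finset.mem_insert_of_mem hq)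
    have hne : ∀ q ∈ P, q ≠ p := fun q hq h => hpP (h ▸ hq)
    obtain ⟨k₁, hk₁⟩ := sieve_exists_root hp β hαp
    obtain ⟨m', hm'⟩ := hd p (Finset.mem_insert_self p P)
    have hm'0 : 0 < m' := by
      rcases Nat.eq_zero_or_pos m' with h | h
      · rw [h, mul_zero] at hm'
        omega
      · exact h
    have hp0 : (0 : ℝ) < p := by exact_mod_cast hp.pos
    have hdm' : ∀ q ∈ P, q ∣ m' := by
      intro q hq
      have h1 := hd' q hq
      rw [hm'] at h1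
      rcases (hP' q hq).dvd_mul.1 h1 with h | h
      · exact absurd ((Nat.prime_dvd_prime_iff_eq (hP' q hq) hp).1 h) (hne q hq)
      · exact h
    have hceil : Finset.Ico k0 (k0 + m) = Finset.Ico ⌈(k0 : ℝ)⌉ ⌈((k0 + m : ℤ) : ℝ)⌉ := by
      rw [Int.ceil_intCast, Int.ceil_intCast]
    have hbij := sieve_bij hp hαp hk₁ P (k0 : ℝ) ((k0 + m : ℤ) : ℝ)
    rw [← hceil] at hbij
    have hshift : ⌈(((k0 + m : ℤ) : ℝ) - k₁) / p⌉ = ⌈((k0 : ℝ) - k₁) / p⌉ + m' := by
      have h2 : (((k0 + m : ℤ) : ℝ) - k₁) / p = ((k0 : ℝ) - k₁) / p + (m' : ℕ) := by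
        rw [hm']
        push_cast
        field_simp
        ring
      rw [h2, Int.ceil_add_natCast]
    rw [hshift] at hbij
    have h1 := ih hP' m hm hd' α β hα' k0
    have h2 := ih hP' m' hm'0 hdm' (α * p) (α * k₁ + β)
      (fun q hq => sieve_not_dvd_mul hp (hP' q hq) (hne q hq) (hα' q hq)) ⌈((k0 : ℝ) - k₁) / p⌉
    rw [sieve_split, h1, hbij, h2, Finset.prod_insert hpP]
    have h3 : (m : ℝ) = p * m' := by
      rw [hm']
      push_cast
      ring
    rw [h3]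
    field_simp
    try ring

theorem count_interval (P : Finset ℕ) (hP : ∀ p ∈ P, p.Prime) (α β : ℤ)
    (hα : ∀ p ∈ P, ¬ ((p : ℤ) ∣ α)) (u v : ℝ) (huv : u ≤ v) :
    |(((Finset.Ico ⌈u⌉ ⌈v⌉).filter (fun k => ∀ p ∈ P, ¬ ((p : ℤ) ∣ α * k + β))).card : ℝ)
      - (v - u) * ∏ p ∈ P, (1 - 1 / (p : ℝ))| ≤ 2 ^ P.card := by
  classical
  induction P using Finset.induction_on generalizing α β u v with
  | empty =>
    simp only [Finset.notMem_empty, false_imp_iff, implies_true, Finset.filter_true,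
      Int.card_Ico, Finset.prod_empty, mul_one, Finset.card_empty, pow_zero]
    have h1 : ⌈u⌉ ≤ ⌈v⌉ := Int.ceil_mono huv
    have h2 : (((⌈v⌉ - ⌈u⌉).toNat : ℕ) : ℝ) = (⌈v⌉ : ℝ) - ⌈u⌉ := by
      have h3 : (((⌈v⌉ - ⌈u⌉).toNat : ℕ) : ℤ) = ⌈v⌉ - ⌈u⌉ := Int.toNat_of_nonneg (by omega)
      have h4 := congrArg (fun n : ℤ => (n : ℝ)) h3
      simp only [Int.cast_natCast, Int.cast_sub] at h4
      exact h4
    rw [h2, abs_le]
    have a1 := Int.le_ceil u
    have a2 := Int.ceil_lt_add_one u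
    have a3 := Int.le_ceil v
    have a4 := Int.ceil_lt_add_one v
    constructor <;> linarith
  | insert p P hpP ih =>
    have hp : p.Prime := hP p (Finset.mem_insert_self p P)
    have hαp := hα p (Finset.mem_insert_self p P)
    have hP' : ∀ q ∈ P, q.Prime := fun q hq => hP q (Finset.mem_insert_of_mem hq)
    have hα' : ∀ q ∈ P, ¬ ((q : ℤ) ∣ α) := fun q hq => hα q (Finset.mem_insert_of_mem hq)
    have hne : ∀ q ∈ P, q ≠ p := fun q hq h => hpP (h ▸ hq)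
    obtain ⟨k₁, hk₁⟩ := sieve_exists_root hp β hαp
    have hp0 : (0 : ℝ) < p := by exact_mod_cast hp.pos
    have h1 := ih hP' α β hα' u v huv
    have h2 := ih hP' (α * p) (α * k₁ + β)
      (fun q hq => sieve_not_dvd_mul hp (hP' q hq) (hne q hq) (hα' q hq))
      ((u - k₁) / p) ((v - k₁) / p) (by
        rw [div_le_div_iff_of_pos_right hp0]
        linarith)
    rw [sieve_split, sieve_bij hp hαp hk₁ P u v, Finset.prod_insert hpP,
      Finset.card_insert_of_notMem hpP, pow_succ]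
    have h3 : (v - k₁) / p - (u - k₁) / p = (v - u) / p := by ring
    rw [h3] at h2
    have h4 : (v - u) * ((1 - 1 / (p : ℝ)) * ∏ q ∈ P, (1 - 1 / (q : ℝ)))
        = (v - u) * ∏ q ∈ P, (1 - 1 / (q : ℝ)) - (v - u) / p * ∏ q ∈ P, (1 - 1 / (q : ℝ)) := by
      ring
    rw [h4]
    have a1 := abs_le.1 h1
    have a2 := abs_le.1 h2
    rw [abs_le]
    constructor
    · linarith [a1.1, a2.2]
    · linarith [a1.2, a2.1]

end Vale.Agent.P028EV
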