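import Vale.Agent.P028EV.Den
import Vale.Agent.P028EV.Weights
import Vale.Agent.P028EV.Sieve

/-!
Module GDC: the admissibility condition as a sieve condition, one-sided count.

`Gd_iff`: for `p ∣ bq` the condition is automatic because `gcd(aq, bq) = 1` (`Bd_coprime`).
`Gd_add`: adding a multiple of `q` to `a` does not change admissibility.
`ones`: the primes `p ∣ g`, `p ∤ u`, `p ∤ bq` each exclude one class of `k`
(`count_exact` with `m = g`, `α = bq * u`), and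
`WW γ (g u) = ∏_{p ∣ g u, p ∤ bq} ≥ ∏_{p ∣ g, p ∤ u, p ∤ bq} · ww u`.
-/

namespace Vale.Agent.P028EV

open Finset MeasureTheory

theorem Gd_iff {γ : ℝ} {q : ℕ} (hq : 0 < q) (a : ℤ) :
    Gd γ q a ↔ ∀ p ∈ q.primeFactors.filter (fun p => ¬ p ∣ bq γ q),
      ¬ ((p : ℤ) ∣ (bq γ q : ℤ) * a + aq γ q) := by
  constructor
  · intro h p hp
    rw [Finset.mem_filter, Nat.mem_primeFactors] at hp
    exact h p hp.1.1 hp.1.2.1
  · intro h p hpp hpq hdiv
    by_cases hb : p ∣ bq γ q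
    · have hcop : IsCoprime (aq γ q) (bq γ q : ℤ) := Bd_coprime γ (Nat.log 2 q)
      have hb' : (p : ℤ) ∣ (bq γ q : ℤ) := Int.natCast_dvd_natCast.mpr hb
      have ha' : (p : ℤ) ∣ aq γ q := (dvd_add_right (hb'.mul_right a)).mp hdiv
      have hu : IsUnit (p : ℤ) := hcop.isUnit_of_dvd' ha' hb'
      exact (Nat.prime_iff_prime_int.mp hpp).not_isUnit hu
    · refine h p ?_ hdiv
      rw [Finset.mem_filter, Nat.mem_primeFactors]
      exact ⟨⟨hpp, hpq, hq.ne'⟩, hb⟩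

theorem Gd_add (γ : ℝ) (q : ℕ) (a j : ℤ) : Gd γ q (a + j * q) ↔ Gd γ q a := by
  have key : ∀ p : ℕ, p ∣ q → (((p : ℤ) ∣ (bq γ q : ℤ) * (a + j * q) + aq γ q) ↔
      ((p : ℤ) ∣ (bq γ q : ℤ) * a + aq γ q)) := by
    intro p hpq
    have hpq' : (p : ℤ) ∣ (q : ℤ) := Int.natCast_dvd_natCast.mpr hpq
    have e : (bq γ q : ℤ) * (a + j * q) + aq γ q
        = ((bq γ q : ℤ) * j) * q + ((bq γ q : ℤ) * a + aq γ q) := by ring
    rw [e]
    exact dvd_add_right (hpq'.mul_left _)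
  constructor
  · intro h p hpp hpq hdiv
    exact h p hpp hpq ((key p hpq).mpr hdiv)
  · intro h p hpp hpq hdiv
    exact h p hpp hpq ((key p hpq).mp hdiv)

theorem gdc_fac_nonneg {p : ℕ} (hp : p.Prime) : (0 : ℝ) ≤ 1 - 1 / (p : ℝ) := by
  have h2 : (1 : ℝ) ≤ (p : ℝ) := by exact_mod_cast hp.one_le
  have h3 : 1 / (p : ℝ) ≤ 1 := by
    rw [div_le_one (by linarith)]
    exact h2
  linarith

theorem gdc_fac_le_one (p : ℕ) : 1 - 1 / (p : ℝ) ≤ 1 := by
  have h3 : 0 ≤ 1 / (p : ℝ) := by positivity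
  linarith

theorem gdc_prod (γ : ℝ) (g u : ℕ) (hu : 0 < u) :
    (∏ p ∈ g.primeFactors.filter (fun p => ¬ p ∣ u ∧ ¬ p ∣ bq γ (g * u)), (1 - 1 / (p : ℝ))) * ww u
      ≤ WW γ (g * u) := by
  unfold ww WW
  set P := g.primeFactors.filter (fun p => ¬ p ∣ u ∧ ¬ p ∣ bq γ (g * u)) with hP
  set W := (g * u).primeFactors.filter (fun p => ¬ p ∣ bq γ (g * u)) with hW
  have hdisj : Disjoint P u.primeFactors := by
    rw [Finset.disjoint_left]
    intro p hp hpu
    rw [hP, Finset.mem_filter] at hp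
    exact hp.2.1 (Nat.dvd_of_mem_primeFactors hpu)
  have hsub : W ⊆ P ∪ u.primeFactors := by
    intro p hp
    rw [hW, Finset.mem_filter, Nat.mem_primeFactors] at hp
    rw [Finset.mem_union, hP, Finset.mem_filter, Nat.mem_primeFactors, Nat.mem_primeFactors]
    obtain ⟨⟨hpp, hpd, hne⟩, hpb⟩ := hp
    by_cases hpu : p ∣ u
    · exact Or.inr ⟨hpp, hpu, hu.ne'⟩
    · refine Or.inl ⟨⟨hpp, ?_, ?_⟩, hpu, hpb⟩
      · rcases hpp.dvd_mul.mp hpd with h | h
        · exact h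
        · exact absurd h hpu
      · intro h
        exact hne (by rw [h, zero_mul])
  have hprime : ∀ p ∈ P ∪ u.primeFactors, p.Prime := by
    intro p hp
    rw [Finset.mem_union, hP, Finset.mem_filter] at hp
    rcases hp with hp | hp
    · exact Nat.prime_of_mem_primeFactors hp.1
    · exact Nat.prime_of_mem_primeFactors hp
  rw [← Finset.prod_union hdisj, ← Finset.prod_sdiff hsub]
  have h1 : ∏ p ∈ (P ∪ u.primeFactors) \ W, (1 - 1 / (p : ℝ)) ≤ 1 := by
    refine Finset.prod_le_one (fun p hp => gdc_fac_nonneg (hprime p ?_))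
      (fun p _ => gdc_fac_le_one p)
    exact (Finset.mem_sdiff.mp hp).1
  have h2 : 0 ≤ ∏ p ∈ W, (1 - 1 / (p : ℝ)) :=
    Finset.prod_nonneg fun p hp => gdc_fac_nonneg (hprime p (hsub hp))
  calc (∏ p ∈ (P ∪ u.primeFactors) \ W, (1 - 1 / (p : ℝ))) * ∏ p ∈ W, (1 - 1 / (p : ℝ))
      ≤ 1 * ∏ p ∈ W, (1 - 1 / (p : ℝ)) := mul_le_mul_of_nonneg_right h1 h2
    _ = ∏ p ∈ W, (1 - 1 / (p : ℝ)) := one_mul _

open Classical in
theorem ones (γ : ℝ) (g u : ℕ) (hg : 0 < g) (hu : 0 < u) (c : ℤ) :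
    (((Finset.range g).filter (fun k : ℕ => Gd γ (g * u) (c + k * u))).card : ℝ)
      ≤ g * (WW γ (g * u) * (ww u)⁻¹) := by
  set P := g.primeFactors.filter (fun p => ¬ p ∣ u ∧ ¬ p ∣ bq γ (g * u)) with hP
  have hPp : ∀ p ∈ P, p.Prime := by
    intro p hp
    rw [hP, Finset.mem_filter] at hp
    exact Nat.prime_of_mem_primeFactors hp.1
  have hPd : ∀ p ∈ P, p ∣ g := by
    intro p hp
    rw [hP, Finset.mem_filter] at hp
    exact Nat.dvd_of_mem_primeFactors hp.1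
  have hPa : ∀ p ∈ P, ¬ ((p : ℤ) ∣ (bq γ (g * u) : ℤ) * (u : ℤ)) := by
    intro p hp h
    have hpp := Nat.prime_iff_prime_int.mp (hPp p hp)
    rw [hP, Finset.mem_filter] at hp
    rcases hpp.dvd_mul.mp h with h1 | h1
    · exact hp.2.2 (Int.natCast_dvd_natCast.mp h1)
    · exact hp.2.1 (Int.natCast_dvd_natCast.mp h1)
  have hc := count_exact P hPp g hg hPd ((bq γ (g * u) : ℤ) * (u : ℤ))
    ((bq γ (g * u) : ℤ) * c + aq γ (g * u)) hPa 0
  have hle : ((Finset.range g).filter (fun k : ℕ => Gd γ (g * u) (c + k * u))).card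
      ≤ ((Finset.Ico (0 : ℤ) (0 + g)).filter (fun k => ∀ p ∈ P,
        ¬ ((p : ℤ) ∣ ((bq γ (g * u) : ℤ) * (u : ℤ)) * k
          + ((bq γ (g * u) : ℤ) * c + aq γ (g * u))))).card := by
    refine Finset.card_le_card_of_injOn (fun k : ℕ => (k : ℤ)) ?_ ?_
    · intro k hk
      rw [Finset.mem_coe, Finset.mem_filter, Finset.mem_range] at hk
      rw [Finset.mem_coe, Finset.mem_filter, Finset.mem_Ico]
      refine ⟨⟨Int.natCast_nonneg k, ?_⟩, ?_⟩
      · rw [zero_add]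
        exact Int.ofNat_lt.mpr hk.1
      · intro p hp hdiv
        refine hk.2 p (hPp p hp) ((hPd p hp).mul_right u) ?_
        have e : (bq γ (g * u) : ℤ) * (c + (k : ℤ) * u) + aq γ (g * u)
            = ((bq γ (g * u) : ℤ) * (u : ℤ)) * k + ((bq γ (g * u) : ℤ) * c + aq γ (g * u)) := by
          ring
        rw [e]
        exact hdiv
    · intro a _ b _ hab
      exact Int.ofNat_inj.mp hab
  have hle' : (((Finset.range g).filter (fun k : ℕ => Gd γ (g * u) (c + k * u))).card : ℝ)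
      ≤ g * ∏ p ∈ P, (1 - 1 / (p : ℝ)) := by
    rw [← hc]
    exact_mod_cast hle
  refine hle'.trans ?_
  have hprod := gdc_prod γ g u hu
  have hwu := ww_pos u
  refine mul_le_mul_of_nonneg_left ?_ (Nat.cast_nonneg g)
  rw [← div_eq_mul_inv, le_div_iff₀ hwu]
  exact hprod

end Vale.Agent.P028EV
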