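import Vale.Agent.P028EV.Pair

/-!
Module OV: the two one-sided overlap bounds and the vanishing for degenerate pairs.

`ov_le_q`, `ov_le_r`: `pair_cases` + `pair_ov` + `ones` (drop one of the two conditions).
`ov_zero` (KILL): `q = g u, r = g v`.  Every `t ∈ Ts` satisfies `(v-u) A + t B = 0` with
`A = aq γ r`, `B = bq γ r` (negation of `ND`).  If `v a - u b = t` then
`v (B a + A) = u (B b + A)`.  If `v > 1` take a prime `p ∣ v`: `p ∤ u` so `p ∣ B b + A`, `p ∣ r`,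
against `Gd γ r b`.  If `v = 1` (so `r ∣ q`, `u > 1`): if `bq q = bq r` (then `aq q = aq r`)
a prime `p ∣ u` divides `B a + A`, against `Gd γ q a`; if `bq q ≠ bq r` then (if `Ts ≠ ∅`)
`B ∣ (v-u) A`, hence `B ∣ v - u` (`Bd_coprime`) and the pair is `TR`, excluded.
So all the sets in `pair_ov` are empty.
`card_Ts_le`: `#Ts ≤ 2Δ+1`; `card_Ts_le_one`: `#Ts ≤ 1` if `Δ ≤ 1/2`.
-/

namespace Vale.Agent.P028EV

open Finset MeasureTheory

theorem card_Ts_le (γ : ℝ) (h : ℤ) (Δ : ℝ) (hΔ : 0 ≤ Δ) : ((Ts γ h Δ).card : ℝ) ≤ 2 * Δ + 1 := by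
  have hsub : Ts γ h Δ ⊆ Finset.Icc ⌈-(γ * h) - Δ⌉ ⌊-(γ * h) + Δ⌋ := by
    intro t ht
    rw [mem_Ts, abs_lt] at ht
    rw [Finset.mem_Icc, Int.ceil_le, Int.le_floor]
    constructor <;> linarith [ht.1, ht.2]
  have h1 : ((Ts γ h Δ).card : ℝ) ≤ ((Finset.Icc ⌈-(γ * h) - Δ⌉ ⌊-(γ * h) + Δ⌋).card : ℝ) := by
    exact_mod_cast Finset.card_le_card hsub
  refine h1.trans ?_
  rw [Int.card_Icc]
  rcases le_total (⌊-(γ * h) + Δ⌋ + 1 - ⌈-(γ * h) - Δ⌉) 0 with h2 | h2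
  · rw [Int.toNat_of_nonpos h2]
    push_cast
    linarith
  · have h3 : (((⌊-(γ * h) + Δ⌋ + 1 - ⌈-(γ * h) - Δ⌉).toNat : ℕ) : ℝ) =
        ((⌊-(γ * h) + Δ⌋ + 1 - ⌈-(γ * h) - Δ⌉ : ℤ) : ℝ) := by
      exact_mod_cast congrArg (fun z : ℤ => (z : ℝ)) (Int.toNat_of_nonneg h2)
    rw [h3]
    push_cast
    have h4 := Int.floor_le (-(γ * h) + Δ)
    have h5 := Int.le_ceil (-(γ * h) - Δ)
    linarith

theorem card_Ts_le_one (γ : ℝ) (h : ℤ) (Δ : ℝ) (hΔ : Δ ≤ 1 / 2) : (Ts γ h Δ).card ≤ 1 := by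
  rw [Finset.card_le_one]
  intro a ha b hb
  rw [mem_Ts, abs_lt] at ha hb
  have h1 : ((a - b : ℤ) : ℝ) < 1 := by push_cast; linarith [ha.1, ha.2, hb.1, hb.2]
  have h2 : ((b - a : ℤ) : ℝ) < 1 := by push_cast; linarith [ha.1, ha.2, hb.1, hb.2]
  have h3 : a - b < 1 := by exact_mod_cast h1
  have h4 : b - a < 1 := by exact_mod_cast h2
  omega

theorem ov_nonneg (γ : ℝ) (ψ : ℕ → ℝ) (q r : ℕ) : 0 ≤ ov γ ψ q r := ENNReal.toReal_nonneg

theorem ov_bezout {u v : ℕ} (h : Nat.Coprime u v) : ∃ x y : ℤ, (v : ℤ) * x - (u : ℤ) * y = 1 := by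
  have h1 : IsCoprime (v : ℤ) (u : ℤ) := Nat.isCoprime_iff_coprime.mpr h.symm
  obtain ⟨a, b, hab⟩ := h1
  exact ⟨a, -b, by linarith⟩

theorem ov_le_q (γ : ℝ) (ψ : ℕ → ℝ) (q r : ℕ) (hq : 0 < q) (hr : 0 < r)
    (h0 : 0 ≤ ψ q) (h0' : 0 ≤ ψ r) (h1 : ψ q ≤ 1 / 4) (h1' : ψ r ≤ 1 / 4) :
    ov γ ψ q r ≤ 4 * min (ψ q / q) (ψ r / r) * ((Ts γ (hh q r) (Del ψ q r)).card : ℝ) *
      ((Nat.gcd q r : ℝ) * (WW γ q * (ww (q1 q r))⁻¹)) := by
  classical
  obtain ⟨g, u, v, hg, hu, hv, huv, hqe, hre, hge, hue, hve⟩ := pair_cases hq hr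
  obtain ⟨x, y, hxy⟩ := ov_bezout huv
  have hT : Ts γ (hh q r) (Del ψ q r) =
      Ts γ ((v : ℤ) - (u : ℤ)) ((v : ℝ) * ψ (g * u) + (u : ℝ) * ψ (g * v)) := by
    unfold hh Del
    rw [← hue, ← hve, ← hqe, ← hre]
  rw [hT, ← hge, ← hue]
  subst hqe
  subst hre
  refine (pair_ov γ ψ g u v hg hu hv huv h0 h0' h1 h1' x y hxy).trans ?_
  rw [mul_assoc (4 * min _ _)]
  refine mul_le_mul_of_nonneg_left ?_ ?_
  · refine (Finset.sum_le_card_nsmul _ _ _ (fun t _ => ?_)).trans_eq (nsmul_eq_mul _ _)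
    refine le_trans ?_ (ones γ g u hg hu (t * x))
    have : ((Finset.range g).filter (fun k : ℕ =>
            Gd γ (g * u) (t * x + k * u) ∧ Gd γ (g * v) (t * y + k * v))).card ≤
        ((Finset.range g).filter (fun k : ℕ => Gd γ (g * u) (t * x + k * u))).card := by
      refine Finset.card_le_card ?_
      intro k hk
      rw [Finset.mem_filter] at hk ⊢
      exact ⟨hk.1, hk.2.1⟩
    exact_mod_cast this
  · refine mul_nonneg (by norm_num) (le_min ?_ ?_)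
    · exact div_nonneg h0 (Nat.cast_nonneg _)
    · exact div_nonneg h0' (Nat.cast_nonneg _)

theorem ov_le_r (γ : ℝ) (ψ : ℕ → ℝ) (q r : ℕ) (hq : 0 < q) (hr : 0 < r)
    (h0 : 0 ≤ ψ q) (h0' : 0 ≤ ψ r) (h1 : ψ q ≤ 1 / 4) (h1' : ψ r ≤ 1 / 4) :
    ov γ ψ q r ≤ 4 * min (ψ q / q) (ψ r / r) * ((Ts γ (hh q r) (Del ψ q r)).card : ℝ) *
      ((Nat.gcd q r : ℝ) * (WW γ r * (ww (r1 q r))⁻¹)) := by
  classical
  obtain ⟨g, u, v, hg, hu, hv, huv, hqe, hre, hge, hue, hve⟩ := pair_cases hq hr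
  obtain ⟨x, y, hxy⟩ := ov_bezout huv
  have hT : Ts γ (hh q r) (Del ψ q r) =
      Ts γ ((v : ℤ) - (u : ℤ)) ((v : ℝ) * ψ (g * u) + (u : ℝ) * ψ (g * v)) := by
    unfold hh Del
    rw [← hue, ← hve, ← hqe, ← hre]
  rw [hT, ← hge, ← hve]
  subst hqe
  subst hre
  refine (pair_ov γ ψ g u v hg hu hv huv h0 h0' h1 h1' x y hxy).trans ?_
  rw [mul_assoc (4 * min _ _)]
  refine mul_le_mul_of_nonneg_left ?_ ?_
  · refine (Finset.sum_le_card_nsmul _ _ _ (fun t _ => ?_)).trans_eq (nsmul_eq_mul _ _)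
    refine le_trans ?_ (ones γ g v hg hv (t * y))
    have : ((Finset.range g).filter (fun k : ℕ =>
            Gd γ (g * u) (t * x + k * u) ∧ Gd γ (g * v) (t * y + k * v))).card ≤
        ((Finset.range g).filter (fun k : ℕ => Gd γ (g * v) (t * y + k * v))).card := by
      refine Finset.card_le_card ?_
      intro k hk
      rw [Finset.mem_filter] at hk ⊢
      exact ⟨hk.1, hk.2.2⟩
    exact_mod_cast this
  · refine mul_nonneg (by norm_num) (le_min ?_ ?_)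
    · exact div_nonneg h0 (Nat.cast_nonneg _)
    · exact div_nonneg h0' (Nat.cast_nonneg _)

theorem ov_zero (γ : ℝ) (ψ : ℕ → ℝ) (q r : ℕ) (hr : 0 < r) (hrq : r < q)
    (h0 : 0 ≤ ψ q) (h0' : 0 ≤ ψ r) (h1 : ψ q ≤ 1 / 4) (h1' : ψ r ≤ 1 / 4)
    (hD : Del ψ q r < 1 / 2) (hND : ¬ ND γ ψ q r) (hTR : ¬ TR γ q r) :
    ov γ ψ q r = 0 := by
  classical
  obtain ⟨g, u, v, hg, hu, hv, huv, hqe, hre, hge, hue, hve⟩ := pair_cases (hr.trans hrq) hr
  obtain ⟨x, y, hxy⟩ := ov_bezout huv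
  have hhe : hh q r = (v : ℤ) - (u : ℤ) := by unfold hh; rw [← hue, ← hve]
  have hDe : Del ψ q r = (v : ℝ) * ψ (g * u) + (u : ℝ) * ψ (g * v) := by
    unfold Del; rw [← hue, ← hve, ← hqe, ← hre]
  have hnd : ∀ t ∈ Ts γ (hh q r) (Del ψ q r), hh q r * aq γ r + t * bq γ r = 0 := by
    intro t ht
    by_contra hne
    exact hND ⟨hD, t, ht, hne⟩
  rw [hhe, hDe] at hnd
  refine le_antisymm ?_ (ov_nonneg _ _ _ _)
  have hpo := pair_ov γ ψ g u v hg hu hv huv (by rw [← hqe]; exact h0) (by rw [← hre]; exact h0')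
      (by rw [← hqe]; exact h1) (by rw [← hre]; exact h1') x y hxy
  have e : ov γ ψ q r = ov γ ψ (g * u) (g * v) := by rw [← hqe, ← hre]
  rw [e]
  refine hpo.trans (le_of_eq ?_)
  rw [Finset.sum_eq_zero, mul_zero]
  intro t ht
  rw [Nat.cast_eq_zero, Finset.card_eq_zero, Finset.filter_eq_empty_iff]
  intro k _ ⟨ha, hb⟩
  rw [← hqe] at ha
  rw [← hre] at hb
  have e0 := hnd t ht
  set A := aq γ r with hA
  set B := bq γ r with hB
  have e1 : (v : ℤ) * ((B : ℤ) * (t * x + k * u) + A) = (u : ℤ) * ((B : ℤ) * (t * y + k * v) + A) := by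
    have : (v : ℤ) * ((B : ℤ) * (t * x + k * u) + A) - (u : ℤ) * ((B : ℤ) * (t * y + k * v) + A) =
        (B : ℤ) * t * ((v : ℤ) * x - (u : ℤ) * y) + ((v : ℤ) - u) * A := by ring
    rw [hxy] at this
    linarith
  by_cases hv1 : v = 1
  · -- `v = 1`
    by_cases hbb : bq γ q = bq γ r
    · have hu1 : u ≠ 1 := by
        rintro rfl
        rw [hqe, hre, hv1] at hrq
        exact lt_irrefl _ hrq
      obtain ⟨p, hp, hpu⟩ := Nat.exists_prime_and_dvd hu1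
      refine ha p hp ?_ ?_
      · rw [hqe]; exact Dvd.dvd.mul_left hpu g
      · rw [hbb, aq_eq_of_bq_eq hbb]
        rw [hv1, Nat.cast_one, one_mul] at e1
        rw [e1]
        exact Dvd.dvd.mul_right (Int.natCast_dvd_natCast.mpr hpu) _
    · refine hTR ⟨?_, hrq, fun h => hbb h.symm, ?_⟩
      · rw [hqe, hre, hv1, mul_one]; exact Dvd.intro _ rfl
      · rw [hhe]
        have hc : IsCoprime (B : ℤ) A := (Bd_coprime γ (Nat.log 2 r)).symm
        refine hc.dvd_of_dvd_mul_right (z := A) ?_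
        exact ⟨-t, by linarith⟩
  · obtain ⟨p, hp, hpv⟩ := Nat.exists_prime_and_dvd hv1
    refine hb p hp ?_ ?_
    · rw [hre]; exact Dvd.dvd.mul_left hpv g
    · have hpI : Prime (p : ℤ) := Nat.prime_iff_prime_int.mp hp
      have hd : (p : ℤ) ∣ (u : ℤ) * ((B : ℤ) * (t * y + k * v) + A) := by
        rw [← e1]
        exact Dvd.dvd.mul_right (Int.natCast_dvd_natCast.mpr hpv) _
      rcases hpI.dvd_or_dvd hd with h | h
      · exfalso
        have hpu : p ∣ u := Int.natCast_dvd_natCast.mp h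
        have := Nat.dvd_gcd hpu hpv
        rw [huv.gcd_eq_one] at this
        exact hp.one_lt.ne' (Nat.dvd_one.mp this)
      · exact h

end Vale.Agent.P028EV
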