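import Vale.Agent.P028EV.Two
import Vale.Agent.P028EV.Ov

/-!
Module GOOD: good pairs are quasi-independent.

`T' = q' ψ r ≥ 1/4`, `m = mm ψ q r`, `2^m ≤ 4 T' < 2^{m+1}`, `z = m/2`,
`P = primorial z ≤ 4^z ≤ 2^m ≤ 4 T'` (`primorial_le_four_pow`).  `Del ≤ 2 T'` (as in S3).
In `pair_ov` keep only the primes `≤ z` (`P1 = {p ∣ q, p ≤ z, p ∤ bq q}`, `P2` similarly).
`Ts` consists of consecutive integers, at most `2 Del + 1`, so it is covered by at most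
`(2 Del + 1)/P + 1 ≤ 4T'/P + 2 ≤ 12 T'/P` blocks `Ico τ (τ+P)`; `two_sided` on each block:
`∑_t ≤ 12 T' g ∏_{P1} ∏_{P2}`.  So `ov ≤ 4 (ψ q/q) 12 T' g ∏ ∏ = 48 ψ q ψ r ∏_{P1} ∏_{P2}`
(`T' g/q = ψ r`), and `∏_{P1}(1-1/p) ≤ exp(2 ss z q) WW q ≤ e² WW q` because `ss z q ≤ 1`
(`(1-1/p)⁻¹ ≤ exp(2/p)`).
-/

namespace Vale.Agent.P028EV

open Finset MeasureTheory

theorem GOOD_exp_le {x : ℝ} (h0 : 0 ≤ x) (h1 : x ≤ 1 / 2) : Real.exp (-(2 * x)) ≤ 1 - x := by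
  rw [Real.exp_neg]
  have h2 : 1 + 2 * x ≤ Real.exp (2 * x) := by
    have := Real.add_one_le_exp (2 * x)
    linarith
  have h3 : (Real.exp (2 * x))⁻¹ ≤ (1 + 2 * x)⁻¹ := inv_anti₀ (by linarith) h2
  refine h3.trans ?_
  rw [inv_le_iff_one_le_mul₀ (by linarith)]
  nlinarith

theorem GOOD_prime_factor {q p : ℕ} (h : p ∈ q.primeFactors) :
    0 ≤ 1 / (p : ℝ) ∧ 1 / (p : ℝ) ≤ 1 / 2 := by
  have hp : 2 ≤ p := (Nat.prime_of_mem_primeFactors h).two_le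
  have hp' : (2 : ℝ) ≤ p := by exact_mod_cast hp
  exact ⟨by positivity, one_div_le_one_div_of_le (by norm_num) hp'⟩

theorem GOOD_prod (γ : ℝ) (q z : ℕ) (h : ss z q ≤ 1) :
    ∏ p ∈ q.primeFactors with (¬ p ∣ bq γ q ∧ p ≤ z), (1 - 1 / (p : ℝ)) ≤
      Real.exp 2 * WW γ q := by
  unfold WW
  rw [← Finset.prod_filter_mul_prod_filter_not ({p ∈ q.primeFactors | ¬ p ∣ bq γ q})
    (fun p => p ≤ z), Finset.filter_filter, Finset.filter_filter]
  set A := ∏ p ∈ q.primeFactors with (¬ p ∣ bq γ q ∧ p ≤ z), (1 - 1 / (p : ℝ)) with hA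
  have hA0 : 0 ≤ A := Finset.prod_nonneg fun p hp => by
    have := GOOD_prime_factor (Finset.mem_filter.1 hp).1
    linarith [this.2]
  have h1 : Real.exp (-2) ≤
      ∏ p ∈ q.primeFactors with (¬ p ∣ bq γ q ∧ ¬ p ≤ z), (1 - 1 / (p : ℝ)) := by
    calc Real.exp (-2) ≤ Real.exp (∑ p ∈ q.primeFactors with (¬ p ∣ bq γ q ∧ ¬ p ≤ z),
          (-(2 * (1 / (p : ℝ))))) := by
          apply Real.exp_le_exp.2
          rw [Finset.sum_neg_distrib, ← Finset.mul_sum]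
          have h2 : ∑ p ∈ q.primeFactors with (¬ p ∣ bq γ q ∧ ¬ p ≤ z), 1 / (p : ℝ) ≤ ss z q := by
            unfold ss
            refine Finset.sum_le_sum_of_subset_of_nonneg ?_ (fun _ _ _ => by positivity)
            intro p hp
            rw [Finset.mem_filter] at hp ⊢
            exact ⟨hp.1, by omega⟩
          linarith
      _ = ∏ p ∈ q.primeFactors with (¬ p ∣ bq γ q ∧ ¬ p ≤ z), Real.exp (-(2 * (1 / (p : ℝ)))) :=
          Real.exp_sum _ _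
      _ ≤ _ := Finset.prod_le_prod (fun _ _ => (Real.exp_pos _).le) fun p hp => by
          have := GOOD_prime_factor (Finset.mem_filter.1 hp).1
          exact GOOD_exp_le this.1 this.2
  have h3 : Real.exp 2 * Real.exp (-2) = 1 := by
    rw [← Real.exp_add]; simp
  calc A = Real.exp 2 * (A * Real.exp (-2)) := by rw [mul_left_comm, h3, mul_one]
    _ ≤ _ := by
      refine mul_le_mul_of_nonneg_left ?_ (Real.exp_pos _).le
      exact mul_le_mul_of_nonneg_left h1 hA0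

theorem GOOD_cover (F : ℤ → ℝ) (P : ℕ) (M : ℝ)
    (hblock : ∀ τ : ℤ, ∑ t ∈ Finset.Ico τ (τ + P), F t = M) (N : ℕ) (a : ℤ) :
    ∑ t ∈ Finset.Ico a (a + N * P), F t = N * M := by
  induction N with
  | zero => simp
  | succ n ih =>
    have h0 : (0 : ℤ) ≤ (n : ℤ) * P := by positivity
    have h1 : Finset.Ico a (a + ((n + 1 : ℕ) : ℤ) * P) =
        Finset.Ico a (a + n * P) ∪ Finset.Ico (a + n * P) (a + n * P + P) := by
      rw [Finset.Ico_union_Ico_eq_Ico (by omega) (by omega)]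
      congr 1
      push_cast
      ring
    rw [h1, Finset.sum_union (Finset.Ico_disjoint_Ico_consecutive _ _ _), ih, hblock]
    push_cast
    ring

theorem GOOD_Ts_sub (γ : ℝ) (h : ℤ) (Δ : ℝ) (P N : ℕ) (hN : 2 * Δ + 1 ≤ N * P) :
    Ts γ h Δ ⊆ Finset.Ico ⌊-(γ * h) - Δ⌋ (⌊-(γ * h) - Δ⌋ + N * P) := by
  intro t ht
  rw [mem_Ts, abs_lt] at ht
  rw [Finset.mem_Ico]
  constructor
  · exact Int.floor_le_iff.2 (by linarith)
  · have h1 := Int.sub_one_lt_floor (-(γ * h) - Δ)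
    have h2 : (t : ℝ) < ((⌊-(γ * h) - Δ⌋ + N * P : ℤ) : ℝ) := by
      push_cast
      linarith
    exact_mod_cast h2

theorem GOOD_le_prod {P1 : Finset ℕ} (h : ∀ p ∈ P1, 2 ≤ p) :
    0 ≤ ∏ p ∈ P1, (1 - 1 / (p : ℝ)) := Finset.prod_nonneg fun p hp => by
  have hp' : (2 : ℝ) ≤ p := by exact_mod_cast h p hp
  have : 1 / (p : ℝ) ≤ 1 / 2 := one_div_le_one_div_of_le (by norm_num) hp'
  linarith

theorem good_ov : ∃ K : ℝ, 0 < K ∧ ∀ (γ : ℝ) (ψ : ℕ → ℝ) (q r : ℕ), 0 < r → r < q →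
    0 ≤ ψ q → ψ q ≤ 1 / (4 * q) → 0 ≤ ψ r → ψ r ≤ 1 / (4 * r) →
    1 / 4 ≤ (q1 q r : ℝ) * ψ r → ¬ BAD ψ q r →
    ov γ ψ q r ≤ K * (WW γ q * ψ q) * (WW γ r * ψ r) := by
  classical
  refine ⟨48 * (Real.exp 2 * Real.exp 2), by positivity, ?_⟩
  intro γ ψ q r hr hrq h0 h1 h0' h1' hT hbad
  have hq : 0 < q := by omega
  have hqr : (0 : ℝ) < q := by exact_mod_cast hq
  have hrr : (0 : ℝ) < r := by exact_mod_cast hr
  have hss : ss (mm ψ q r / 2) q ≤ 1 ∧ ss (mm ψ q r / 2) r ≤ 1 := by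
    unfold BAD at hbad
    push Not at hbad
    exact hbad hT
  obtain ⟨g, u, v, hg, hu, hv, huv, hqg, hrg, -, hu1, hv1⟩ := pair_cases hq hr
  set z := mm ψ q r / 2 with hz
  rw [← hu1] at hT
  set T := (u : ℝ) * ψ r with hTdef
  have hgr : (0 : ℝ) < g := by exact_mod_cast hg
  have hur : (0 : ℝ) < u := by exact_mod_cast hu
  have hvr : (0 : ℝ) < v := by exact_mod_cast hv
  have hvu : v < u := by
    rw [hqg, hrg] at hrq
    exact lt_of_mul_lt_mul_left hrq (Nat.zero_le g)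
  have hvu' : (v : ℝ) ≤ u := by exact_mod_cast hvu.le
  have hg1 : (1 : ℝ) ≤ g := by exact_mod_cast hg
  -- the modulus
  have hm1 : (2 : ℝ) ^ (mm ψ q r) ≤ 4 * T := by
    have hfl : ⌊4 * T⌋₊ ≠ 0 := by
      have : 1 ≤ ⌊4 * T⌋₊ := Nat.le_floor (by push_cast; linarith)
      omega
    have h2 : 2 ^ (mm ψ q r) ≤ ⌊4 * T⌋₊ := by
      unfold mm
      rw [← hu1]
      exact Nat.pow_log_le_self 2 hfl
    have h3 : ((2 ^ (mm ψ q r) : ℕ) : ℝ) ≤ ⌊4 * T⌋₊ := by exact_mod_cast h2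
    have h4 : ((⌊4 * T⌋₊ : ℕ) : ℝ) ≤ 4 * T := Nat.floor_le (by linarith)
    push_cast at h3
    linarith
  have hPle : ((primorial z : ℕ) : ℝ) ≤ 4 * T := by
    have h2 : primorial z ≤ 2 ^ (mm ψ q r) := by
      refine (primorial_le_four_pow z).trans ?_
      rw [show (4 : ℕ) = 2 ^ 2 by norm_num, ← pow_mul]
      exact Nat.pow_le_pow_right (by norm_num) (by omega)
    have h3 : ((primorial z : ℕ) : ℝ) ≤ ((2 ^ (mm ψ q r) : ℕ) : ℝ) := by exact_mod_cast h2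
    push_cast at h3
    linarith
  set P := primorial z with hP
  have hPpos : 0 < P := primorial_pos z
  have hPr : (0 : ℝ) < P := by exact_mod_cast hPpos
  -- the width
  set Δ := (v : ℝ) * ψ q + (u : ℝ) * ψ r with hΔ
  have hvq : (v : ℝ) * ψ q ≤ 1 / 4 := by
    calc (v : ℝ) * ψ q ≤ v * (1 / (4 * q)) := mul_le_mul_of_nonneg_left h1 hvr.le
      _ ≤ 1 / 4 := by
        rw [hqg]
        push_cast
        rw [mul_one_div, div_le_div_iff₀ (by positivity) (by norm_num)]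
        nlinarith
  have hΔ2 : Δ ≤ 2 * T := by linarith
  have hΔ0 : 0 ≤ Δ := by positivity
  set N := ⌈(2 * Δ + 1) / P⌉₊ with hN
  have hN1 : 2 * Δ + 1 ≤ N * P := by
    have := Nat.le_ceil ((2 * Δ + 1) / P)
    rwa [div_le_iff₀ hPr] at this
  have hN2 : (N : ℝ) * P ≤ 12 * T := by
    have h2 : (N : ℝ) < (2 * Δ + 1) / P + 1 := Nat.ceil_lt_add_one (by positivity)
    have h3 : (N : ℝ) * P ≤ ((2 * Δ + 1) / P + 1) * P := mul_le_mul_of_nonneg_right h2.le hPr.le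
    have h4 : ((2 * Δ + 1) / P + 1) * P = 2 * Δ + 1 + P := by field_simp
    linarith
  -- Bezout
  obtain ⟨x, y, hxy⟩ : ∃ x y : ℤ, (v : ℤ) * x - (u : ℤ) * y = 1 := by
    have : IsCoprime (v : ℤ) (u : ℤ) := (Nat.isCoprime_iff_coprime.2 huv).symm
    obtain ⟨a, b, hab⟩ := this
    exact ⟨a, -b, by linarith⟩
  -- the sieve primes
  set P1 := {p ∈ q.primeFactors | ¬ p ∣ bq γ q ∧ p ≤ z} with hP1
  set P2 := {p ∈ r.primeFactors | ¬ p ∣ bq γ r ∧ p ≤ z} with hP2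
  have hdvdP : ∀ p, p.Prime → p ≤ z → p ∣ P := fun p hp hpz =>
    (hp.dvd_primorial_iff).2 hpz
  have hP1' : ∀ p ∈ P1, p.Prime ∧ p ∣ P ∧ p ∣ g * u := by
    intro p hp
    rw [hP1, Finset.mem_filter] at hp
    have hpp := Nat.prime_of_mem_primeFactors hp.1
    exact ⟨hpp, hdvdP p hpp hp.2.2, hqg ▸ Nat.dvd_of_mem_primeFactors hp.1⟩
  have hP2' : ∀ p ∈ P2, p.Prime ∧ p ∣ P ∧ p ∣ g * v := by
    intro p hp
    rw [hP2, Finset.mem_filter] at hp
    have hpp := Nat.prime_of_mem_primeFactors hp.1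
    exact ⟨hpp, hdvdP p hpp hp.2.2, hrg ▸ Nat.dvd_of_mem_primeFactors hp.1⟩
  set F : ℤ → ℝ := fun t => (((Finset.range g).filter (fun k : ℕ =>
        (∀ p ∈ P1, ¬ ((p : ℤ) ∣ (bq γ q : ℤ) * (t * x + k * u) + aq γ q)) ∧
        (∀ p ∈ P2, ¬ ((p : ℤ) ∣ (bq γ r : ℤ) * (t * y + k * v) + aq γ r)))).card : ℝ) with hF
  set M : ℝ := g * P * (∏ p ∈ P1, (1 - 1 / (p : ℝ))) * ∏ p ∈ P2, (1 - 1 / (p : ℝ)) with hM
  have hblock : ∀ τ : ℤ, ∑ t ∈ Finset.Ico τ (τ + P), F t = M := by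
    intro τ
    refine two_sided g u v P hg hPpos x y hxy P1 P2 hP1' hP2' _ _ _ _ ?_ ?_ τ
    · intro p hp hd
      rw [hP1, Finset.mem_filter] at hp
      exact hp.2.1 (by exact_mod_cast hd)
    · intro p hp hd
      rw [hP2, Finset.mem_filter] at hp
      exact hp.2.1 (by exact_mod_cast hd)
  have hcov := GOOD_cover F P M hblock N ⌊-(γ * ((v : ℤ) - (u : ℤ) : ℤ)) - Δ⌋
  have hsub := GOOD_Ts_sub γ ((v : ℤ) - (u : ℤ)) Δ P N hN1
  have hq4 : ψ q ≤ 1 / 4 := h1.trans (by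
    have : (1 : ℝ) ≤ q := by exact_mod_cast hq
    exact one_div_le_one_div_of_le (by norm_num) (by linarith))
  have hr4 : ψ r ≤ 1 / 4 := h1'.trans (by
    have : (1 : ℝ) ≤ r := by exact_mod_cast hr
    exact one_div_le_one_div_of_le (by norm_num) (by linarith))
  have hpair := pair_ov γ ψ g u v hg hu hv huv (by rwa [← hqg]) (by rwa [← hrg])
    (by rwa [← hqg]) (by rwa [← hrg]) x y hxy
  rw [← hqg, ← hrg] at hpair
  have hsum : ∑ t ∈ Ts γ ((v : ℤ) - (u : ℤ)) Δ, (((Finset.range g).filter (fun k : ℕ =>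
            Gd γ q (t * x + k * u) ∧ Gd γ r (t * y + k * v))).card : ℝ) ≤ N * M := by
    rw [← hcov]
    refine (Finset.sum_le_sum (g := F) fun t _ => ?_).trans
      (Finset.sum_le_sum_of_subset_of_nonneg hsub fun t _ _ => Nat.cast_nonneg _)
    have : (Finset.range g).filter (fun k : ℕ =>
            Gd γ q (t * x + k * u) ∧ Gd γ r (t * y + k * v)) ⊆
        (Finset.range g).filter (fun k : ℕ =>
        (∀ p ∈ P1, ¬ ((p : ℤ) ∣ (bq γ q : ℤ) * (t * x + k * u) + aq γ q)) ∧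
        (∀ p ∈ P2, ¬ ((p : ℤ) ∣ (bq γ r : ℤ) * (t * y + k * v) + aq γ r))) := by
      intro k hk
      rw [Finset.mem_filter] at hk ⊢
      refine ⟨hk.1, fun p hp => hk.2.1 p (hP1' p hp).1 ?_, fun p hp => hk.2.2 p (hP2' p hp).1 ?_⟩
      · rw [hqg]; exact (hP1' p hp).2.2
      · rw [hrg]; exact (hP2' p hp).2.2
    exact Nat.cast_le.2 (Finset.card_le_card this)
  set A := ∏ p ∈ P1, (1 - 1 / (p : ℝ)) with hA
  set B := ∏ p ∈ P2, (1 - 1 / (p : ℝ)) with hB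
  have hA0 : 0 ≤ A := GOOD_le_prod fun p hp => (hP1' p hp).1.two_le
  have hB0 : 0 ≤ B := GOOD_le_prod fun p hp => (hP2' p hp).1.two_le
  have hA1 : A ≤ Real.exp 2 * WW γ q := GOOD_prod γ q z hss.1
  have hB1 : B ≤ Real.exp 2 * WW γ r := GOOD_prod γ r z hss.2
  have hNM : N * M ≤ 12 * T * (g * (A * B)) := by
    rw [hM]
    have : (N : ℝ) * (g * P * A * B) = (N * P) * (g * (A * B)) := by ring
    rw [this]
    exact mul_le_mul_of_nonneg_right hN2 (by positivity)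
  calc ov γ ψ q r ≤ 4 * min (ψ q / (q : ℝ)) (ψ r / (r : ℝ)) * (12 * T * (g * (A * B))) := by
        refine hpair.trans ?_
        refine mul_le_mul_of_nonneg_left (hsum.trans hNM) ?_
        have : 0 ≤ min (ψ q / (q : ℝ)) (ψ r / (r : ℝ)) := le_min (by positivity) (by positivity)
        positivity
    _ ≤ 4 * (ψ q / (q : ℝ)) * (12 * T * (g * (A * B))) := by
        refine mul_le_mul_of_nonneg_right ?_ (by positivity)
        have := min_le_left (ψ q / (q : ℝ)) (ψ r / (r : ℝ))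
        linarith
    _ = 48 * ψ q * ψ r * (A * B) := by
        rw [hTdef, hqg]
        push_cast
        field_simp
        ring
    _ ≤ 48 * ψ q * ψ r * ((Real.exp 2 * WW γ q) * (Real.exp 2 * WW γ r)) := by
        refine mul_le_mul_of_nonneg_left ?_ (by positivity)
        exact mul_le_mul hA1 hB1 hB0 (hA0.trans hA1)
    _ = 48 * (Real.exp 2 * Real.exp 2) * (WW γ q * ψ q) * (WW γ r * ψ r) := by ring

end Vale.Agent.P028EV
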