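import Vale.Agent.P028EV.Gdc

/-!
Module INT: measure of the approximation set in an interval.

Upper bound: `x ∈ [x1, x2)` and `|q x - a - γ| < ψ` give
`a ∈ [q x1 - ψ - γ, q x2 + ψ - γ)`, an interval of length `≤ q (x2 - x1) + 1`; the number of
admissible `a` is at most `(length) WW + 2^ω` (`Gd_iff`, `count_interval`, `WW` is the product);
each `a` contributes an interval of length `2 ψ / q`.
Lower bound: the admissible `a ∈ [q x1 + ψ - γ, q x2 - ψ - γ)` (if `q (x2-x1) ≥ 2ψ`, otherwise the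
left side is `≤ 0`) give pairwise disjoint intervals `((a+γ-ψ)/q, (a+γ+ψ)/q) ⊆ [x1, x2)`
(disjoint because `ψ < 1/2`).
-/

namespace Vale.Agent.P028EV

open Finset MeasureTheory

open Classical in
/-- admissible numerators in `[u, v)` -/
private noncomputable def intS (γ : ℝ) (q : ℕ) (u v : ℝ) : Finset ℤ :=
  (Finset.Ico ⌈u⌉ ⌈v⌉).filter (fun a => Gd γ q a)

private theorem int_mem {γ : ℝ} {q : ℕ} {u v : ℝ} {a : ℤ} :
    a ∈ intS γ q u v ↔ (u ≤ a ∧ (a : ℝ) < v) ∧ Gd γ q a := by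
  classical
  unfold intS
  rw [Finset.mem_filter, Finset.mem_Ico, Int.ceil_le, Int.lt_ceil]

private theorem int_count (γ : ℝ) (q : ℕ) (hq : 0 < q) (u v : ℝ) (huv : u ≤ v) :
    |((intS γ q u v).card : ℝ) - (v - u) * WW γ q| ≤ 2 ^ q.primeFactors.card := by
  classical
  set P := q.primeFactors.filter (fun p => ¬ p ∣ bq γ q) with hP
  have hPp : ∀ p ∈ P, p.Prime := by
    intro p hp
    rw [hP, Finset.mem_filter] at hp
    exact Nat.prime_of_mem_primeFactors hp.1
  have hPa : ∀ p ∈ P, ¬ ((p : ℤ) ∣ (bq γ q : ℤ)) := by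
    intro p hp h
    rw [hP, Finset.mem_filter] at hp
    exact hp.2 (Int.natCast_dvd_natCast.mp h)
  have h := count_interval P hPp (bq γ q : ℤ) (aq γ q) hPa u v huv
  have hS : intS γ q u v = (Finset.Ico ⌈u⌉ ⌈v⌉).filter
      (fun k => ∀ p ∈ P, ¬ ((p : ℤ) ∣ (bq γ q : ℤ) * k + aq γ q)) := by
    ext a
    unfold intS
    rw [Finset.mem_filter, Finset.mem_filter, Gd_iff hq]
  have hW : WW γ q = ∏ p ∈ P, (1 - 1 / (p : ℝ)) := rfl
  rw [hS, hW]
  refine h.trans ?_
  have hcard : P.card ≤ q.primeFactors.card := Finset.card_filter_le _ _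
  exact pow_le_pow_right₀ (by norm_num) hcard

/-- the interval attached to the numerator `a` -/
private def intI (γ ψ : ℝ) (q : ℕ) (a : ℤ) : Set ℝ :=
  Set.Ioo ((a + γ - ψ) / q) ((a + γ + ψ) / q)

private theorem int_memI {γ ψ : ℝ} {q : ℕ} (hq : 0 < q) {a : ℤ} {x : ℝ} :
    x ∈ intI γ ψ q a ↔ |(q : ℝ) * x - a - γ| < ψ := by
  have hq' : (0 : ℝ) < q := by exact_mod_cast hq
  unfold intI
  rw [Set.mem_Ioo, div_lt_iff₀ hq', lt_div_iff₀ hq', abs_lt]
  constructor
  · rintro ⟨h1, h2⟩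
    constructor <;> linarith
  · rintro ⟨h1, h2⟩
    constructor <;> linarith

private theorem int_volI (γ ψ : ℝ) (q : ℕ) (a : ℤ) :
    volume (intI γ ψ q a) = ENNReal.ofReal (2 * ψ / q) := by
  unfold intI
  rw [Real.volume_Ioo]
  congr 1
  ring

theorem AS_interval_le (γ : ℝ) (ψ : ℕ → ℝ) (q : ℕ) (hq : 0 < q) (h0 : 0 ≤ ψ q)
    (h1 : ψ q < 1 / 2) (x1 x2 : ℝ) (hx : x1 ≤ x2) :
    (volume (AS γ ψ q ∩ Set.Ico x1 x2)).toReal
      ≤ ((q * (x2 - x1) + 1) * WW γ q + 2 ^ q.primeFactors.card) * (2 * ψ q / q) := by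
  have hq' : (0 : ℝ) < q := by exact_mod_cast hq
  set u : ℝ := q * x1 - ψ q - γ with hu
  set v : ℝ := q * x2 + ψ q - γ with hv
  have hqx : (q : ℝ) * x1 ≤ q * x2 := mul_le_mul_of_nonneg_left hx hq'.le
  have huv : u ≤ v := by rw [hu, hv]; linarith
  have hsub : AS γ ψ q ∩ Set.Ico x1 x2 ⊆ ⋃ a ∈ intS γ q u v, intI γ (ψ q) q a := by
    rintro x ⟨⟨a, ha, hax⟩, hxI⟩
    have hax' := hax
    rw [abs_lt] at hax
    have hx1 : (q : ℝ) * x1 ≤ q * x := mul_le_mul_of_nonneg_left hxI.1 hq'.le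
    have hx2 : (q : ℝ) * x < q * x2 := mul_lt_mul_of_pos_left hxI.2 hq'
    refine Set.mem_biUnion (x := a) ?_ ((int_memI hq).mpr hax')
    rw [SetLike.mem_coe, int_mem]
    refine ⟨⟨?_, ?_⟩, ha⟩
    · rw [hu]; linarith [hax.2]
    · rw [hv]; linarith [hax.1]
  have hψq : 0 ≤ 2 * ψ q / q := by positivity
  have hvol : volume (AS γ ψ q ∩ Set.Ico x1 x2)
      ≤ ENNReal.ofReal ((intS γ q u v).card * (2 * ψ q / q)) := by
    refine (measure_mono hsub).trans ((measure_biUnion_finset_le _ _).trans (le_of_eq ?_))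
    rw [Finset.sum_congr rfl (fun a _ => int_volI γ (ψ q) q a), Finset.sum_const, nsmul_eq_mul,
      ENNReal.ofReal_mul (Nat.cast_nonneg _), ENNReal.ofReal_natCast]
  have hreal : (volume (AS γ ψ q ∩ Set.Ico x1 x2)).toReal
      ≤ (intS γ q u v).card * (2 * ψ q / q) := by
    have h2 := ENNReal.toReal_mono ENNReal.ofReal_ne_top hvol
    rwa [ENNReal.toReal_ofReal (by positivity)] at h2
  refine hreal.trans (mul_le_mul_of_nonneg_right ?_ hψq)
  have hc := (abs_le.mp (int_count γ q hq u v huv)).2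
  have hW := (WW_pos γ q).le
  have hlen : v - u ≤ q * (x2 - x1) + 1 := by
    rw [hu, hv, mul_sub]
    linarith
  have h3 := mul_le_mul_of_nonneg_right hlen hW
  linarith

theorem AS_interval_ge (γ : ℝ) (ψ : ℕ → ℝ) (q : ℕ) (hq : 0 < q) (h0 : 0 ≤ ψ q)
    (h1 : ψ q < 1 / 2) (x1 x2 : ℝ) (hx : x1 ≤ x2) :
    ((q * (x2 - x1) - 1) * WW γ q - 2 ^ q.primeFactors.card) * (2 * ψ q / q)
      ≤ (volume (AS γ ψ q ∩ Set.Ico x1 x2)).toReal := by
  have hq' : (0 : ℝ) < q := by exact_mod_cast hq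
  set u : ℝ := q * x1 + ψ q - γ with hu
  set v : ℝ := q * x2 - ψ q - γ with hv
  have hψq : 0 ≤ 2 * ψ q / q := by positivity
  have hW := (WW_pos γ q).le
  have hpow : (0 : ℝ) ≤ 2 ^ q.primeFactors.card := by positivity
  rcases le_or_gt u v with huv | huv
  · have hsub : (⋃ a ∈ intS γ q u v, intI γ (ψ q) q a) ⊆ AS γ ψ q ∩ Set.Ico x1 x2 := by
      intro x hxU
      rw [Set.mem_iUnion₂] at hxU
      obtain ⟨a, ha, hxa⟩ := hxU
      rw [int_mem] at ha
      rw [int_memI hq] at hxa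
      refine ⟨⟨a, ha.2, hxa⟩, ?_⟩
      rw [abs_lt] at hxa
      have hua := ha.1.1
      have hva := ha.1.2
      rw [hu] at hua
      rw [hv] at hva
      constructor
      · have h2 : (q : ℝ) * x1 < q * x := by linarith [hxa.1]
        exact (lt_of_mul_lt_mul_left h2 hq'.le).le
      · have h2 : (q : ℝ) * x < q * x2 := by linarith [hxa.2]
        exact lt_of_mul_lt_mul_left h2 hq'.le
    have hdisj : (↑(intS γ q u v) : Set ℤ).PairwiseDisjoint (fun a => intI γ (ψ q) q a) := by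
      intro a _ b _ hab
      rw [Function.onFun, Set.disjoint_left]
      intro x hxa hxb
      rw [int_memI hq, abs_lt] at hxa hxb
      have h2 : (a : ℝ) - b < 1 := by linarith [hxa.1, hxb.2]
      have h3 : (b : ℝ) - a < 1 := by linarith [hxa.2, hxb.1]
      have h2' : a - b < 1 := by exact_mod_cast h2
      have h3' : b - a < 1 := by exact_mod_cast h3
      exact hab (by omega)
    have hmeas : ∀ a ∈ intS γ q u v, MeasurableSet (intI γ (ψ q) q a) :=
      fun a _ => measurableSet_Ioo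
    have hvolU : volume (⋃ a ∈ intS γ q u v, intI γ (ψ q) q a)
        = ENNReal.ofReal ((intS γ q u v).card * (2 * ψ q / q)) := by
      rw [measure_biUnion_finset hdisj hmeas,
        Finset.sum_congr rfl (fun a _ => int_volI γ (ψ q) q a), Finset.sum_const, nsmul_eq_mul,
        ENNReal.ofReal_mul (Nat.cast_nonneg _), ENNReal.ofReal_natCast]
    have hfin : volume (AS γ ψ q ∩ Set.Ico x1 x2) ≠ ⊤ := by
      refine ne_top_of_le_ne_top ?_ (measure_mono Set.inter_subset_right)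
      rw [Real.volume_Ico]
      exact ENNReal.ofReal_ne_top
    have hreal : ((intS γ q u v).card : ℝ) * (2 * ψ q / q)
        ≤ (volume (AS γ ψ q ∩ Set.Ico x1 x2)).toReal := by
      have h2 := ENNReal.toReal_mono hfin (measure_mono hsub)
      rwa [hvolU, ENNReal.toReal_ofReal (by positivity)] at h2
    refine le_trans (mul_le_mul_of_nonneg_right ?_ hψq) hreal
    have hc := (abs_le.mp (int_count γ q hq u v huv)).1
    have hlen : q * (x2 - x1) - 1 ≤ v - u := by
      rw [hu, hv, mul_sub]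
      linarith
    have h3 := mul_le_mul_of_nonneg_right hlen hW
    linarith
  · refine le_trans ?_ ENNReal.toReal_nonneg
    refine mul_nonpos_of_nonpos_of_nonneg ?_ hψq
    have hlen : q * (x2 - x1) - 1 ≤ 0 := by
      rw [hu, hv] at huv
      rw [mul_sub]
      linarith
    have h3 := mul_nonpos_of_nonpos_of_nonneg hlen hW
    linarith

end Vale.Agent.P028EV
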