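import Vale.Agent.P028EV.MainBlock
import Vale.Agent.P028EV.CE
import Vale.Agent.P028EV.Block

/-!
Module LOCAL: positive proportion in every interval.

Given `ℓ`, choose `c0`, `ε`, `Q0` small/large in terms of `ℓ` such that
`(c0^{1/8} + Q0^{-1/32}) 2 + c0 + 2 c0 + 4 ε ≤ ℓ`.
`ψ1 q = min (ψ q) (c0/q)` if this is `≥ q^{-9/8}`, otherwise `0` (and `ψ1 0 = 0`).
`∑ WW q ψ1 q = ∞` (`min (ψ) (c0/q) ≥ min(1, c0/C) ψ`, and `∑ q^{-9/8} < ∞`).  `block` with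
`μ q = WW q ψ1 q ≤ 1/(4q)`, giving `lam, S`; `ψ2 q = lam q ψ1 q`; restrict `S` to `ψ1 q ≠ 0`:
there `q^{-5/4} ≤ ψ2 q ≤ c0/q`.  `M = ∑ WW ψ2 ∈ [1,2]`.
`diag_bounds` lower: `∑ vol(AS ψ2 q ∩ J) ≥ ℓ M`; `main_block`:
`∑∑ vol ≤ K (2ℓ + 4ℓ + ℓ) = 7 K ℓ`; `chung_erdos` (measure `volume.restrict J`):
`vol (∪ AS ψ2 q ∩ J) ≥ ℓ² / (7 K ℓ) = ℓ/(7K)`; `AS γ ψ2 q ⊆ AS γ ψ q` for `ψ2 ≤ ψ`.
(`AS` is open, hence measurable.)
-/

namespace Vale.Agent.P028EV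

open Finset MeasureTheory

theorem AS_isOpen (γ : ℝ) (ψ : ℕ → ℝ) (q : ℕ) : IsOpen (AS γ ψ q) := by
  have h : AS γ ψ q = ⋃ a : ℤ, ⋃ _ : Gd γ q a, {x : ℝ | |(q : ℝ) * x - a - γ| < ψ q} := by
    ext x
    simp [AS]
  rw [h]
  refine isOpen_iUnion fun a => isOpen_iUnion fun _ => ?_
  exact isOpen_lt (by fun_prop) continuous_const

theorem local_AS_mono {γ : ℝ} {ψ ψ' : ℕ → ℝ} {q : ℕ} (h : ψ' q ≤ ψ q) : AS γ ψ' q ⊆ AS γ ψ q := by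
  rintro x ⟨a, ha, hx⟩
  exact ⟨a, ha, hx.trans_le h⟩

/-- truncated approximation function -/
noncomputable def localPsi (ψ : ℕ → ℝ) (c0 : ℝ) (q : ℕ) : ℝ :=
  if (q : ℝ) ^ (-(9 / 8) : ℝ) ≤ min (ψ q) (c0 / q) then min (ψ q) (c0 / q) else 0

theorem localPsi_nonneg {ψ : ℕ → ℝ} {c0 : ℝ} (hψ : ∀ q, 0 ≤ ψ q) (hc0 : 0 < c0) (q : ℕ) :
    0 ≤ localPsi ψ c0 q := by
  unfold localPsi
  split_ifs
  · exact le_min (hψ q) (by positivity)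
  · exact le_rfl

theorem localPsi_le_min {ψ : ℕ → ℝ} {c0 : ℝ} (hψ : ∀ q, 0 ≤ ψ q) (hc0 : 0 < c0) (q : ℕ) :
    localPsi ψ c0 q ≤ min (ψ q) (c0 / q) := by
  unfold localPsi
  split_ifs
  · exact le_rfl
  · exact le_min (hψ q) (by positivity)

theorem localPsi_ge {ψ : ℕ → ℝ} {c0 : ℝ} {q : ℕ} (h : localPsi ψ c0 q ≠ 0) :
    (q : ℝ) ^ (-(9 / 8) : ℝ) ≤ localPsi ψ c0 q := by
  unfold localPsi at h ⊢
  split_ifs at h ⊢ with h1
  · exact h1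
  · exact absurd rfl h

theorem localPsi_min_le {ψ : ℕ → ℝ} {c0 : ℝ} (q : ℕ) :
    min (ψ q) (c0 / q) ≤ localPsi ψ c0 q + (q : ℝ) ^ (-(9 / 8) : ℝ) := by
  unfold localPsi
  split_ifs with h1
  · have : 0 ≤ (q : ℝ) ^ (-(9 / 8) : ℝ) := Real.rpow_nonneg (Nat.cast_nonneg q) _
    linarith
  · push Not at h1
    linarith

theorem localPsi_div {γ : ℝ} {ψ : ℕ → ℝ} {c0 C : ℝ} (hψ : ∀ q, 0 ≤ ψ q) (hc0 : 0 < c0)
    (hC : ∀ q : ℕ, 1 ≤ q → ψ q ≤ C / q) (hdiv : ¬ Summable (fun q => WW γ q * ψ q)) :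
    ¬ Summable (fun q => WW γ q * localPsi ψ c0 q) := by
  intro hs
  apply hdiv
  have h1 : Summable (fun q : ℕ => (q : ℝ) ^ (-(9 / 8) : ℝ)) :=
    Real.summable_nat_rpow.2 (by norm_num)
  have h2 : Summable (fun q : ℕ => WW γ q * min (ψ q) (c0 / q)) := by
    refine Summable.of_nonneg_of_le (fun q => ?_) (fun q => ?_) (hs.add h1)
    · exact mul_nonneg (WW_pos γ q).le (le_min (hψ q) (by positivity))
    · have h3 := mul_le_mul_of_nonneg_left (localPsi_min_le (ψ := ψ) (c0 := c0) q) (WW_pos γ q).le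
      have h4 : WW γ q * (q : ℝ) ^ (-(9 / 8) : ℝ) ≤ (q : ℝ) ^ (-(9 / 8) : ℝ) :=
        mul_le_of_le_one_left (Real.rpow_nonneg (Nat.cast_nonneg q) _) (WW_le_one γ q)
      rw [mul_add] at h3
      linarith
  have h3 : Summable (fun q : ℕ => max 1 (C / c0) * (WW γ (q + 1) * min (ψ (q + 1)) (c0 / ((q + 1 : ℕ) : ℝ)))) :=
    ((summable_nat_add_iff (f := fun q : ℕ => WW γ q * min (ψ q) (c0 / q)) 1).2 h2).mul_left _
  refine (summable_nat_add_iff (f := fun q : ℕ => WW γ q * ψ q) 1).1 ?_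
  refine Summable.of_nonneg_of_le (fun q => ?_) (fun q => ?_) h3
  · exact mul_nonneg (WW_pos γ _).le (hψ _)
  · have hq : (0 : ℝ) < ((q + 1 : ℕ) : ℝ) := by positivity
    have h5 : ψ (q + 1) ≤ max 1 (C / c0) * min (ψ (q + 1)) (c0 / ((q + 1 : ℕ) : ℝ)) := by
      rcases le_total (ψ (q + 1)) (c0 / ((q + 1 : ℕ) : ℝ)) with h | h
      · rw [min_eq_left h]
        exact le_mul_of_one_le_left (hψ _) (le_max_left _ _)
      · rw [min_eq_right h]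
        refine (hC (q + 1) (by omega)).trans ?_
        have h6 : C / ((q + 1 : ℕ) : ℝ) = C / c0 * (c0 / ((q + 1 : ℕ) : ℝ)) := by
          field_simp
        rw [h6]
        exact mul_le_mul_of_nonneg_right (le_max_right _ _) (by positivity)
    have h6 := mul_le_mul_of_nonneg_left h5 (WW_pos γ (q + 1)).le
    calc WW γ (q + 1) * ψ (q + 1)
        ≤ WW γ (q + 1) * (max 1 (C / c0) * min (ψ (q + 1)) (c0 / ((q + 1 : ℕ) : ℝ))) := h6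
      _ = _ := by ring

theorem local_pos : ∃ c : ℝ, 0 < c ∧ ∀ (γ : ℝ) (ψ : ℕ → ℝ) (C : ℝ), (∀ q, 0 ≤ ψ q) →
    (∀ q : ℕ, 1 ≤ q → ψ q ≤ C / q) → ¬ Summable (fun q => WW γ q * ψ q) →
    ∀ x0 ℓ : ℝ, 0 < ℓ → ℓ ≤ 1 → 0 ≤ x0 → x0 + ℓ ≤ 1 → ∀ N : ℕ,
      c * ℓ ≤ (volume ((⋃ q ∈ {q : ℕ | N ≤ q}, AS γ ψ q) ∩ Set.Ico x0 (x0 + ℓ))).toReal := by
  obtain ⟨K, hK, hmain⟩ := main_block
  refine ⟨1 / (8 * K), by positivity, ?_⟩
  intro γ ψ C hψ hC hdiv x0 ℓ hℓ hℓ1 hx0 hx1 N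
  obtain ⟨Qm, hQm, hmain⟩ := hmain ℓ hℓ hℓ1
  obtain ⟨Qd, hQd, hdiag⟩ := diag_bounds ℓ hℓ
  -- parameters
  set c0 : ℝ := (ℓ / 8) ^ 8 with hc0def
  have hℓ8 : 0 < ℓ / 8 := by positivity
  have hℓ81 : ℓ / 8 ≤ 1 / 8 := by linarith
  have hc0 : 0 < c0 := by positivity
  have hc0a : c0 ≤ ℓ / 8 := by
    rw [hc0def]
    exact pow_le_of_le_one hℓ8.le (by linarith) (by norm_num)
  have hc0b : c0 ≤ 1 / 4 := by linarith
  have hc0c : c0 ^ (1 / 8 : ℝ) = ℓ / 8 := by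
    rw [hc0def, ← Real.rpow_natCast, ← Real.rpow_mul hℓ8.le]
    norm_num
  set Q0 : ℝ := max (Qm : ℝ) ((8 / ℓ) ^ 32) with hQ0def
  have h8ℓ : 1 ≤ 8 / ℓ := by
    rw [le_div_iff₀ hℓ]
    linarith
  have hQ01 : 1 ≤ Q0 := le_max_of_le_right (one_le_pow₀ h8ℓ)
  have hQ0m : (Qm : ℝ) ≤ Q0 := le_max_left _ _
  have hQ0c : Q0 ^ (-(1 / 32) : ℝ) ≤ ℓ / 8 := by
    have h1 : Q0 ^ (-(1 / 32) : ℝ) ≤ ((8 / ℓ) ^ 32) ^ (-(1 / 32) : ℝ) :=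
      Real.rpow_le_rpow_of_nonpos (by positivity) (le_max_right _ _) (by norm_num)
    refine h1.trans (le_of_eq ?_)
    rw [← Real.rpow_natCast, ← Real.rpow_mul (by positivity)]
    have : (((32 : ℕ) : ℝ) * (-(1 / 32) : ℝ)) = -1 := by norm_num
    rw [this, Real.rpow_neg_one, inv_div]
  -- the block
  set ψ1 : ℕ → ℝ := localPsi ψ c0 with hψ1
  have hψ10 : ∀ q, 0 ≤ ψ1 q := localPsi_nonneg hψ hc0
  have hψ1m : ∀ q, ψ1 q ≤ min (ψ q) (c0 / q) := localPsi_le_min hψ hc0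
  have hμ0 : ∀ q, 0 ≤ WW γ q * ψ1 q := fun q => mul_nonneg (WW_pos γ q).le (hψ10 q)
  have hμ1 : ∀ q : ℕ, 1 ≤ q → WW γ q * ψ1 q ≤ 1 / (4 * q) := by
    intro q hq
    have hq0 : (0 : ℝ) < q := by exact_mod_cast hq
    have h1 : WW γ q * ψ1 q ≤ ψ1 q := mul_le_of_le_one_left (hψ10 q) (WW_le_one γ q)
    have h2 : ψ1 q ≤ c0 / q := (hψ1m q).trans (min_le_right _ _)
    have h3 : c0 / q ≤ 1 / (4 * q) := by
      rw [div_le_div_iff₀ hq0 (by positivity)]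
      nlinarith
    linarith
  obtain ⟨lam, S, hlam, hS, hM1, hM2, hnear⟩ := block (fun q => WW γ q * ψ1 q) hμ0 hμ1
    (localPsi_div hψ hc0 hC hdiv) (ℓ / 8) hℓ8 (by linarith) (max N (max Qd ⌈Q0⌉₊))
  set ψ2 : ℕ → ℝ := fun q => lam q * ψ1 q with hψ2
  have hψ20 : ∀ q, 0 ≤ ψ2 q := fun q => mul_nonneg (hlam q).1 (hψ10 q)
  have hψ21 : ∀ q, ψ2 q ≤ ψ1 q := fun q => mul_le_of_le_one_left (hψ10 q) (hlam q).2
  classical
  set S' : Finset ℕ := S.filter (fun q => ψ1 q ≠ 0) with hS'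
  have hS'S : S' ⊆ S := Finset.filter_subset _ _
  have hcond : ∀ q ∈ S', Q0 ≤ (q : ℝ) ∧ (q : ℝ) ^ (-(5 / 4) : ℝ) ≤ ψ2 q ∧ ψ2 q ≤ c0 / q := by
    intro q hq
    rw [hS', Finset.mem_filter] at hq
    obtain ⟨h1, h2, h3⟩ := hS q hq.1
    have hq0 : (0 : ℝ) < q := by exact_mod_cast h2
    refine ⟨?_, ?_, ?_⟩
    · have h4 : ⌈Q0⌉₊ ≤ q := le_trans (le_trans (le_max_right _ _) (le_max_right _ _)) h1
      exact (Nat.le_ceil _).trans (by exact_mod_cast h4)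
    · have h4 := localPsi_ge (ψ := ψ) (c0 := c0) (q := q) hq.2
      have h5 : (q : ℝ) ^ (-(5 / 4) : ℝ) = (q : ℝ) ^ (-(1 / 8) : ℝ) * (q : ℝ) ^ (-(9 / 8) : ℝ) := by
        rw [← Real.rpow_add hq0]
        norm_num
      rw [h5]
      exact mul_le_mul h3 h4 (Real.rpow_nonneg hq0.le _) (hlam q).1
    · exact (hψ21 q).trans ((hψ1m q).trans (min_le_right _ _))
  have hterm : ∀ q, WW γ q * ψ2 q = lam q * (WW γ q * ψ1 q) := fun q => by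
    simp only [hψ2]; ring
  have hMeq : ∑ q ∈ S', WW γ q * ψ2 q = ∑ q ∈ S, lam q * (WW γ q * ψ1 q) := by
    simp only [hterm]
    apply Finset.sum_subset hS'S
    intro q hq hq'
    have : ψ1 q = 0 := by
      by_contra h
      exact hq' (Finset.mem_filter.2 ⟨hq, h⟩)
    rw [this, mul_zero, mul_zero]
  set M : ℝ := ∑ q ∈ S', WW γ q * ψ2 q with hMdef
  have hMa : 1 ≤ M := by rw [hMeq]; exact hM1
  have hMb : M ≤ 2 := by rw [hMeq]; exact hM2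
  have hnear' : ∑ q ∈ S', ∑ r ∈ S' with r < q ∧ q < r ^ 4, (WW γ q * ψ2 q) * (WW γ r * ψ2 r) ≤ 4 * (ℓ / 8) := by
    refine le_trans ?_ hnear
    simp only [hterm]
    have hn : ∀ q, 0 ≤ lam q * (WW γ q * ψ1 q) := fun q => mul_nonneg (hlam q).1 (hμ0 q)
    refine (Finset.sum_le_sum fun q _ => ?_).trans
      (Finset.sum_le_sum_of_subset_of_nonneg hS'S fun q _ _ => Finset.sum_nonneg fun r _ => mul_nonneg (hn q) (hn r))
    exact Finset.sum_le_sum_of_subset_of_nonneg (Finset.filter_subset_filter _ hS'S)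
      fun r _ _ => mul_nonneg (hn q) (hn r)
  have hb := hmain γ ψ2 S' c0 Q0 x0 hc0 hc0b hQ01 hQ0m hx0 hx1 hcond
  rw [← hMdef, hc0c] at hb
  -- upper bound of the second moment
  have hupper : ∑ q ∈ S', ∑ r ∈ S', (volume (AS γ ψ2 q ∩ AS γ ψ2 r ∩ Set.Ico x0 (x0 + ℓ))).toReal
      ≤ 8 * K * ℓ := by
    refine hb.trans ?_
    have hM0 : 0 ≤ M := by linarith
    have e1 : ℓ * M ≤ 2 * ℓ := by nlinarith
    have e2 : ℓ * M ^ 2 ≤ 4 * ℓ := by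
      have : M ^ 2 ≤ 4 := by nlinarith
      nlinarith
    have e3 : (ℓ / 8 + Q0 ^ (-(1 / 32) : ℝ)) * M ≤ ℓ / 2 := by
      have h1 : ℓ / 8 + Q0 ^ (-(1 / 32) : ℝ) ≤ ℓ / 4 := by linarith
      have h2 := mul_le_mul_of_nonneg_right h1 hM0
      nlinarith
    have e4 : c0 * M ≤ ℓ / 4 := by
      have h2 := mul_le_mul_of_nonneg_right hc0a hM0
      nlinarith
    have e5 : ℓ * M + ℓ * M ^ 2 + (ℓ / 8 + Q0 ^ (-(1 / 32) : ℝ)) * M + c0 + c0 * M +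
        ∑ q ∈ S', ∑ r ∈ S' with r < q ∧ q < r ^ 4, (WW γ q * ψ2 q) * (WW γ r * ψ2 r) ≤ 8 * ℓ := by
      linarith
    have := mul_le_mul_of_nonneg_left e5 hK.le
    linarith
  -- lower bound of the first moment
  have hlower : ℓ ≤ ∑ q ∈ S', (volume (AS γ ψ2 q ∩ Set.Ico x0 (x0 + ℓ))).toReal := by
    have h1 : ℓ * M ≤ ∑ q ∈ S', (volume (AS γ ψ2 q ∩ Set.Ico x0 (x0 + ℓ))).toReal := by
      rw [hMdef, Finset.mul_sum]
      apply Finset.sum_le_sum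
      intro q hq
      have hqS := hS q (hS'S hq)
      have hq0 : (1 : ℝ) ≤ q := by exact_mod_cast hqS.2.1
      have h2 : ψ2 q < 1 / 2 := by
        have h3 := (hcond q hq).2.2
        have h4 : c0 / q ≤ c0 := div_le_self hc0.le hq0
        linarith
      have h5 := (hdiag q (le_trans (le_trans (le_max_left _ _) (le_max_right _ _)) hqS.1) γ ψ2 x0
        (hψ20 q) h2).1
      linarith
    nlinarith
  -- Chung-Erdos
  have hce := chung_erdos (volume.restrict (Set.Ico x0 (x0 + ℓ))) S' (fun q => AS γ ψ2 q)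
    (fun q _ => (AS_isOpen γ ψ2 q).measurableSet)
  have hmeas : ∀ q, (volume.restrict (Set.Ico x0 (x0 + ℓ))) (AS γ ψ2 q) =
      volume (AS γ ψ2 q ∩ Set.Ico x0 (x0 + ℓ)) := fun q =>
    Measure.restrict_apply (AS_isOpen γ ψ2 q).measurableSet
  have hmeas2 : ∀ q r, (volume.restrict (Set.Ico x0 (x0 + ℓ))) (AS γ ψ2 q ∩ AS γ ψ2 r) =
      volume (AS γ ψ2 q ∩ AS γ ψ2 r ∩ Set.Ico x0 (x0 + ℓ)) := fun q r =>
    Measure.restrict_apply ((AS_isOpen γ ψ2 q).inter (AS_isOpen γ ψ2 r)).measurableSet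
  have hmeasU : (volume.restrict (Set.Ico x0 (x0 + ℓ))) (⋃ q ∈ S', AS γ ψ2 q) =
      volume ((⋃ q ∈ S', AS γ ψ2 q) ∩ Set.Ico x0 (x0 + ℓ)) :=
    Measure.restrict_apply (Finset.measurableSet_biUnion S' fun q _ => (AS_isOpen γ ψ2 q).measurableSet)
  simp only [hmeas, hmeas2, hmeasU] at hce
  have hsub : (⋃ q ∈ S', AS γ ψ2 q) ∩ Set.Ico x0 (x0 + ℓ) ⊆
      (⋃ q ∈ {q : ℕ | N ≤ q}, AS γ ψ q) ∩ Set.Ico x0 (x0 + ℓ) := by
    apply Set.inter_subset_inter_left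
    intro x hx
    rw [Set.mem_iUnion₂] at hx ⊢
    obtain ⟨q, hq, hxq⟩ := hx
    refine ⟨q, le_trans (le_max_left _ _) (hS q (hS'S hq)).1, ?_⟩
    exact local_AS_mono ((hψ21 q).trans ((hψ1m q).trans (min_le_left _ _))) hxq
  have hfin : volume ((⋃ q ∈ {q : ℕ | N ≤ q}, AS γ ψ q) ∩ Set.Ico x0 (x0 + ℓ)) ≠ ⊤ :=
    ne_top_of_le_ne_top (by rw [Real.volume_Ico]; exact ENNReal.ofReal_ne_top)
      (measure_mono Set.inter_subset_right)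
  have hvol := ENNReal.toReal_mono hfin (measure_mono hsub)
  set V : ℝ := (volume ((⋃ q ∈ S', AS γ ψ2 q) ∩ Set.Ico x0 (x0 + ℓ))).toReal with hV
  have hV0 : 0 ≤ V := ENNReal.toReal_nonneg
  have h1 : ℓ ^ 2 ≤ V * (8 * K * ℓ) := by
    calc ℓ ^ 2 ≤ (∑ q ∈ S', (volume (AS γ ψ2 q ∩ Set.Ico x0 (x0 + ℓ))).toReal) ^ 2 :=
          pow_le_pow_left₀ hℓ.le hlower 2
      _ ≤ _ := hce
      _ ≤ V * (8 * K * ℓ) := mul_le_mul_of_nonneg_left hupper hV0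
  have h2 : ℓ ≤ V * (8 * K) := by
    have h3 : ℓ * ℓ ≤ V * (8 * K) * ℓ := by
      calc ℓ * ℓ = ℓ ^ 2 := by ring
        _ ≤ V * (8 * K * ℓ) := h1
        _ = V * (8 * K) * ℓ := by ring
    exact le_of_mul_le_mul_right h3 hℓ
  refine le_trans ?_ hvol
  rw [div_mul_eq_mul_div, one_mul, div_le_iff₀ (by positivity)]
  exact h2

end Vale.Agent.P028EV
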