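import Vale.Agent.P028EV.Den

/-!
Module TRANS: the transitional pairs.

`TR γ q r`: `q = r q'`, `q' ≥ 2`, `q1 q r = q'`, `r1 q r = 1`, `hh = 1 - q'`, so
`B := bq γ r = Bd γ (log₂ r) =: v` divides `q' - 1`, say `q' = 1 + v j`, `j ≥ 1`; and
`Bd γ (log₂ r) ≠ Bd γ (log₂ (r q'))` with `log₂ r ≤ log₂ (r q') ≤ log₂ r + m`,
`m = log₂ q' + 1`.  By monotonicity `Bd γ (log₂ r + m) > v`.
For fixed `(v, j)` the set of `L` with `Bd γ L = v < Bd γ (L + m)` has at most `m` elements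
(if `L₂` is the largest `L` with `Bd γ L = v` then `L₂ - m < L ≤ L₂`), and
`∑_{log₂ r = L} 1/r ≤ 1`.  So the sum is at most
`∑_{v ≥ 1} ∑_{j ≥ 1} (log₂ q' + 1)/q'^2 ≤ C ∑_{v,j} (v j)^{-3/2} < ∞`.
(The sum over `v` converges because different runs of `Bd γ` have different values `v`.)
-/

namespace Vale.Agent.P028EV

open Finset MeasureTheory

/-- the harmonic sum over one dyadic block is at most `1` -/
theorem trans_block (L : ℕ) :
    ∑ r ∈ Finset.Ico ((2 : ℕ) ^ L) (2 ^ (L + 1)), 1 / (r : ℝ) ≤ 1 := by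
  have h1 : ∀ r ∈ Finset.Ico ((2 : ℕ) ^ L) (2 ^ (L + 1)), 1 / (r : ℝ) ≤ 1 / (2 : ℝ) ^ L := by
    intro r hr
    rw [Finset.mem_Ico] at hr
    apply one_div_le_one_div_of_le (by positivity)
    exact_mod_cast hr.1
  refine (Finset.sum_le_card_nsmul _ _ _ h1).trans ?_
  rw [Nat.card_Ico, nsmul_eq_mul]
  have h2 : 2 ^ (L + 1) - 2 ^ L = 2 ^ L := by rw [pow_succ]; omega
  rw [h2]
  push_cast
  rw [mul_one_div, div_self (by positivity)]

theorem trans_blocks (L m : ℕ) :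
    ∑ r ∈ Finset.Ico ((2 : ℕ) ^ L) (2 ^ (L + m)), 1 / (r : ℝ) ≤ m := by
  induction m with
  | zero => simp
  | succ m ih =>
    rw [← Finset.sum_Ico_consecutive _ (Nat.pow_le_pow_right (by norm_num) (Nat.le_add_right L m))
      (Nat.pow_le_pow_right (by norm_num) (by omega : L + m ≤ L + (m + 1)))]
    have := trans_block (L + m)
    push_cast
    have h2 : L + (m + 1) = L + m + 1 := by ring
    rw [h2]
    linarith

open Classical in
/-- the sum over `r` for fixed `v` and `m` -/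
theorem trans_fix (γ : ℝ) (F : Finset ℕ) (v m : ℕ) (hF : ∀ r ∈ F, 0 < r)
    (h1 : ∀ r ∈ F, Bd γ (Nat.log 2 r) = v) (h2 : ∀ r ∈ F, v < Bd γ (Nat.log 2 r + m)) :
    ∑ r ∈ F, 1 / (r : ℝ) ≤ m := by
  rcases F.eq_empty_or_nonempty with rfl | hne
  · simp
  obtain ⟨r0, hr0, hmin⟩ := F.exists_min_image (fun r => Nat.log 2 r) hne
  refine le_trans (Finset.sum_le_sum_of_subset_of_nonneg ?_ fun _ _ _ => by positivity)
    (trans_blocks (Nat.log 2 r0) m)
  intro r hr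
  have ha := hmin r hr
  have hb : Nat.log 2 r < Nat.log 2 r0 + m := by
    by_contra hcon
    have := Bd_mono γ (not_lt.mp hcon)
    have h3 := h2 r0 hr0
    rw [h1 r hr] at this
    omega
  rw [Finset.mem_Ico]
  constructor
  · exact (Nat.pow_le_pow_right (by norm_num) ha).trans
      (Nat.pow_log_le_self 2 (Nat.pos_iff_ne_zero.mp (hF r hr)))
  · exact (Nat.lt_pow_succ_log_self (by norm_num) r).trans_le
      (Nat.pow_le_pow_right (by norm_num) hb)

theorem trans_num (t : ℕ) : (t + 1) ^ 2 ≤ 4 * 2 ^ t := by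
  induction t with
  | zero => norm_num
  | succ t ih =>
    rcases t with _ | _ | t
    · norm_num
    · norm_num
    · have e1 : (2 : ℕ) ^ (t + 1 + 1 + 1) = 2 ^ (t + 1 + 1) * 2 := pow_succ _ _
      have e2 : (t + 1 + 1 + 1 + 1) ^ 2 ≤ 2 * (t + 1 + 1 + 1) ^ 2 := by
        have e3 : 2 * (t + 1 + 1 + 1) ^ 2 = (t + 1 + 1 + 1 + 1) ^ 2 + (t * t + 4 * t + 2) := by
          ring
        rw [e3]
        exact Nat.le_add_right _ _
      rw [e1]
      omega

theorem trans_log {k : ℕ} (hk : 0 < k) : ((Nat.log 2 k : ℝ) + 1) ≤ 2 * Real.sqrt k := by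
  have h1 := trans_num (Nat.log 2 k)
  have h2 : 2 ^ (Nat.log 2 k) ≤ k := Nat.pow_log_le_self 2 (Nat.pos_iff_ne_zero.mp hk)
  have h3 : ((Nat.log 2 k : ℝ) + 1) ^ 2 ≤ 4 * k := by
    have : (Nat.log 2 k + 1) ^ 2 ≤ 4 * k := h1.trans (Nat.mul_le_mul_left 4 h2)
    exact_mod_cast this
  have h4 : 2 * Real.sqrt k = Real.sqrt (4 * k) := by
    rw [Real.sqrt_mul (by norm_num)]
    congr 1
    rw [show (4 : ℝ) = 2 ^ 2 by norm_num, Real.sqrt_sq (by norm_num)]
  rw [h4]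
  exact Real.le_sqrt_of_sq_le h3

/-- `c n = n^(-3/2)` -/
noncomputable def transC (n : ℕ) : ℝ := 1 / (n : ℝ) ^ (3 / 2 : ℝ)

theorem transC_nonneg (n : ℕ) : 0 ≤ transC n := by unfold transC; positivity

theorem transC_summable : Summable transC := by
  unfold transC
  exact Real.summable_one_div_nat_rpow.mpr (by norm_num)

theorem trans_term {v j : ℕ} (hv : 0 < v) (hj : 0 < j) :
    ((Nat.log 2 (1 + v * j) : ℝ) + 1) * (1 / ((1 + v * j : ℕ) : ℝ) ^ 2) ≤
      2 * (transC v * transC j) := by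
  set k := 1 + v * j with hk
  have hk0 : 0 < k := by omega
  have hkr : (0 : ℝ) < k := by exact_mod_cast hk0
  have h1 := trans_log hk0
  have hvj : (0 : ℝ) < (v : ℝ) * j := by positivity
  have h2 : (v : ℝ) * j ≤ k := by rw [hk]; push_cast; linarith
  have h3 : transC v * transC j = 1 / ((v : ℝ) * j) ^ (3 / 2 : ℝ) := by
    unfold transC
    rw [Real.mul_rpow (by positivity) (by positivity)]
    field_simp
  have h4 : 1 / (k : ℝ) ^ (3 / 2 : ℝ) ≤ 1 / ((v : ℝ) * j) ^ (3 / 2 : ℝ) := by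
    apply one_div_le_one_div_of_le (by positivity)
    exact Real.rpow_le_rpow hvj.le h2 (by norm_num)
  have h5 : Real.sqrt k * (1 / (k : ℝ) ^ 2) = 1 / (k : ℝ) ^ (3 / 2 : ℝ) := by
    have e1 : (k : ℝ) ^ 2 = (k : ℝ) ^ (3 / 2 : ℝ) * Real.sqrt k := by
      rw [Real.sqrt_eq_rpow, ← Real.rpow_add hkr, ← Real.rpow_natCast]
      norm_num
    have hs : 0 < Real.sqrt k := Real.sqrt_pos.mpr hkr
    have hp : 0 < (k : ℝ) ^ (3 / 2 : ℝ) := by positivity
    rw [e1]
    field_simp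
  rw [h3]
  calc ((Nat.log 2 k : ℝ) + 1) * (1 / (k : ℝ) ^ 2)
      ≤ 2 * Real.sqrt k * (1 / (k : ℝ) ^ 2) := by
        apply mul_le_mul_of_nonneg_right h1; positivity
    _ = 2 * (Real.sqrt k * (1 / (k : ℝ) ^ 2)) := by ring
    _ = 2 * (1 / (k : ℝ) ^ (3 / 2 : ℝ)) := by rw [h5]
    _ ≤ _ := by linarith

/-- facts on a transitional pair -/
theorem trans_facts {γ : ℝ} {q r : ℕ} (hr : 0 < r) (h : TR γ q r) :
    ∃ j : ℕ, 0 < j ∧ q = r * (1 + Bd γ (Nat.log 2 r) * j) ∧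
      Bd γ (Nat.log 2 r) <
        Bd γ (Nat.log 2 r + (Nat.log 2 (1 + Bd γ (Nat.log 2 r) * j) + 1)) := by
  obtain ⟨hdvd, hlt, hne, hB⟩ := h
  obtain ⟨k, rfl⟩ := hdvd
  have hgcd : Nat.gcd (r * k) r = r := Nat.gcd_eq_right (Dvd.intro k rfl)
  have hr1 : r1 (r * k) r = 1 := by unfold r1; rw [hgcd]; exact Nat.div_self hr
  have hq1 : q1 (r * k) r = k := by unfold q1; rw [hgcd]; exact Nat.mul_div_cancel_left k hr
  have hk : 1 < k := by
    by_contra hcon
    have : r * k ≤ r * 1 := Nat.mul_le_mul_left r (not_lt.mp hcon)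
    omega
  have hh1 : hh (r * k) r = -((k - 1 : ℕ) : ℤ) := by
    unfold hh
    rw [hr1, hq1]
    push_cast [Nat.cast_sub hk.le]
    ring
  rw [hh1, Int.dvd_neg, Int.natCast_dvd_natCast] at hB
  unfold bq at hB hne
  obtain ⟨j, hj⟩ := hB
  have hj0 : 0 < j := by
    rcases Nat.eq_zero_or_pos j with rfl | h
    · omega
    · exact h
  have hkj : k = 1 + Bd γ (Nat.log 2 r) * j := by omega
  refine ⟨j, hj0, by rw [← hkj], ?_⟩
  rw [← hkj]
  have hk0 : k ≠ 0 := by omega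
  have hlog : Nat.log 2 (r * k) ≤ Nat.log 2 r + (Nat.log 2 k + 1) := by
    apply Nat.lt_succ_iff.mp
    apply Nat.log_lt_of_lt_pow (Nat.mul_ne_zero hr.ne' hk0)
    have e1 : Nat.succ (Nat.log 2 r + (Nat.log 2 k + 1)) = (Nat.log 2 r).succ +
      (Nat.log 2 k).succ := by omega
    rw [e1, pow_add]
    exact Nat.mul_lt_mul'' (Nat.lt_pow_succ_log_self (by norm_num) r)
      (Nat.lt_pow_succ_log_self (by norm_num) k)
  have h1 := Bd_mono γ hlog
  have h2 : Bd γ (Nat.log 2 r) ≤ Bd γ (Nat.log 2 (r * k)) :=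
    Bd_mono γ (Nat.log_mono_right (Nat.le_mul_of_pos_right r (by omega)))
  omega

open Classical in
theorem trans_sum : ∃ K : ℝ, 0 < K ∧ ∀ (γ : ℝ) (S : Finset ℕ), (∀ q ∈ S, 0 < q) →
    ∑ q ∈ S, ∑ r ∈ S with TR γ q r, 1 / ((r : ℝ) * ((q : ℝ) / r) ^ 2) ≤ K := by
  refine ⟨2 * (∑' n, transC n) ^ 2 + 1, by positivity, fun γ S hS => ?_⟩
  -- the set of pairs
  set P : Finset (ℕ × ℕ) := (S ×ˢ S).filter (fun x => TR γ x.1 x.2) with hP
  have e1 : ∑ q ∈ S, ∑ r ∈ S with TR γ q r, 1 / ((r : ℝ) * ((q : ℝ) / r) ^ 2) =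
      ∑ x ∈ P, 1 / ((x.2 : ℝ) * ((x.1 : ℝ) / x.2) ^ 2) := by
    rw [hP, Finset.sum_filter, Finset.sum_product]
    refine Finset.sum_congr rfl fun q _ => ?_
    rw [Finset.sum_filter]
  rw [e1]
  -- the grouping map
  set g : ℕ × ℕ → ℕ × ℕ := fun x =>
    (Bd γ (Nat.log 2 x.2), (x.1 / x.2 - 1) / Bd γ (Nat.log 2 x.2)) with hg
  have hfact : ∀ x ∈ P, 0 < x.2 ∧ 0 < (g x).1 ∧ 0 < (g x).2 ∧
      (g x).1 = Bd γ (Nat.log 2 x.2) ∧ x.1 = x.2 * (1 + (g x).1 * (g x).2) ∧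
      (g x).1 < Bd γ (Nat.log 2 x.2 + (Nat.log 2 (1 + (g x).1 * (g x).2) + 1)) := by
    intro x hx
    rw [hP, Finset.mem_filter, Finset.mem_product] at hx
    have hr := hS x.2 hx.1.2
    obtain ⟨j, hj0, hj1, hj2⟩ := trans_facts hr hx.2
    have hB := Bd_pos γ (Nat.log 2 x.2)
    have hgj : (g x).2 = j := by
      change (x.1 / x.2 - 1) / Bd γ (Nat.log 2 x.2) = j
      rw [hj1, Nat.mul_div_cancel_left _ hr]
      rw [show 1 + Bd γ (Nat.log 2 x.2) * j - 1 = Bd γ (Nat.log 2 x.2) * j by omega]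
      exact Nat.mul_div_cancel_left j hB
    have hg1 : (g x).1 = Bd γ (Nat.log 2 x.2) := rfl
    refine ⟨hr, hB, by rw [hgj]; exact hj0, hg1, ?_, ?_⟩
    · rw [hgj, hg1]; exact hj1
    · rw [hgj, hg1]; exact hj2
  rw [← Finset.sum_fiberwise_of_maps_to (t := P.image g) (g := g)
    (fun x hx => Finset.mem_image_of_mem g hx)]
  have hfib : ∀ y ∈ P.image g,
      ∑ x ∈ P with g x = y, 1 / ((x.2 : ℝ) * ((x.1 : ℝ) / x.2) ^ 2) ≤
        2 * (transC y.1 * transC y.2) := by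
    intro y hy
    obtain ⟨x0, hx0, rfl⟩ := Finset.mem_image.mp hy
    obtain ⟨-, hv0, hj0, -, -, -⟩ := hfact x0 hx0
    set v := (g x0).1 with hv
    set j := (g x0).2 with hj
    set F := P.filter (fun x => g x = g x0) with hF
    have hterm : ∀ x ∈ F, 1 / ((x.2 : ℝ) * ((x.1 : ℝ) / x.2) ^ 2) =
        1 / (x.2 : ℝ) * (1 / ((1 + v * j : ℕ) : ℝ) ^ 2) := by
      intro x hx
      rw [hF, Finset.mem_filter] at hx
      obtain ⟨hr, -, -, -, hq, -⟩ := hfact x hx.1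
      rw [hx.2, ← hv, ← hj] at hq
      have hr' : (0 : ℝ) < x.2 := by exact_mod_cast hr
      have : ((x.1 : ℕ) : ℝ) / x.2 = ((1 + v * j : ℕ) : ℝ) := by
        rw [hq, Nat.cast_mul]
        field_simp
      rw [this]
      field_simp
    rw [Finset.sum_congr rfl hterm, ← Finset.sum_mul]
    have hinj : Set.InjOn Prod.snd (F : Set (ℕ × ℕ)) := by
      intro x hx y hy hxy
      rw [Finset.mem_coe, hF, Finset.mem_filter] at hx hy
      obtain ⟨-, -, -, -, hq, -⟩ := hfact x hx.1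
      obtain ⟨-, -, -, -, hq', -⟩ := hfact y hy.1
      rw [hx.2] at hq
      rw [hy.2] at hq'
      refine Prod.ext ?_ hxy
      rw [hq, hq', hxy]
    have hsum : ∑ x ∈ F, 1 / (x.2 : ℝ) = ∑ r ∈ F.image Prod.snd, 1 / (r : ℝ) := by
      rw [Finset.sum_image hinj]
    have hle : ∑ x ∈ F, 1 / (x.2 : ℝ) ≤ ((Nat.log 2 (1 + v * j) + 1 : ℕ) : ℝ) := by
      rw [hsum]
      apply trans_fix γ _ v
      · intro r hr
        obtain ⟨x, hx, rfl⟩ := Finset.mem_image.mp hr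
        rw [hF, Finset.mem_filter] at hx
        exact (hfact x hx.1).1
      · intro r hr
        obtain ⟨x, hx, rfl⟩ := Finset.mem_image.mp hr
        rw [hF, Finset.mem_filter] at hx
        rw [hv, ← hx.2]
      · intro r hr
        obtain ⟨x, hx, rfl⟩ := Finset.mem_image.mp hr
        rw [hF, Finset.mem_filter] at hx
        have h6 := (hfact x hx.1).2.2.2.2.2
        rw [hx.2] at h6
        exact h6
    refine le_trans ?_ (trans_term hv0 hj0)
    apply mul_le_mul_of_nonneg_right _ (by positivity)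
    push_cast at hle ⊢
    exact hle
  refine (Finset.sum_le_sum hfib).trans ?_
  have hsub : P.image g ⊆ ((P.image g).image Prod.fst) ×ˢ ((P.image g).image Prod.snd) := by
    intro y hy
    rw [Finset.mem_product]
    exact ⟨Finset.mem_image_of_mem _ hy, Finset.mem_image_of_mem _ hy⟩
  refine (Finset.sum_le_sum_of_subset_of_nonneg hsub fun y _ _ => ?_).trans ?_
  · have := transC_nonneg y.1
    have := transC_nonneg y.2
    positivity
  rw [Finset.sum_product]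
  have e2 : ∀ (A B : Finset ℕ), ∑ a ∈ A, ∑ b ∈ B, 2 * (transC a * transC b) =
      2 * ((∑ a ∈ A, transC a) * (∑ b ∈ B, transC b)) := by
    intro A B
    rw [Finset.sum_mul_sum, Finset.mul_sum]
    refine Finset.sum_congr rfl fun a _ => ?_
    rw [Finset.mul_sum]
  rw [e2]
  have h7 := transC_summable.sum_le_tsum ((P.image g).image Prod.fst) (fun n _ => transC_nonneg n)
  have h8 := transC_summable.sum_le_tsum ((P.image g).image Prod.snd) (fun n _ => transC_nonneg n)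
  have h9 : 0 ≤ ∑ a ∈ (P.image g).image Prod.fst, transC a :=
    Finset.sum_nonneg fun n _ => transC_nonneg n
  have h10 : 0 ≤ ∑ a ∈ (P.image g).image Prod.snd, transC a :=
    Finset.sum_nonneg fun n _ => transC_nonneg n
  have h11 := mul_le_mul h7 h8 h10 (h9.trans h7)
  nlinarith

end Vale.Agent.P028EV
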