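import Vale.Agent.P028EV.Ov
import Vale.Agent.P028EV.Trans
import Vale.Agent.P028EV.Weights

/-!
Module S2: `ov ≤ 4 c0 / (r (q/r)^2)` for a transitional pair with `Del < 1/2`:
`r ∣ q`, `gcd = r`, `#Ts ≤ 1`, `min ≤ ψ q/q ≤ c0/q²`; use `pair_ov` with the trivial bound
`#{k < g : ...} ≤ g` (or `ov_le_r`: `r1 = 1`, `ww 1 = 1`, `WW ≤ 1`).  Then `trans_sum`.
-/

namespace Vale.Agent.P028EV

open Finset MeasureTheory

private theorem s2_pair (γ : ℝ) (ψ : ℕ → ℝ) (c0 : ℝ) (q r : ℕ) (hc0 : 0 < c0)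
    (hc1 : c0 ≤ 1 / 4) (hq : 0 < q) (hr : 0 < r) (h0 : 0 ≤ ψ q) (h0' : 0 ≤ ψ r)
    (h1 : ψ q ≤ c0 / q) (h1' : ψ r ≤ c0 / r) (hTR : TR γ q r) (hD : Del ψ q r < 1 / 2) :
    ov γ ψ q r ≤ 4 * c0 * (1 / ((r : ℝ) * ((q : ℝ) / r) ^ 2)) := by
  have hq' : (1 : ℝ) ≤ q := by exact_mod_cast hq
  have hr' : (1 : ℝ) ≤ r := by exact_mod_cast hr
  have hq0 : (0 : ℝ) < q := by linarith
  have hr0 : (0 : ℝ) < r := by linarith
  have b1 : ψ q ≤ 1 / 4 := h1.trans ((div_le_self hc0.le hq').trans hc1)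
  have b2 : ψ r ≤ 1 / 4 := h1'.trans ((div_le_self hc0.le hr').trans hc1)
  have h := ov_le_r γ ψ q r hq hr h0 h0' b1 b2
  have hg : Nat.gcd q r = r := Nat.gcd_eq_right hTR.1
  have hr1 : r1 q r = 1 := by
    unfold r1
    rw [hg, Nat.div_self hr]
  have hww : ww 1 = 1 := by simp [ww]
  rw [hr1, hg, hww, inv_one, mul_one] at h
  have hT : ((Ts γ (hh q r) (Del ψ q r)).card : ℝ) ≤ 1 := by
    exact_mod_cast card_Ts_le_one γ (hh q r) (Del ψ q r) hD.le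
  have hW0 := (WW_pos γ r).le
  have hW1 := WW_le_one γ r
  have hmin : min (ψ q / q) (ψ r / r) ≤ c0 / (q : ℝ) ^ 2 := by
    refine (min_le_left _ _).trans ?_
    rw [sq, ← div_div]
    exact div_le_div_of_nonneg_right h1 hq0.le
  have hmin0 : 0 ≤ min (ψ q / q) (ψ r / r) := le_min (by positivity) (by positivity)
  have hrhs : 4 * c0 * (1 / ((r : ℝ) * ((q : ℝ) / r) ^ 2)) = 4 * (c0 / (q : ℝ) ^ 2) * 1 * (r * 1) := by
    field_simp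
  rw [hrhs]
  refine h.trans ?_
  have e1 : 4 * min (ψ q / q) (ψ r / r) * ((Ts γ (hh q r) (Del ψ q r)).card : ℝ)
      ≤ 4 * (c0 / (q : ℝ) ^ 2) * 1 :=
    mul_le_mul (by linarith) hT (by positivity) (by positivity)
  refine mul_le_mul e1 ?_ (by positivity) (by positivity)
  exact mul_le_mul_of_nonneg_left hW1 hr0.le

open Classical in
theorem sum_TR : ∃ K : ℝ, 0 < K ∧ ∀ (γ : ℝ) (ψ : ℕ → ℝ) (c0 : ℝ) (S : Finset ℕ),
    0 < c0 → c0 ≤ 1 / 4 → (∀ q ∈ S, 0 < q ∧ 0 ≤ ψ q ∧ ψ q ≤ c0 / q) →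
    ∑ q ∈ S, ∑ r ∈ S with r < q ∧ TR γ q r ∧ Del ψ q r < 1 / 2, ov γ ψ q r ≤ K * c0 := by
  obtain ⟨K, hK, hsum⟩ := trans_sum
  refine ⟨4 * K, by positivity, ?_⟩
  intro γ ψ c0 S hc0 hc1 hS
  have hle : ∑ q ∈ S, ∑ r ∈ S with r < q ∧ TR γ q r ∧ Del ψ q r < 1 / 2, ov γ ψ q r
      ≤ ∑ q ∈ S, ∑ r ∈ S with TR γ q r, 4 * c0 * (1 / ((r : ℝ) * ((q : ℝ) / r) ^ 2)) := by
    refine Finset.sum_le_sum fun q hq => ?_
    calc ∑ r ∈ S with r < q ∧ TR γ q r ∧ Del ψ q r < 1 / 2, ov γ ψ q r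
        ≤ ∑ r ∈ S with r < q ∧ TR γ q r ∧ Del ψ q r < 1 / 2,
            4 * c0 * (1 / ((r : ℝ) * ((q : ℝ) / r) ^ 2)) := by
          refine Finset.sum_le_sum fun r hr => ?_
          rw [Finset.mem_filter] at hr
          obtain ⟨hr, -, hTR, hD⟩ := hr
          obtain ⟨a1, a2, a3⟩ := hS q hq
          obtain ⟨b1, b2, b3⟩ := hS r hr
          exact s2_pair γ ψ c0 q r hc0 hc1 a1 b1 a2 b2 a3 b3 hTR hD
      _ ≤ _ := by
          refine Finset.sum_le_sum_of_subset_of_nonneg ?_ ?_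
          · intro r hr
            rw [Finset.mem_filter] at hr ⊢
            exact ⟨hr.1, hr.2.2.1⟩
          · intro r _ _
            positivity
  refine hle.trans ?_
  have : ∑ q ∈ S, ∑ r ∈ S with TR γ q r, 4 * c0 * (1 / ((r : ℝ) * ((q : ℝ) / r) ^ 2))
      = 4 * c0 * ∑ q ∈ S, ∑ r ∈ S with TR γ q r, 1 / ((r : ℝ) * ((q : ℝ) / r) ^ 2) := by
    rw [Finset.mul_sum]
    refine Finset.sum_congr rfl fun q _ => ?_
    rw [Finset.mul_sum]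
  rw [this]
  have h2 := hsum γ S (fun q hq => (hS q hq).1)
  nlinarith

end Vale.Agent.P028EV
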