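import Vale.Agent.P028EV.Ov
import Vale.Agent.P028EV.BadA
import Vale.Agent.P028EV.BadB

/-!
Module S3: the bad pairs.

For `r < q`, `ψ ≤ 1/(4·)`: `r' ψ q ≤ r'/(4q) ≤ 1/4 ≤ T' := q' ψ r`, so `Del ≤ 2 T'` and
`#Ts ≤ 2 Del + 1 ≤ 8 T'` (`card_Ts_le`).  `α = exp (4 Phi r' - 4 Phi q')`, `1 ≤ α + α⁻¹`;
`ov_le_q` and `bad_alpha` for `α ov` (`≤ 32 ψ q WW q · summand`), `ov_le_r` and `bad_beta` for
`α⁻¹ ov` (`≤ 32 WW r · summand`).
-/

namespace Vale.Agent.P028EV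

open Finset MeasureTheory

private theorem s3_pair (γ : ℝ) (ψ : ℕ → ℝ) (c0 : ℝ) (q r : ℕ) (hc0 : 0 < c0)
    (hc1 : c0 ≤ 1 / 4) (hq : 0 < q) (hr : 0 < r) (h0 : 0 ≤ ψ q) (h0' : 0 ≤ ψ r)
    (h1 : ψ q ≤ c0 / q) (h1' : ψ r ≤ c0 / r) (hrq : r < q) (hB : BAD ψ q r) :
    ov γ ψ q r ≤ 32 * (WW γ q * ψ q) *
        (((q1 q r : ℝ) * ψ r) * Real.exp (4 * Phi (r1 q r) - 4 * Phi (q1 q r)) /
          ((q1 q r : ℝ) * ww (q1 q r))) +
      32 * WW γ r * (Real.exp (4 * Phi (q1 q r) - 4 * Phi (r1 q r)) *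
        (((q1 q r : ℝ) * ψ r) * ((Nat.gcd q r : ℝ) * min (ψ q / q) (ψ r / r))) /
          ww (r1 q r)) := by
  have hq' : (1 : ℝ) ≤ q := by exact_mod_cast hq
  have hr' : (1 : ℝ) ≤ r := by exact_mod_cast hr
  have hq0 : (0 : ℝ) < q := by linarith
  have hr0 : (0 : ℝ) < r := by linarith
  have b1 : ψ q ≤ 1 / 4 := h1.trans ((div_le_self hc0.le hq').trans hc1)
  have b2 : ψ r ≤ 1 / 4 := h1'.trans ((div_le_self hc0.le hr').trans hc1)
  have hg : 0 < Nat.gcd q r := Nat.gcd_pos_of_pos_left _ hq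
  have hg0 : (0 : ℝ) < (Nat.gcd q r : ℝ) := by exact_mod_cast hg
  have hqq : (q1 q r : ℝ) * (Nat.gcd q r : ℝ) = q := by exact_mod_cast q1_mul q r
  have hrr : (r1 q r : ℝ) * (Nat.gcd q r : ℝ) = r := by exact_mod_cast r1_mul q r
  have hu0 : (0 : ℝ) < (q1 q r : ℝ) := by
    by_contra hcon
    have : (q1 q r : ℝ) * (Nat.gcd q r : ℝ) ≤ 0 :=
      mul_nonpos_of_nonpos_of_nonneg (not_lt.1 hcon) hg0.le
    linarith
  have hg1 : (1 : ℝ) ≤ (Nat.gcd q r : ℝ) := by exact_mod_cast hg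
  have hv0 : (0 : ℝ) ≤ (r1 q r : ℝ) := Nat.cast_nonneg _
  have hvr : (r1 q r : ℝ) ≤ r := by nlinarith
  have hrq' : (r : ℝ) ≤ q := by exact_mod_cast hrq.le
  set T : ℝ := (q1 q r : ℝ) * ψ r with hT
  have hT4 : 1 / 4 ≤ T := hB.1
  have hvq : (r1 q r : ℝ) * ψ q ≤ 1 / 4 := by
    have e1 : (r1 q r : ℝ) * ψ q ≤ q * (c0 / q) :=
      mul_le_mul (hvr.trans hrq') h1 h0 hq0.le
    have e2 : (q : ℝ) * (c0 / q) = c0 := by field_simp
    linarith
  have hDel : Del ψ q r ≤ 2 * T := by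
    unfold Del
    linarith
  have hDel0 : 0 ≤ Del ψ q r := by
    unfold Del
    positivity
  have hcard : ((Ts γ (hh q r) (Del ψ q r)).card : ℝ) ≤ 8 * T := by
    have := card_Ts_le γ (hh q r) (Del ψ q r) hDel0
    linarith
  have hcard0 : (0 : ℝ) ≤ ((Ts γ (hh q r) (Del ψ q r)).card : ℝ) := Nat.cast_nonneg _
  have hmin0 : 0 ≤ min (ψ q / q) (ψ r / r) := le_min (by positivity) (by positivity)
  have hWq := WW_pos γ q
  have hWr := WW_pos γ r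
  have hwq := ww_pos (q1 q r)
  have hwr := ww_pos (r1 q r)
  have hov0 := ov_nonneg γ ψ q r
  -- the two bounds
  have hA : ov γ ψ q r ≤ 32 * (WW γ q * ψ q) * (T / ((q1 q r : ℝ) * ww (q1 q r))) := by
    refine (ov_le_q γ ψ q r hq hr h0 h0' b1 b2).trans ?_
    have e1 : 4 * min (ψ q / q) (ψ r / r) * ((Ts γ (hh q r) (Del ψ q r)).card : ℝ)
        ≤ 4 * (ψ q / q) * (8 * T) := by
      refine mul_le_mul ?_ hcard hcard0 (by positivity)
      have := min_le_left (ψ q / q) (ψ r / r)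
      linarith
    refine (mul_le_mul_of_nonneg_right e1 (by positivity)).trans (le_of_eq ?_)
    rw [← hqq]
    field_simp
    ring
  have hB' : ov γ ψ q r ≤ 32 * WW γ r * ((T * ((Nat.gcd q r : ℝ) *
      min (ψ q / q) (ψ r / r))) / ww (r1 q r)) := by
    refine (ov_le_r γ ψ q r hq hr h0 h0' b1 b2).trans ?_
    have e1 : 4 * min (ψ q / q) (ψ r / r) * ((Ts γ (hh q r) (Del ψ q r)).card : ℝ)
        ≤ 4 * min (ψ q / q) (ψ r / r) * (8 * T) :=
      mul_le_mul_of_nonneg_left hcard (by positivity)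
    refine (mul_le_mul_of_nonneg_right e1 (by positivity)).trans (le_of_eq ?_)
    field_simp
    ring
  -- one of the two exponentials is at least one
  rcases le_total (Phi (q1 q r)) (Phi (r1 q r)) with hle | hle
  · have he : 1 ≤ Real.exp (4 * Phi (r1 q r) - 4 * Phi (q1 q r)) :=
      Real.one_le_exp (by linarith)
    have h2 : 0 ≤ 32 * WW γ r * (Real.exp (4 * Phi (q1 q r) - 4 * Phi (r1 q r)) *
        (T * ((Nat.gcd q r : ℝ) * min (ψ q / q) (ψ r / r))) /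
          ww (r1 q r)) := by positivity
    have h3 : 32 * (WW γ q * ψ q) * (T / ((q1 q r : ℝ) * ww (q1 q r))) ≤
        32 * (WW γ q * ψ q) * (T * Real.exp (4 * Phi (r1 q r) - 4 * Phi (q1 q r)) /
          ((q1 q r : ℝ) * ww (q1 q r))) := by
      refine mul_le_mul_of_nonneg_left ?_ (by positivity)
      refine div_le_div_of_nonneg_right ?_ (by positivity)
      exact le_mul_of_one_le_right (by positivity) he
    linarith
  · have he : 1 ≤ Real.exp (4 * Phi (q1 q r) - 4 * Phi (r1 q r)) :=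
      Real.one_le_exp (by linarith)
    have h2 : 0 ≤ 32 * (WW γ q * ψ q) *
        (T * Real.exp (4 * Phi (r1 q r) - 4 * Phi (q1 q r)) /
          ((q1 q r : ℝ) * ww (q1 q r))) := by positivity
    have h3 : 32 * WW γ r * ((T * ((Nat.gcd q r : ℝ) *
      min (ψ q / q) (ψ r / r))) / ww (r1 q r)) ≤
        32 * WW γ r * (Real.exp (4 * Phi (q1 q r) - 4 * Phi (r1 q r)) *
        (T * ((Nat.gcd q r : ℝ) * min (ψ q / q) (ψ r / r))) /
          ww (r1 q r)) := by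
      refine mul_le_mul_of_nonneg_left ?_ (by positivity)
      refine div_le_div_of_nonneg_right ?_ (by positivity)
      exact le_mul_of_one_le_left (by positivity) he
    linarith

private theorem s3_swap (S : Finset ℕ) (P : ℕ → ℕ → Prop) [∀ q r, Decidable (P q r)]
    (F : ℕ → ℕ → ℝ) :
    ∑ q ∈ S, ∑ r ∈ S with P q r, F q r = ∑ r ∈ S, ∑ q ∈ S with P q r, F q r := by
  simp_rw [Finset.sum_filter]
  exact Finset.sum_comm

open Classical in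
theorem sum_BAD : ∃ K : ℝ, 0 < K ∧ ∀ (γ : ℝ) (ψ : ℕ → ℝ) (c0 : ℝ) (S : Finset ℕ),
    0 < c0 → c0 ≤ 1 / 4 → (∀ q ∈ S, 0 < q ∧ 0 ≤ ψ q ∧ ψ q ≤ c0 / q) →
    ∑ q ∈ S, ∑ r ∈ S with r < q ∧ BAD ψ q r, ov γ ψ q r
      ≤ K * c0 * ∑ q ∈ S, WW γ q * ψ q := by
  obtain ⟨K1, hK1, hA⟩ := bad_alpha
  obtain ⟨K2, hK2, hB⟩ := bad_beta
  refine ⟨32 * (K1 + K2), by positivity, ?_⟩
  intro γ ψ c0 S hc0 hc1 hS
  have hle : ∑ q ∈ S, ∑ r ∈ S with r < q ∧ BAD ψ q r, ov γ ψ q r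
      ≤ ∑ q ∈ S, ∑ r ∈ S with r < q ∧ BAD ψ q r, 32 * (WW γ q * ψ q) *
        (((q1 q r : ℝ) * ψ r) * Real.exp (4 * Phi (r1 q r) - 4 * Phi (q1 q r)) /
          ((q1 q r : ℝ) * ww (q1 q r))) +
        ∑ q ∈ S, ∑ r ∈ S with r < q ∧ BAD ψ q r, 32 * WW γ r *
          (Real.exp (4 * Phi (q1 q r) - 4 * Phi (r1 q r)) *
        (((q1 q r : ℝ) * ψ r) * ((Nat.gcd q r : ℝ) * min (ψ q / q) (ψ r / r))) /
          ww (r1 q r)) := by
    rw [← Finset.sum_add_distrib]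
    refine Finset.sum_le_sum fun q hq => ?_
    rw [← Finset.sum_add_distrib]
    refine Finset.sum_le_sum fun r hr => ?_
    rw [Finset.mem_filter] at hr
    obtain ⟨hr, hrq, hBad⟩ := hr
    obtain ⟨a1, a2, a3⟩ := hS q hq
    obtain ⟨b1, b2, b3⟩ := hS r hr
    exact s3_pair γ ψ c0 q r hc0 hc1 a1 b1 a2 b2 a3 b3 hrq hBad
  refine hle.trans ?_
  have h1 : ∑ q ∈ S, ∑ r ∈ S with r < q ∧ BAD ψ q r, 32 * (WW γ q * ψ q) *
        (((q1 q r : ℝ) * ψ r) * Real.exp (4 * Phi (r1 q r) - 4 * Phi (q1 q r)) /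
          ((q1 q r : ℝ) * ww (q1 q r))) ≤ 32 * (K1 * c0) * ∑ q ∈ S, WW γ q * ψ q := by
    rw [Finset.mul_sum]
    refine Finset.sum_le_sum fun q hq => ?_
    rw [← Finset.mul_sum]
    have := hA ψ c0 S q hc0 hc1 hS hq
    have hW : 0 ≤ 32 * (WW γ q * ψ q) := by
      have := WW_pos γ q
      have := (hS q hq).2.1
      positivity
    calc _ ≤ 32 * (WW γ q * ψ q) * (K1 * c0) := mul_le_mul_of_nonneg_left this hW
      _ = _ := by ring
  have h2 : ∑ q ∈ S, ∑ r ∈ S with r < q ∧ BAD ψ q r, 32 * WW γ r *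
          (Real.exp (4 * Phi (q1 q r) - 4 * Phi (r1 q r)) *
        (((q1 q r : ℝ) * ψ r) * ((Nat.gcd q r : ℝ) * min (ψ q / q) (ψ r / r))) /
          ww (r1 q r)) ≤ 32 * (K2 * c0) * ∑ q ∈ S, WW γ q * ψ q := by
    rw [s3_swap S (fun q r => r < q ∧ BAD ψ q r)]
    rw [Finset.mul_sum]
    refine Finset.sum_le_sum fun r hr => ?_
    rw [← Finset.mul_sum]
    have := hB ψ c0 S r hc0 hc1 hS hr
    have hW : 0 ≤ 32 * WW γ r := by
      have := WW_pos γ r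
      positivity
    calc _ ≤ 32 * WW γ r * (K2 * (c0 * ψ r)) := mul_le_mul_of_nonneg_left this hW
      _ = _ := by ring
  calc _ ≤ 32 * (K1 * c0) * ∑ q ∈ S, WW γ q * ψ q + 32 * (K2 * c0) * ∑ q ∈ S, WW γ q * ψ q :=
        add_le_add h1 h2
    _ = _ := by ring

end Vale.Agent.P028EV
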