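import Vale.Agent.P028EV.S1
import Vale.Agent.P028EV.S2
import Vale.Agent.P028EV.S3
import Vale.Agent.P028EV.Good
import Vale.Agent.P028EV.Far

/-!
Module MAIN: the local second moment.

Symmetrize: diagonal `q = r`: `diag_bounds` (`≤ 4 ℓ WW ψ`); the pairs `r < q` twice.
For `r < q`, `r^4 ≤ q`: `far_bound`.
For `r < q < r^4`: `vol(... ∩ Ico x0 (x0+ℓ)) ≤ ov` (as `[x0,x0+ℓ) ⊆ [0,1)`), and
`ov ≤ [ND] ov + [TR, Del<1/2] ov + [BAD] ov + K (WW q ψ q)(WW r ψ r)`: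
 if `Del < 1/2`: `ND`, or `TR`, or `ov = 0` (`ov_zero`);
 if `Del ≥ 1/2`: `r' ψ q ≤ 1/4` so `q' ψ r ≥ 1/4`; `BAD`, or `good_ov`.
`sum_ND`, `sum_TR`, `sum_BAD`.
-/

namespace Vale.Agent.P028EV

open Finset MeasureTheory

theorem main_sum_symm (S : Finset ℕ) (f : ℕ → ℕ → ℝ) (hf : ∀ q r, f q r = f r q) :
    ∑ q ∈ S, ∑ r ∈ S, f q r
      = ∑ q ∈ S, f q q + 2 * ∑ q ∈ S, ∑ r ∈ S with r < q, f q r := by
  have h1 : ∀ q ∈ S, ∑ r ∈ S, f q r
      = ∑ r ∈ S with r < q, f q r + (f q q + ∑ r ∈ S with q < r, f q r) := by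
    intro q hq
    rw [← Finset.sum_filter_add_sum_filter_not S (fun r => r < q)]
    congr 1
    rw [← Finset.sum_filter_add_sum_filter_not (S.filter (fun r => ¬ r < q)) (fun r => r = q)]
    rw [Finset.filter_filter, Finset.filter_filter]
    congr 1
    · have : S.filter (fun a => ¬ a < q ∧ a = q) = {q} := by
        ext a
        simp only [Finset.mem_filter, Finset.mem_singleton]
        constructor
        · rintro ⟨_, _, h⟩; exact h
        · rintro rfl; exact ⟨hq, lt_irrefl _, rfl⟩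
      rw [this, Finset.sum_singleton]
    · apply Finset.sum_congr _ (fun _ _ => rfl)
      ext a
      simp only [Finset.mem_filter]
      constructor
      · rintro ⟨h1, h2, h3⟩; exact ⟨h1, by omega⟩
      · rintro ⟨h1, h2⟩; exact ⟨h1, by omega, by omega⟩
  rw [Finset.sum_congr rfl h1, Finset.sum_add_distrib, Finset.sum_add_distrib]
  have h2 : ∑ q ∈ S, ∑ r ∈ S with q < r, f q r = ∑ q ∈ S, ∑ r ∈ S with r < q, f q r := by
    rw [Finset.sum_comm' (s := S) (t := fun q => S.filter (fun r => q < r)) (t' := S)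
      (s' := fun r => S.filter (fun q => q < r))]
    · apply Finset.sum_congr rfl
      intro q _
      apply Finset.sum_congr rfl
      intro r _
      exact hf r q
    · intro x y
      simp only [Finset.mem_filter]
      tauto
  rw [h2]
  ring

open Classical in
theorem main_block : ∃ K : ℝ, 0 < K ∧ ∀ ℓ : ℝ, 0 < ℓ → ℓ ≤ 1 → ∃ Q : ℕ, 0 < Q ∧
    ∀ (γ : ℝ) (ψ : ℕ → ℝ) (S : Finset ℕ) (c0 Q0 x0 : ℝ), 0 < c0 → c0 ≤ 1 / 4 → 1 ≤ Q0 →
    (Q : ℝ) ≤ Q0 → 0 ≤ x0 → x0 + ℓ ≤ 1 →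
    (∀ q ∈ S, Q0 ≤ (q : ℝ) ∧ (q : ℝ) ^ (-(5 / 4) : ℝ) ≤ ψ q ∧ ψ q ≤ c0 / q) →
    ∑ q ∈ S, ∑ r ∈ S, (volume (AS γ ψ q ∩ AS γ ψ r ∩ Set.Ico x0 (x0 + ℓ))).toReal
      ≤ K * (ℓ * (∑ q ∈ S, WW γ q * ψ q) + ℓ * (∑ q ∈ S, WW γ q * ψ q) ^ 2
          + (c0 ^ (1 / 8 : ℝ) + Q0 ^ (-(1 / 32) : ℝ)) * (∑ q ∈ S, WW γ q * ψ q)
          + c0 + c0 * (∑ q ∈ S, WW γ q * ψ q)
          + ∑ q ∈ S, ∑ r ∈ S with r < q ∧ q < r ^ 4,
              (WW γ q * ψ q) * (WW γ r * ψ r)) := by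
  obtain ⟨K1, hK1, H1⟩ := sum_ND
  obtain ⟨K2, hK2, H2⟩ := sum_TR
  obtain ⟨K3, hK3, H3⟩ := sum_BAD
  obtain ⟨K4, hK4, H4⟩ := good_ov
  refine ⟨4 + 2 * (64 + K1 + K2 + K3 + K4), by positivity, fun ℓ hℓ hℓ1 => ?_⟩
  obtain ⟨Qd, hQd, Hd⟩ := diag_bounds ℓ hℓ
  obtain ⟨Qf, hQf, Hf⟩ := far_bound ℓ hℓ
  refine ⟨max Qd Qf, lt_max_of_lt_left hQd, ?_⟩
  intro γ ψ S c0 Q0 x0 hc0 hc1 hQ0 hQ hx0 hx1 hS
  have hQd' : ∀ q ∈ S, Qd ≤ q := by
    intro q hq
    have h1 := (hS q hq).1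
    have h2 : ((max Qd Qf : ℕ) : ℝ) ≤ (q : ℝ) := hQ.trans h1
    exact (le_max_left Qd Qf).trans (by exact_mod_cast h2)
  have hQf' : ∀ q ∈ S, Qf ≤ q := by
    intro q hq
    have h1 := (hS q hq).1
    have h2 : ((max Qd Qf : ℕ) : ℝ) ≤ (q : ℝ) := hQ.trans h1
    exact (le_max_right Qd Qf).trans (by exact_mod_cast h2)
  have hpos : ∀ q ∈ S, 0 < q := fun q hq => hQd.trans_le (hQd' q hq)
  have hψ0 : ∀ q ∈ S, 0 ≤ ψ q := fun q hq =>
    (Real.rpow_nonneg (Nat.cast_nonneg q) _).trans (hS q hq).2.1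
  have hψ4 : ∀ q ∈ S, ψ q ≤ 1 / (4 * q) := by
    intro q hq
    have hq0 : (0 : ℝ) < q := by exact_mod_cast hpos q hq
    refine (hS q hq).2.2.trans ?_
    rw [div_le_div_iff₀ hq0 (by positivity)]
    nlinarith
  have hψ14 : ∀ q ∈ S, ψ q ≤ 1 / 4 := by
    intro q hq
    have hq0 : (1 : ℝ) ≤ q := by exact_mod_cast hpos q hq
    refine (hψ4 q hq).trans ?_
    rw [div_le_div_iff₀ (by positivity) (by norm_num)]
    nlinarith
  have hψ12 : ∀ q ∈ S, ψ q < 1 / 2 := fun q hq => (hψ14 q hq).trans_lt (by norm_num)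
  have hμ0 : ∀ q ∈ S, 0 ≤ WW γ q * ψ q := fun q hq =>
    mul_nonneg (WW_pos γ q).le (hψ0 q hq)
  set M : ℝ := ∑ q ∈ S, WW γ q * ψ q with hM
  have hM0 : 0 ≤ M := Finset.sum_nonneg hμ0
  set J := Set.Ico x0 (x0 + ℓ) with hJ
  have hsymm := main_sum_symm S (fun q r => (volume (AS γ ψ q ∩ AS γ ψ r ∩ J)).toReal)
    (fun q r => by simp only [Set.inter_comm (AS γ ψ q) (AS γ ψ r)])
  rw [hsymm]
  -- the diagonal
  have hdiag : ∑ q ∈ S, (volume (AS γ ψ q ∩ AS γ ψ q ∩ J)).toReal ≤ 4 * (ℓ * M) := by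
    rw [hM, Finset.mul_sum, Finset.mul_sum]
    apply Finset.sum_le_sum
    intro q hq
    rw [Set.inter_self]
    refine ((Hd q (hQd' q hq) γ ψ x0 (hψ0 q hq) (hψ12 q hq)).2).trans (le_of_eq ?_)
    ring
  -- the off-diagonal pairs
  have hpair : ∀ q ∈ S, ∀ r ∈ S.filter (fun r => r < q),
      (volume (AS γ ψ q ∩ AS γ ψ r ∩ J)).toReal
        ≤ 64 * ℓ * ((WW γ q * ψ q) * (WW γ r * ψ r))
          + (if ND γ ψ q r then ov γ ψ q r else 0)
          + (if TR γ q r ∧ Del ψ q r < 1 / 2 then ov γ ψ q r else 0)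
          + (if BAD ψ q r then ov γ ψ q r else 0)
          + (if q < r ^ 4 then K4 * ((WW γ q * ψ q) * (WW γ r * ψ r)) else 0) := by
    intro q hq r hr
    rw [Finset.mem_filter] at hr
    obtain ⟨hr, hrq⟩ := hr
    have ho : 0 ≤ ov γ ψ q r := ov_nonneg γ ψ q r
    have hμμ : 0 ≤ (WW γ q * ψ q) * (WW γ r * ψ r) := mul_nonneg (hμ0 q hq) (hμ0 r hr)
    have e1 : 0 ≤ (if ND γ ψ q r then ov γ ψ q r else 0) := by split_ifs <;> simp [ho]
    have e2 : 0 ≤ (if TR γ q r ∧ Del ψ q r < 1 / 2 then ov γ ψ q r else 0) := by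
      split_ifs <;> simp [ho]
    have e3 : 0 ≤ (if BAD ψ q r then ov γ ψ q r else 0) := by split_ifs <;> simp [ho]
    have e4 : 0 ≤ (if q < r ^ 4 then K4 * ((WW γ q * ψ q) * (WW γ r * ψ r)) else 0) := by
      split_ifs
      · exact mul_nonneg hK4.le hμμ
      · exact le_rfl
    have e5 : 0 ≤ 64 * ℓ * ((WW γ q * ψ q) * (WW γ r * ψ r)) := by positivity
    by_cases hfar : r ^ 4 ≤ q
    · have h := Hf q r (hQf' r hr) hfar γ ψ x0 (hψ0 q hq) (hψ12 q hq) (hS r hr).2.1 (hψ12 r hr)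
      have : 64 * ℓ * (WW γ q * ψ q) * (WW γ r * ψ r)
        = 64 * ℓ * ((WW γ q * ψ q) * (WW γ r * ψ r)) := by ring
      linarith
    · push Not at hfar
      have hle : (volume (AS γ ψ q ∩ AS γ ψ r ∩ J)).toReal ≤ ov γ ψ q r := by
        unfold ov
        apply ENNReal.toReal_mono
        · exact ne_top_of_le_ne_top (by simp) (measure_mono Set.inter_subset_right)
        · apply measure_mono
          apply Set.inter_subset_inter_right
          exact Set.Ico_subset_Ico hx0 hx1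
      have hr0 := hpos r hr
      have hq0 := hpos q hq
      by_cases hD : Del ψ q r < 1 / 2
      · by_cases hND : ND γ ψ q r
        · rw [if_pos hND]; linarith
        · by_cases hTR : TR γ q r
          · rw [if_pos (⟨hTR, hD⟩ : TR γ q r ∧ Del ψ q r < 1 / 2)]; linarith
          · have := ov_zero γ ψ q r hr0 hrq (hψ0 q hq) (hψ0 r hr) (hψ14 q hq) (hψ14 r hr)
              hD hND hTR
            linarith
      · push Not at hD
        have h14 : 1 / 4 ≤ (q1 q r : ℝ) * ψ r := by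
          have h1 : (r1 q r : ℝ) * ψ q ≤ 1 / 4 := by
            have h2 : (r1 q r : ℝ) ≤ r := by
              exact_mod_cast Nat.div_le_self r _
            have h3 : (r : ℝ) ≤ q := by exact_mod_cast hrq.le
            have hq0' : (0 : ℝ) < q := by exact_mod_cast hq0
            calc (r1 q r : ℝ) * ψ q ≤ q * (1 / (4 * q)) :=
                  mul_le_mul (h2.trans h3) (hψ4 q hq) (hψ0 q hq) (by positivity)
              _ = 1 / 4 := by field_simp
          unfold Del at hD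
          linarith
        by_cases hB : BAD ψ q r
        · rw [if_pos hB]; linarith
        · rw [if_pos hfar]
          have := H4 γ ψ q r hr0 hrq (hψ0 q hq) (hψ4 q hq) (hψ0 r hr) (hψ4 r hr) h14 hB
          have h5 : K4 * (WW γ q * ψ q) * (WW γ r * ψ r)
            = K4 * ((WW γ q * ψ q) * (WW γ r * ψ r)) := by ring
          linarith
  have hoff : ∑ q ∈ S, ∑ r ∈ S with r < q, (volume (AS γ ψ q ∩ AS γ ψ r ∩ J)).toReal
      ≤ 64 * (ℓ * M ^ 2) + K1 * (c0 ^ (1 / 8 : ℝ) + Q0 ^ (-(1 / 32) : ℝ)) * M + K2 * c0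
        + K3 * c0 * M
        + K4 * ∑ q ∈ S, ∑ r ∈ S with r < q ∧ q < r ^ 4,
            (WW γ q * ψ q) * (WW γ r * ψ r) := by
    refine (Finset.sum_le_sum (fun q hq => Finset.sum_le_sum (hpair q hq))).trans ?_
    simp only [Finset.sum_add_distrib]
    have t1 : ∑ q ∈ S, ∑ r ∈ S with r < q, 64 * ℓ * ((WW γ q * ψ q) * (WW γ r * ψ r))
        ≤ 64 * (ℓ * M ^ 2) := by
      have : 64 * (ℓ * M ^ 2)
          = ∑ q ∈ S, ∑ r ∈ S, 64 * ℓ * ((WW γ q * ψ q) * (WW γ r * ψ r)) := by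
        rw [hM, sq, Finset.sum_mul_sum]
        simp only [Finset.mul_sum]
        refine Finset.sum_congr rfl (fun q _ => Finset.sum_congr rfl (fun r _ => ?_))
        ring
      rw [this]
      apply Finset.sum_le_sum
      intro q hq
      apply Finset.sum_le_sum_of_subset_of_nonneg (Finset.filter_subset _ _)
      intro r hr _
      have := mul_nonneg (hμ0 q hq) (hμ0 r hr)
      positivity
    have t2 : ∑ q ∈ S, ∑ r ∈ S with r < q, (if ND γ ψ q r then ov γ ψ q r else 0)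
        ≤ K1 * (c0 ^ (1 / 8 : ℝ) + Q0 ^ (-(1 / 32) : ℝ)) * M := by
      refine le_trans (le_of_eq ?_) (H1 γ ψ c0 Q0 S hc0 hc1 hQ0 hS)
      apply Finset.sum_congr rfl
      intro q _
      rw [← Finset.sum_filter, Finset.filter_filter]
    have t3 : ∑ q ∈ S, ∑ r ∈ S with r < q,
        (if TR γ q r ∧ Del ψ q r < 1 / 2 then ov γ ψ q r else 0) ≤ K2 * c0 := by
      refine le_trans (le_of_eq ?_) (H2 γ ψ c0 S hc0 hc1
        (fun q hq => ⟨hpos q hq, hψ0 q hq, (hS q hq).2.2⟩))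
      apply Finset.sum_congr rfl
      intro q _
      rw [← Finset.sum_filter, Finset.filter_filter]
    have t4 : ∑ q ∈ S, ∑ r ∈ S with r < q, (if BAD ψ q r then ov γ ψ q r else 0)
        ≤ K3 * c0 * M := by
      refine le_trans (le_of_eq ?_) (H3 γ ψ c0 S hc0 hc1
        (fun q hq => ⟨hpos q hq, hψ0 q hq, (hS q hq).2.2⟩))
      apply Finset.sum_congr rfl
      intro q _
      rw [← Finset.sum_filter, Finset.filter_filter]
    have t5 : ∑ q ∈ S, ∑ r ∈ S with r < q,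
        (if q < r ^ 4 then K4 * ((WW γ q * ψ q) * (WW γ r * ψ r)) else 0)
        = K4 * ∑ q ∈ S, ∑ r ∈ S with r < q ∧ q < r ^ 4,
            (WW γ q * ψ q) * (WW γ r * ψ r) := by
      rw [Finset.mul_sum]
      apply Finset.sum_congr rfl
      intro q _
      rw [← Finset.sum_filter, Finset.filter_filter, Finset.mul_sum]
    linarith
  have hN0 : 0 ≤ ∑ q ∈ S, ∑ r ∈ S with r < q ∧ q < r ^ 4,
      (WW γ q * ψ q) * (WW γ r * ψ r) := by
    apply Finset.sum_nonneg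
    intro q hq
    apply Finset.sum_nonneg
    intro r hr
    exact mul_nonneg (hμ0 q hq) (hμ0 r (Finset.mem_filter.mp hr).1)
  set N : ℝ := ∑ q ∈ S, ∑ r ∈ S with r < q ∧ q < r ^ 4,
      (WW γ q * ψ q) * (WW γ r * ψ r) with hN
  set D : ℝ := c0 ^ (1 / 8 : ℝ) + Q0 ^ (-(1 / 32) : ℝ) with hDdef
  have hD0 : 0 ≤ D := by
    rw [hDdef]
    have h1 : 0 ≤ c0 ^ (1 / 8 : ℝ) := Real.rpow_nonneg hc0.le _
    have h2 : 0 ≤ Q0 ^ (-(1 / 32) : ℝ) := Real.rpow_nonneg (by linarith) _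
    linarith
  have a1 : 0 ≤ ℓ * M := mul_nonneg hℓ.le hM0
  have a2 : 0 ≤ ℓ * M ^ 2 := by positivity
  have a3 : 0 ≤ D * M := mul_nonneg hD0 hM0
  have a4 : 0 ≤ c0 * M := mul_nonneg hc0.le hM0
  nlinarith [mul_nonneg hK1.le a1, mul_nonneg hK1.le a2, mul_nonneg hK1.le a3,
    mul_nonneg hK1.le a4, mul_nonneg hK1.le hc0.le, mul_nonneg hK1.le hN0,
    mul_nonneg hK2.le a1, mul_nonneg hK2.le a2, mul_nonneg hK2.le a3,
    mul_nonneg hK2.le a4, mul_nonneg hK2.le hc0.le, mul_nonneg hK2.le hN0,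
    mul_nonneg hK3.le a1, mul_nonneg hK3.le a2, mul_nonneg hK3.le a3,
    mul_nonneg hK3.le a4, mul_nonneg hK3.le hc0.le, mul_nonneg hK3.le hN0,
    mul_nonneg hK4.le a1, mul_nonneg hK4.le a2, mul_nonneg hK4.le a3,
    mul_nonneg hK4.le a4, mul_nonneg hK4.le hc0.le, mul_nonneg hK4.le hN0]

end Vale.Agent.P028EV
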