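import Vale.Agent.P028EV.Gdc

/-!
Module PAIR: the overlap of a pair in terms of a count.

`q = g u`, `r = g v`, `v x - u y = 1`.  If `X ∈ [0,1)` lies in `AS q ∩ AS r` there are admissible
`a, b` with `|q X - a - γ| < ψ q`, `|r X - b - γ| < ψ r`.  Put `t = v a - u b`,
`k = b x - a y` (so `a = t x + k u`, `b = t y + k v`: the matrix is unimodular).  Then
`|t + γ (v - u)| = |v (a + γ) - u (b + γ)| < v ψ q + u ψ r` (because `v q = u r`), so
`t ∈ Ts`, and `a ∈ (-γ - ψ q, q - γ + ψ q)`, so that for given `t` the integer `k` lies in an open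
interval of length `≤ g + 1/2`, hence in a set of at most `g + 1 ≤ 2 g` consecutive integers.
The condition is periodic in `k` mod `g` (`Gd_add`), so there are at most
`2 #{k < g : ...}` such `k` for each `t`.
For each `(a,b)` the set of `X` is contained in an interval of length `2 ψ q / q` and in one of
length `2 ψ r / r`.
-/

namespace Vale.Agent.P028EV

open Finset MeasureTheory

/-- length of the set of `X` with `|q X - a - γ| < ε` -/
theorem pair_vol (q : ℕ) (hq : 0 < q) (a : ℤ) (γ ε : ℝ) :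
    volume {X : ℝ | |(q : ℝ) * X - a - γ| < ε} ≤ ENNReal.ofReal (2 * ε / q) := by
  have hq' : (0 : ℝ) < q := by exact_mod_cast hq
  have hsub : {X : ℝ | |(q : ℝ) * X - a - γ| < ε} ⊆
      Set.Ioo ((a + γ - ε) / q) ((a + γ + ε) / q) := by
    intro X hX
    have hX' : |(q : ℝ) * X - a - γ| < ε := hX
    rw [abs_lt] at hX'
    constructor
    · rw [div_lt_iff₀ hq']; linarith [hX'.1]
    · rw [lt_div_iff₀ hq']; linarith [hX'.2]
  refine (measure_mono hsub).trans ?_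
  rw [Real.volume_Ioo]
  refine le_of_eq ?_
  congr 1
  ring

/-- a condition periodic mod `g` is satisfied at most as often on `g` consecutive integers as
on `range g` -/
theorem pair_per (g : ℕ) (hg : 0 < g) (P : ℤ → Prop) [DecidablePred P]
    [DecidablePred fun k : ℕ => P (k : ℤ)] (hP : ∀ k : ℤ, ∀ j : ℤ, P (k + j * g) ↔ P k)
    (K0 : ℤ) :
    ((Finset.Ico K0 (K0 + g)).filter P).card ≤
      ((Finset.range g).filter (fun k : ℕ => P (k : ℤ))).card := by
  have hg' : (0 : ℤ) < g := by exact_mod_cast hg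
  refine Finset.card_le_card_of_injOn (fun k : ℤ => (k % (g : ℤ)).toNat) ?_ ?_
  · intro k hk
    have hk' := (Finset.mem_filter.1 (Finset.mem_coe.1 hk))
    have h0 := Int.emod_nonneg k hg'.ne'
    have h1 := Int.emod_lt_of_pos k hg'
    refine Finset.mem_coe.2 (Finset.mem_filter.2 ⟨Finset.mem_range.2 ?_, ?_⟩)
    · show (k % (g : ℤ)).toNat < g
      omega
    · show P (((k % (g : ℤ)).toNat : ℕ) : ℤ)
      rw [Int.toNat_of_nonneg h0]
      have h2 := hP (k % (g : ℤ)) (k / (g : ℤ))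
      rw [mul_comm, Int.emod_add_mul_ediv] at h2
      exact h2.1 hk'.2
  · intro k hk k' hk' hkk
    have hk1 := Finset.mem_Ico.1 (Finset.mem_filter.1 (Finset.mem_coe.1 hk)).1
    have hk1' := Finset.mem_Ico.1 (Finset.mem_filter.1 (Finset.mem_coe.1 hk')).1
    have h0 := Int.emod_nonneg k hg'.ne'
    have h0' := Int.emod_nonneg k' hg'.ne'
    have hmod : k % (g : ℤ) = k' % (g : ℤ) := by
      have : (k % (g : ℤ)).toNat = (k' % (g : ℤ)).toNat := hkk
      omega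
    have hdvd : (g : ℤ) ∣ k - k' := Int.ModEq.dvd (show k' ≡ k [ZMOD g] from hmod.symm)
    have habs : |k - k'| < (g : ℤ) := by rw [abs_lt]; constructor <;> omega
    have := Int.eq_zero_of_abs_lt_dvd hdvd habs
    omega

theorem pair_per2 (g : ℕ) (hg : 0 < g) (P : ℤ → Prop) [DecidablePred P]
    [DecidablePred fun k : ℕ => P (k : ℤ)] (hP : ∀ k : ℤ, ∀ j : ℤ, P (k + j * g) ↔ P k)
    (K0 : ℤ) :
    ((Finset.Ico K0 (K0 + 2 * g)).filter P).card ≤
      2 * ((Finset.range g).filter (fun k : ℕ => P (k : ℤ))).card := by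
  have hsub : (Finset.Ico K0 (K0 + 2 * g)).filter P ⊆ (Finset.Ico K0 (K0 + g)).filter P ∪
      (Finset.Ico (K0 + g) (K0 + g + g)).filter P := by
    intro k hk
    have hk' := Finset.mem_filter.1 hk
    have hk1 := Finset.mem_Ico.1 hk'.1
    rw [Finset.mem_union, Finset.mem_filter, Finset.mem_filter, Finset.mem_Ico, Finset.mem_Ico]
    by_cases hc : k < K0 + g
    · exact Or.inl ⟨⟨hk1.1, hc⟩, hk'.2⟩
    · exact Or.inr ⟨⟨by omega, by omega⟩, hk'.2⟩
  have h2 := (Finset.card_le_card hsub).trans (Finset.card_union_le _ _)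
  have h3 := pair_per g hg P hP K0
  have h4 := pair_per g hg P hP (K0 + g)
  omega

/-- the covering of one point: the integers `t`, `k` -/
theorem pair_point (γ Q R s1 s2 X : ℝ) (g u v : ℕ) (hu : 0 < u) (hv : 0 < v)
    (hQ : Q = g * u) (hR : R = g * v) (h1 : s1 ≤ 1 / 4) (hg : 0 < g)
    (x y a b : ℤ) (hxy : (v : ℤ) * x - (u : ℤ) * y = 1)
    (ha : |Q * X - a - γ| < s1) (hb : |R * X - b - γ| < s2) (hX0 : 0 ≤ X) (hX1 : X < 1) :
    ∃ t k : ℤ, t * x + k * u = a ∧ t * y + k * v = b ∧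
      |(t : ℝ) + γ * (((v : ℤ) - (u : ℤ) : ℤ) : ℝ)| < v * s1 + u * s2 ∧
      ⌊(-γ - s1 - t * x) / u⌋ + 1 ≤ k ∧ k < ⌊(-γ - s1 - t * x) / u⌋ + 1 + 2 * g := by
  have hu' : (0 : ℝ) < u := by exact_mod_cast hu
  have hv' : (0 : ℝ) < v := by exact_mod_cast hv
  have hg' : (0 : ℝ) < g := by exact_mod_cast hg
  have hu1 : (1 : ℝ) ≤ u := by exact_mod_cast hu
  have hg1 : (1 : ℝ) ≤ g := by exact_mod_cast hg
  refine ⟨v * a - u * b, b * x - a * y, ?_, ?_, ?_, ?_, ?_⟩
  · linear_combination a * hxy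
  · linear_combination b * hxy
  · have e3 : ((v * a - u * b : ℤ) : ℝ) + γ * (((v : ℤ) - (u : ℤ) : ℤ) : ℝ) =
        (u : ℝ) * (R * X - b - γ) - (v : ℝ) * (Q * X - a - γ) := by
      rw [hQ, hR]; push_cast; ring
    rw [e3]
    calc |(u : ℝ) * (R * X - b - γ) - (v : ℝ) * (Q * X - a - γ)|
        ≤ |(u : ℝ) * (R * X - b - γ)| + |(v : ℝ) * (Q * X - a - γ)| := abs_sub _ _
      _ = u * |R * X - b - γ| + v * |Q * X - a - γ| := by
          rw [abs_mul, abs_mul, abs_of_pos hu', abs_of_pos hv']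
      _ < u * s2 + v * s1 := by gcongr
      _ = v * s1 + u * s2 := by ring
  all_goals
    set t : ℤ := v * a - u * b with ht
    set k : ℤ := b * x - a * y with hk
    have ea : t * x + k * u = a := by
      rw [ht, hk]; linear_combination a * hxy
    have haX' := abs_lt.1 ha
    have ear : (a : ℝ) = t * x + k * u := by
      have := congrArg (fun z : ℤ => (z : ℝ)) ea
      push_cast at this
      linarith
  · have hlok : (-γ - s1 - t * x) / u < (k : ℝ) := by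
      have hqX0 : 0 ≤ Q * X := by rw [hQ]; positivity
      rw [div_lt_iff₀ hu']
      linarith [haX'.2]
    have := Int.floor_lt.2 hlok
    omega
  · have hqX1 : Q * X < g * u := by
      rw [hQ]
      calc (g : ℝ) * u * X < (g : ℝ) * u * 1 := by gcongr
        _ = g * u := by ring
    have hkhi : (k : ℝ) < (-γ - s1 - t * x) / u + g + 1 / 2 := by
      have : (k : ℝ) * u < ((-γ - s1 - t * x) / u + g + 1 / 2) * u := by
        have e4 : (-γ - s1 - t * x) / u * u = -γ - s1 - t * x := by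
          field_simp
        have e5 : ((-γ - s1 - t * x) / u + g + 1 / 2) * u = (-γ - s1 - t * x) + g * u + u / 2 := by
          rw [add_mul, add_mul, e4]; ring
        rw [e5]
        linarith [haX'.1]
      exact lt_of_mul_lt_mul_right this hu'.le
    have h5 : (k : ℝ) < ((⌊(-γ - s1 - t * x) / u⌋ + 1 + 2 * g : ℤ) : ℝ) := by
      push_cast
      have := Int.lt_floor_add_one ((-γ - s1 - t * x) / u)
      linarith
    exact_mod_cast h5

open Classical in
theorem pair_main (γ : ℝ) (ψ : ℕ → ℝ) (g u v : ℕ) (hg : 0 < g) (hu : 0 < u) (hv : 0 < v)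
    (h0 : 0 ≤ ψ (g * u)) (h0' : 0 ≤ ψ (g * v))
    (h1 : ψ (g * u) ≤ 1 / 4) (x y : ℤ)
    (hxy : (v : ℤ) * x - (u : ℤ) * y = 1) (P : ℤ → ℤ → Prop)
    (hP : ∀ t k, P t k ↔ (Gd γ (g * u) (t * x + k * u) ∧ Gd γ (g * v) (t * y + k * v))) (mn : ℝ)
    (hmn : mn = min (ψ (g * u) / ((g * u : ℕ) : ℝ)) (ψ (g * v) / ((g * v : ℕ) : ℝ)))
    (T : Finset ℤ)
    (hT : T = Ts γ ((v : ℤ) - (u : ℤ)) ((v : ℝ) * ψ (g * u) + (u : ℝ) * ψ (g * v))) :
    ov γ ψ (g * u) (g * v) ≤
      4 * mn * ∑ t ∈ T, (((Finset.range g).filter (fun k : ℕ => P t (k : ℤ))).card : ℝ) := by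
  have hq : 0 < g * u := Nat.mul_pos hg hu
  have hr : 0 < g * v := Nat.mul_pos hg hv
  have hPper : ∀ t k j : ℤ, P t (k + j * g) ↔ P t k := by
    intro t k j
    have e1 : t * x + (k + j * g) * (u : ℤ) = (t * x + k * u) + j * ((g * u : ℕ) : ℤ) := by
      push_cast; ring
    have e2 : t * y + (k + j * g) * (v : ℤ) = (t * y + k * v) + j * ((g * v : ℕ) : ℤ) := by
      push_cast; ring
    rw [hP, hP, e1, e2, Gd_add, Gd_add]
  obtain ⟨K, hK⟩ : ∃ K : ℤ → Finset ℤ, ∀ t, K t = (Finset.Ico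
      (⌊(-γ - ψ (g * u) - t * x) / u⌋ + 1) (⌊(-γ - ψ (g * u) - t * x) / u⌋ + 1 + 2 * g)).filter
        (P t) := ⟨_, fun _ => rfl⟩
  have hKcard : ∀ t, (K t).card ≤ 2 * ((Finset.range g).filter (fun k : ℕ => P t (k : ℤ))).card := by
    intro t
    rw [hK]
    exact pair_per2 g hg (P t) (hPper t) _
  have hmn0 : 0 ≤ mn := by
    rw [hmn]
    exact le_min (div_nonneg h0 (Nat.cast_nonneg _)) (div_nonneg h0' (Nat.cast_nonneg _))
  obtain ⟨I, hI⟩ : ∃ I : (Σ _ : ℤ, ℤ) → Set ℝ, ∀ p, I p =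
    {X : ℝ | |((g * u : ℕ) : ℝ) * X - ((p.1 * x + p.2 * u : ℤ) : ℝ) - γ| < ψ (g * u)} ∩
    {X : ℝ | |((g * v : ℕ) : ℝ) * X - ((p.1 * y + p.2 * v : ℤ) : ℝ) - γ| < ψ (g * v)} :=
      ⟨_, fun _ => rfl⟩
  have hIvol : ∀ p, volume (I p) ≤ ENNReal.ofReal (2 * mn) := by
    intro p
    rw [hmn, mul_min_of_nonneg _ _ (by norm_num : (0 : ℝ) ≤ 2),
      (ENNReal.ofReal_mono).map_min, le_min_iff, hI]
    constructor
    · refine (measure_mono Set.inter_subset_left).trans ?_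
      rw [← mul_div_assoc]
      exact pair_vol (g * u) hq _ γ _
    · refine (measure_mono Set.inter_subset_right).trans ?_
      rw [← mul_div_assoc]
      exact pair_vol (g * v) hr _ γ _
  have hcov : AS γ ψ (g * u) ∩ AS γ ψ (g * v) ∩ Set.Ico (0 : ℝ) 1 ⊆
      ⋃ p ∈ T.sigma K, I p := by
    rintro X ⟨⟨⟨a, ha, haX⟩, ⟨b, hb, hbX⟩⟩, hX0, hX1⟩
    obtain ⟨t, k, ea, eb, ht, hk1, hk2⟩ := pair_point γ ((g * u : ℕ) : ℝ) ((g * v : ℕ) : ℝ)
      (ψ (g * u)) (ψ (g * v)) X g u v hu hv (by push_cast; ring) (by push_cast; ring) h1 hg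
      x y a b hxy haX hbX hX0 hX1
    have htT : t ∈ T := by
      rw [hT, mem_Ts]
      exact ht
    have hkK : k ∈ K t := by
      rw [hK, Finset.mem_filter, Finset.mem_Ico, hP, ea, eb]
      exact ⟨⟨hk1, hk2⟩, ha, hb⟩
    refine Set.mem_iUnion₂.2 ⟨⟨t, k⟩, Finset.mem_sigma.2 ⟨htT, hkK⟩, ?_⟩
    rw [hI]
    refine ⟨?_, ?_⟩
    · show |((g * u : ℕ) : ℝ) * X - ((t * x + k * u : ℤ) : ℝ) - γ| < ψ (g * u)
      rw [ea]; exact haX
    · show |((g * v : ℕ) : ℝ) * X - ((t * y + k * v : ℤ) : ℝ) - γ| < ψ (g * v)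
      rw [eb]; exact hbX
  have hsum0 : 0 ≤ ∑ t ∈ T, (((Finset.range g).filter (fun k : ℕ => P t (k : ℤ))).card : ℝ) :=
    Finset.sum_nonneg fun _ _ => Nat.cast_nonneg _
  have hmain : volume (AS γ ψ (g * u) ∩ AS γ ψ (g * v) ∩ Set.Ico (0 : ℝ) 1) ≤
      ENNReal.ofReal (4 * mn * ∑ t ∈ T,
        (((Finset.range g).filter (fun k : ℕ => P t (k : ℤ))).card : ℝ)) := by
    have e0 : ENNReal.ofReal ((∑ t ∈ T, ((K t).card : ℝ)) * (2 * mn)) =
        ((∑ t ∈ T, (K t).card : ℕ) : ENNReal) * ENNReal.ofReal (2 * mn) := by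
      rw [← Nat.cast_sum, ENNReal.ofReal_mul (Nat.cast_nonneg _), ENNReal.ofReal_natCast]
    calc volume (AS γ ψ (g * u) ∩ AS γ ψ (g * v) ∩ Set.Ico (0 : ℝ) 1)
        ≤ volume (⋃ p ∈ T.sigma K, I p) := measure_mono hcov
      _ ≤ ∑ p ∈ T.sigma K, volume (I p) := measure_biUnion_finset_le _ _
      _ ≤ ∑ p ∈ T.sigma K, ENNReal.ofReal (2 * mn) := Finset.sum_le_sum fun p _ => hIvol p
      _ = ENNReal.ofReal ((∑ t ∈ T, ((K t).card : ℝ)) * (2 * mn)) := by
          rw [e0, Finset.sum_const, Finset.card_sigma, nsmul_eq_mul]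
      _ ≤ ENNReal.ofReal (4 * mn * ∑ t ∈ T,
            (((Finset.range g).filter (fun k : ℕ => P t (k : ℤ))).card : ℝ)) := by
          refine ENNReal.ofReal_le_ofReal ?_
          have h6 : (∑ t ∈ T, ((K t).card : ℝ)) ≤
              2 * ∑ t ∈ T, (((Finset.range g).filter (fun k : ℕ => P t (k : ℤ))).card : ℝ) := by
            rw [Finset.mul_sum]
            refine Finset.sum_le_sum fun t _ => ?_
            exact_mod_cast hKcard t
          calc (∑ t ∈ T, ((K t).card : ℝ)) * (2 * mn)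
              ≤ (2 * ∑ t ∈ T, (((Finset.range g).filter (fun k : ℕ => P t (k : ℤ))).card : ℝ))
                * (2 * mn) := mul_le_mul_of_nonneg_right h6 (mul_nonneg (by norm_num) hmn0)
            _ = 4 * mn * ∑ t ∈ T,
                (((Finset.range g).filter (fun k : ℕ => P t (k : ℤ))).card : ℝ) := by ring
  exact ENNReal.toReal_le_of_le_ofReal (mul_nonneg (mul_nonneg (by norm_num) hmn0) hsum0) hmain

open Classical in
theorem pair_ov (γ : ℝ) (ψ : ℕ → ℝ) (g u v : ℕ) (hg : 0 < g) (hu : 0 < u) (hv : 0 < v)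
    (huv : Nat.Coprime u v) (h0 : 0 ≤ ψ (g * u)) (h0' : 0 ≤ ψ (g * v))
    (h1 : ψ (g * u) ≤ 1 / 4) (h1' : ψ (g * v) ≤ 1 / 4) (x y : ℤ)
    (hxy : (v : ℤ) * x - (u : ℤ) * y = 1) :
    ov γ ψ (g * u) (g * v) ≤
      4 * min (ψ (g * u) / ((g * u : ℕ) : ℝ)) (ψ (g * v) / ((g * v : ℕ) : ℝ)) *
        ∑ t ∈ Ts γ ((v : ℤ) - (u : ℤ)) ((v : ℝ) * ψ (g * u) + (u : ℝ) * ψ (g * v)),
          (((Finset.range g).filter (fun k : ℕ =>
            Gd γ (g * u) (t * x + k * u) ∧ Gd γ (g * v) (t * y + k * v))).card : ℝ) := by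
  have h := pair_main γ ψ g u v hg hu hv h0 h0' h1 x y hxy
    (fun t k => Gd γ (g * u) (t * x + k * u) ∧ Gd γ (g * v) (t * y + k * v))
    (fun _ _ => Iff.rfl) _ rfl _ rfl
  refine h.trans (mul_le_mul_of_nonneg_left (Finset.sum_le_sum fun t _ => ?_) ?_)
  · refine Nat.cast_le.2 (Finset.card_le_card fun k hk => ?_)
    have hk' := (@Finset.mem_filter _ _ (_) _ _).1 hk
    exact (@Finset.mem_filter _ _ (_) _ _).2 hk'
  · exact mul_nonneg (by norm_num)
      (le_min (div_nonneg h0 (Nat.cast_nonneg _)) (div_nonneg h0' (Nat.cast_nonneg _)))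

end Vale.Agent.P028EV
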