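import Vale.Agent.P028EV.Local
import Vale.Agent.P028EV.Full
import Vale.Agent.P028EV.Gdc
import Vale.Agent.P028EV.Weights

/-!
Module RES: the inhomogeneous Erdos-Vaaler theorem for all shifts.
`AS γ ψ q ⊆ {x | ∃ a, |q x - a - γ| < ψ q}`; `¬ Summable (φ(q)/q ψ q)` and `ww ≤ WW`
(`ww_eq`) give `¬ Summable (WW ψ)`; `local_pos`, `full_of_local` (periodicity: `Gd_add`).
-/

namespace Vale.Agent.P028EV

open Finset MeasureTheory

theorem res_per (γ : ℝ) (ψ : ℕ → ℝ) (q : ℕ) (x : ℝ) : x ∈ AS γ ψ q ↔ x + 1 ∈ AS γ ψ q := by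
  constructor
  · rintro ⟨a, ha, h⟩
    refine ⟨a + 1 * q, (Gd_add γ q a 1).2 ha, ?_⟩
    have e : (q : ℝ) * (x + 1) - ((a + 1 * q : ℤ) : ℝ) - γ = (q : ℝ) * x - a - γ := by
      push_cast
      ring
    rw [e]
    exact h
  · rintro ⟨a, ha, h⟩
    refine ⟨a + (-1) * q, (Gd_add γ q a (-1)).2 ha, ?_⟩
    have e : (q : ℝ) * x - ((a + (-1) * q : ℤ) : ℝ) - γ = (q : ℝ) * (x + 1) - a - γ := by
      push_cast
      ring
    rw [e]
    exact h

theorem erdos_vaaler (γ : ℝ) (ψ : ℕ → ℝ) (hψ : ∀ q, 0 ≤ ψ q) (C : ℝ)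
    (hC : ∀ q : ℕ, 1 ≤ q → ψ q ≤ C / q)
    (hdiv : ¬ Summable (fun q : ℕ => (Nat.totient q : ℝ) / q * ψ q)) :
    volume {x : ℝ | {q : ℕ | 1 ≤ q ∧ ∃ a : ℤ, |(q : ℝ) * x - a - γ| < ψ q}.Infinite}ᶜ = 0 := by
  obtain ⟨c, hc, hloc⟩ := local_pos
  have hns : ¬ Summable (fun q => WW γ q * ψ q) := by
    intro hs
    apply hdiv
    refine Summable.of_nonneg_of_le (fun q => mul_nonneg (by positivity) (hψ q)) (fun q => ?_) hs
    refine mul_le_mul_of_nonneg_right ?_ (hψ q)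
    rcases Nat.eq_zero_or_pos q with rfl | hq
    · simp only [Nat.cast_zero, div_zero]
      exact (WW_pos γ 0).le
    · rw [ww_eq hq]
      exact ww_le_WW γ q
  have hfull := full_of_local (fun q => AS γ ψ q) (fun q => (AS_isOpen γ ψ q).measurableSet)
    (fun q x => res_per γ ψ q x) c hc
    (fun x0 ℓ h1 h2 h3 h4 N => hloc γ ψ C hψ hC hns x0 ℓ h1 h2 h3 h4 N)
  refine measure_mono_null ?_ hfull
  refine Set.compl_subset_compl.2 fun x hx => ?_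
  have hx' : {q : ℕ | x ∈ AS γ ψ q}.Infinite := hx
  have h1 := hx'.sdiff (Set.finite_singleton 0)
  refine h1.mono fun q hq => ?_
  obtain ⟨⟨a, -, ha⟩, hq0⟩ := hq
  exact ⟨Nat.one_le_iff_ne_zero.2 hq0, a, ha⟩

end Vale.Agent.P028EV
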