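import Vale.Agent.P028EV.Ov
import Vale.Agent.P028EV.Weights
import Vale.Agent.P028EV.Alpha2
import Vale.Agent.P028EV.Beta2

/-!
Module S1: the nondegenerate close pairs.

`α = (q/r)^{5/8} exp (4 Phi r' - 4 Phi q')`, `1 ≤ α + α⁻¹`.
`ov ≤ α ov + α⁻¹ ov`; first term: `ov_le_q`, `#Ts ≤ 1` (`Del < 1/2`), `min ≤ ψ q/q`,
`gcd/q = 1/q'`, so `α ov ≤ 4 ψ q WW q · [summand of alpha_sum]`; second term: `ov_le_r`, so
`α⁻¹ ov ≤ 4 WW r · [summand of beta_sum]`.  Sum (exchange the order in the second sum);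
`c0^{1/2} ≤ c0^{1/8}`.
-/

namespace Vale.Agent.P028EV

open Finset MeasureTheory

theorem S1_amgm {a o : ℝ} (ha : 0 < a) (ho : 0 ≤ o) : o ≤ a * o + a⁻¹ * o := by
  have h : 1 ≤ a + a⁻¹ := by
    rcases le_total 1 a with h | h
    · have := inv_pos.2 ha
      linarith
    · have := (one_le_inv₀ ha).2 h
      linarith
  nlinarith

/-- the weight -/
noncomputable def S1_al (q r : ℕ) : ℝ :=
  ((q : ℝ) / r) ^ (5 / 8 : ℝ) * Real.exp (4 * Phi (r1 q r) - 4 * Phi (q1 q r))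

theorem S1_al_inv {q r : ℕ} (hq : 0 < q) (hr : 0 < r) : (S1_al q r)⁻¹ =
    ((r : ℝ) / q) ^ (5 / 8 : ℝ) * Real.exp (4 * Phi (q1 q r) - 4 * Phi (r1 q r)) := by
  unfold S1_al
  rw [mul_inv, ← Real.exp_neg, ← Real.inv_rpow (by positivity), inv_div]
  congr 2
  ring

theorem S1_al_pos {q r : ℕ} (hq : 0 < q) (hr : 0 < r) : 0 < S1_al q r := by
  unfold S1_al
  have hq' : (0 : ℝ) < q := by exact_mod_cast hq
  have hr' : (0 : ℝ) < r := by exact_mod_cast hr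
  positivity

theorem S1_point (γ : ℝ) (ψ : ℕ → ℝ) (q r : ℕ) (hq : 0 < q) (hr : 0 < r)
    (h0 : 0 ≤ ψ q) (h0' : 0 ≤ ψ r) (h1 : ψ q ≤ 1 / 4) (h1' : ψ r ≤ 1 / 4)
    (hD : Del ψ q r < 1 / 2) :
    ov γ ψ q r ≤ 4 * (WW γ q * ψ q) * (((q : ℝ) / r) ^ (5 / 8 : ℝ) *
        Real.exp (4 * Phi (r1 q r) - 4 * Phi (q1 q r)) / ((q1 q r : ℝ) * ww (q1 q r)))
      + 4 * WW γ r * (((r : ℝ) / q) ^ (5 / 8 : ℝ) *
        Real.exp (4 * Phi (q1 q r) - 4 * Phi (r1 q r)) *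
        ((Nat.gcd q r : ℝ) * min (ψ q / q) (ψ r / r)) / ww (r1 q r)) := by
  have hq' : (0 : ℝ) < q := by exact_mod_cast hq
  have hr' : (0 : ℝ) < r := by exact_mod_cast hr
  have hg : 0 < Nat.gcd q r := Nat.gcd_pos_of_pos_left _ hq
  have hg' : (0 : ℝ) < (Nat.gcd q r : ℝ) := by exact_mod_cast hg
  have hq1 : (q1 q r : ℝ) * (Nat.gcd q r : ℝ) = q := by exact_mod_cast q1_mul q r
  have hq1' : (0 : ℝ) < (q1 q r : ℝ) := by
    rcases lt_or_ge 0 (q1 q r : ℝ) with h | h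
    · exact h
    · nlinarith
  have hT : ((Ts γ (hh q r) (Del ψ q r)).card : ℝ) ≤ 1 := by
    exact_mod_cast card_Ts_le_one γ (hh q r) (Del ψ q r) hD.le
  have hT0 : (0 : ℝ) ≤ ((Ts γ (hh q r) (Del ψ q r)).card : ℝ) := Nat.cast_nonneg _
  have hm0 : 0 ≤ min (ψ q / q) (ψ r / r) := le_min (by positivity) (by positivity)
  have hwq := ww_pos (q1 q r)
  have hwr := ww_pos (r1 q r)
  have hWq := WW_pos γ q
  have hWr := WW_pos γ r
  have hal := S1_al_pos hq hr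
  have hbase := S1_amgm hal (ov_nonneg γ ψ q r)
  have e1 : S1_al q r * ov γ ψ q r ≤ 4 * (WW γ q * ψ q) * (S1_al q r / ((q1 q r : ℝ) * ww (q1 q r))) := by
    have a1 := ov_le_q γ ψ q r hq hr h0 h0' h1 h1'
    have a2 : 4 * min (ψ q / q) (ψ r / r) * ((Ts γ (hh q r) (Del ψ q r)).card : ℝ) *
        ((Nat.gcd q r : ℝ) * (WW γ q * (ww (q1 q r))⁻¹))
        ≤ 4 * (ψ q / q) * 1 * ((Nat.gcd q r : ℝ) * (WW γ q * (ww (q1 q r))⁻¹)) := by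
      have b1 : min (ψ q / q) (ψ r / r) ≤ ψ q / q := min_le_left _ _
      have b2 : 0 ≤ ψ q / q := by positivity
      have b3 : 4 * min (ψ q / q) (ψ r / r) * ((Ts γ (hh q r) (Del ψ q r)).card : ℝ)
          ≤ 4 * (ψ q / q) * 1 :=
        mul_le_mul (by linarith) hT hT0 (by positivity)
      exact mul_le_mul_of_nonneg_right b3 (by positivity)
    have a3 := mul_le_mul_of_nonneg_left (a1.trans a2) hal.le
    refine a3.trans (le_of_eq ?_)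
    have a4 : (q : ℝ) = (q1 q r : ℝ) * (Nat.gcd q r : ℝ) := hq1.symm
    rw [a4]
    field_simp
  have e2 : (S1_al q r)⁻¹ * ov γ ψ q r ≤ 4 * WW γ r * ((S1_al q r)⁻¹ *
      ((Nat.gcd q r : ℝ) * min (ψ q / q) (ψ r / r)) / ww (r1 q r)) := by
    have a1 := ov_le_r γ ψ q r hq hr h0 h0' h1 h1'
    have a2 : 4 * min (ψ q / q) (ψ r / r) * ((Ts γ (hh q r) (Del ψ q r)).card : ℝ) *
        ((Nat.gcd q r : ℝ) * (WW γ r * (ww (r1 q r))⁻¹))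
        ≤ 4 * min (ψ q / q) (ψ r / r) * 1 * ((Nat.gcd q r : ℝ) * (WW γ r * (ww (r1 q r))⁻¹)) := by
      have b3 : 4 * min (ψ q / q) (ψ r / r) * ((Ts γ (hh q r) (Del ψ q r)).card : ℝ)
          ≤ 4 * min (ψ q / q) (ψ r / r) * 1 :=
        mul_le_mul_of_nonneg_left hT (by positivity)
      exact mul_le_mul_of_nonneg_right b3 (by positivity)
    have a3 := mul_le_mul_of_nonneg_left (a1.trans a2) (inv_nonneg.2 hal.le)
    refine a3.trans (le_of_eq ?_)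
    ring
  rw [S1_al_inv hq hr] at e2 hbase
  unfold S1_al at e1 hbase
  linarith

open Classical in
theorem sum_ND : ∃ K : ℝ, 0 < K ∧ ∀ (γ : ℝ) (ψ : ℕ → ℝ) (c0 Q0 : ℝ) (S : Finset ℕ),
    0 < c0 → c0 ≤ 1 / 4 → 1 ≤ Q0 →
    (∀ q ∈ S, Q0 ≤ (q : ℝ) ∧ (q : ℝ) ^ (-(5 / 4) : ℝ) ≤ ψ q ∧ ψ q ≤ c0 / q) →
    ∑ q ∈ S, ∑ r ∈ S with r < q ∧ ND γ ψ q r, ov γ ψ q r
      ≤ K * (c0 ^ (1 / 8 : ℝ) + Q0 ^ (-(1 / 32) : ℝ)) * ∑ q ∈ S, WW γ q * ψ q := by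
  obtain ⟨K₁, hK₁, h₁⟩ := alpha_sum
  obtain ⟨K₂, hK₂, h₂⟩ := beta_sum
  refine ⟨4 * K₁ + 4 * K₂, by positivity, fun γ ψ c0 Q0 S hc0 hc4 hQ0 hS => ?_⟩
  have hpos : ∀ q ∈ S, 0 < q := by
    intro q hq
    have h := (hS q hq).1
    have h2 : (0 : ℝ) < q := by linarith
    exact_mod_cast h2
  have hψ0 : ∀ q ∈ S, 0 ≤ ψ q := by
    intro q hq
    have h := (hS q hq).2.1
    have h2 : (0 : ℝ) ≤ (q : ℝ) ^ (-(5 / 4) : ℝ) := by positivity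
    linarith
  have hψ4 : ∀ q ∈ S, ψ q ≤ 1 / 4 := by
    intro q hq
    have h := (hS q hq).2.2
    have h1 : (1 : ℝ) ≤ q := by exact_mod_cast hpos q hq
    have h2 : c0 / q ≤ c0 := div_le_self hc0.le h1
    linarith
  set E : ℝ := c0 ^ (1 / 8 : ℝ) + Q0 ^ (-(1 / 32) : ℝ) with hE
  have hE0 : 0 ≤ E := by positivity
  have hcE : c0 ^ (1 / 2 : ℝ) ≤ E := by
    have h1 : c0 ^ (1 / 2 : ℝ) ≤ c0 ^ (1 / 8 : ℝ) :=
      Real.rpow_le_rpow_of_exponent_ge hc0 (by linarith) (by norm_num)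
    have h2 : (0 : ℝ) ≤ Q0 ^ (-(1 / 32) : ℝ) := by positivity
    linarith
  have hstep : ∑ q ∈ S, ∑ r ∈ S with r < q ∧ ND γ ψ q r, ov γ ψ q r
      ≤ ∑ q ∈ S, ∑ r ∈ S with r < q ∧ ND γ ψ q r,
        (4 * (WW γ q * ψ q) * (((q : ℝ) / r) ^ (5 / 8 : ℝ) *
        Real.exp (4 * Phi (r1 q r) - 4 * Phi (q1 q r)) / ((q1 q r : ℝ) * ww (q1 q r)))
      + 4 * WW γ r * (((r : ℝ) / q) ^ (5 / 8 : ℝ) *
        Real.exp (4 * Phi (q1 q r) - 4 * Phi (r1 q r)) *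
        ((Nat.gcd q r : ℝ) * min (ψ q / q) (ψ r / r)) / ww (r1 q r))) := by
    refine Finset.sum_le_sum fun q hq => Finset.sum_le_sum fun r hr => ?_
    rw [Finset.mem_filter] at hr
    exact S1_point γ ψ q r (hpos q hq) (hpos r hr.1) (hψ0 q hq) (hψ0 r hr.1) (hψ4 q hq)
      (hψ4 r hr.1) hr.2.2.1
  refine hstep.trans ?_
  simp only [Finset.sum_add_distrib]
  have hA : ∑ q ∈ S, ∑ r ∈ S with r < q ∧ ND γ ψ q r,
        4 * (WW γ q * ψ q) * (((q : ℝ) / r) ^ (5 / 8 : ℝ) *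
        Real.exp (4 * Phi (r1 q r) - 4 * Phi (q1 q r)) / ((q1 q r : ℝ) * ww (q1 q r)))
      ≤ 4 * K₁ * E * ∑ q ∈ S, WW γ q * ψ q := by
    rw [Finset.mul_sum]
    refine Finset.sum_le_sum fun q hq => ?_
    rw [← Finset.mul_sum]
    have h := h₁ γ ψ c0 Q0 S q hc0 hc4 hQ0
      (fun r hr => ⟨(hS r hr).1, hψ0 r hr, (hS r hr).2.2⟩) hq
    have hW : 0 ≤ 4 * (WW γ q * ψ q) := by
      have := WW_pos γ q
      have := hψ0 q hq
      positivity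
    calc _ ≤ 4 * (WW γ q * ψ q) * (K₁ * E) := mul_le_mul_of_nonneg_left h hW
      _ = _ := by ring
  have hB : ∑ q ∈ S, ∑ r ∈ S with r < q ∧ ND γ ψ q r,
        4 * WW γ r * (((r : ℝ) / q) ^ (5 / 8 : ℝ) *
        Real.exp (4 * Phi (q1 q r) - 4 * Phi (r1 q r)) *
        ((Nat.gcd q r : ℝ) * min (ψ q / q) (ψ r / r)) / ww (r1 q r))
      ≤ 4 * K₂ * E * ∑ q ∈ S, WW γ q * ψ q := by
    rw [Finset.sum_comm' (t' := S) (s' := fun r => S.filter fun q => r < q ∧ ND γ ψ q r)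
      (by
        intro q r
        simp only [Finset.mem_filter]
        tauto)]
    rw [Finset.mul_sum]
    refine Finset.sum_le_sum fun r hr => ?_
    rw [← Finset.mul_sum]
    have h := h₂ γ ψ c0 S r hc0 hc4
      (fun q hq => ⟨hpos q hq, hψ0 q hq, (hS q hq).2.2⟩) hr (hS r hr).2.1
    have hW : 0 ≤ 4 * WW γ r := by
      have := WW_pos γ r
      positivity
    have hr0 := hψ0 r hr
    calc _ ≤ 4 * WW γ r * (K₂ * (c0 ^ (1 / 2 : ℝ) * ψ r)) := mul_le_mul_of_nonneg_left h hW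
      _ ≤ 4 * WW γ r * (K₂ * (E * ψ r)) := by gcongr
      _ = _ := by ring
  have hsum := add_le_add hA hB
  refine hsum.trans (le_of_eq ?_)
  ring

end Vale.Agent.P028EV
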