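import Vale.Agent.P028EV.Sieve

/-!
Module TS1: the two-sided count over one period.

Call `(a,b) = (t x + k u, t y + k v)`; the matrix `(x, u; y, v)` has determinant
`x v - u y = 1`.  The condition depends only on `t` mod `P` and on `k` mod `P`, and is also
periodic in `k` mod `g` (`p ∣ g u` for `p ∈ P1`, `p ∣ g v` for `p ∈ P2`).  So
`P · LHS = #{(t,k) ∈ [τ,τ+P) × [0,gP)} = g · #{(t,k) mod P} = g · #{a mod P: ...} #{b mod P: ...}`
(the linear map is a bijection of `(ZMod P)²`), and each factor is `P ∏ (1 - 1/p)` by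
`count_exact`.
-/

namespace Vale.Agent.P028EV

open Finset MeasureTheory

private theorem two_sum_Ico (P : ℕ) [NeZero P] (τ : ℤ) (f : ZMod P → ℝ) :
    ∑ t ∈ Finset.Ico τ (τ + P), f (t : ZMod P) = ∑ a : ZMod P, f a := by
  refine Finset.sum_bij' (fun t _ => (t : ZMod P))
    (fun a _ => τ + ((a - (τ : ZMod P)).val : ℤ)) ?_ ?_ ?_ ?_ ?_
  · intros; exact Finset.mem_univ _
  · intro a _
    rw [Finset.mem_Ico]
    have := ZMod.val_lt (a - (τ : ZMod P))
    constructor <;> omega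
  · intro t ht
    rw [Finset.mem_Ico] at ht
    have h1 : ((t : ZMod P) - (τ : ZMod P)) = ((t - τ : ℤ) : ZMod P) := by push_cast; ring
    simp only [h1]
    rw [ZMod.val_intCast, Int.emod_eq_of_lt (by omega) (by omega)]
    ring
  · intro a _
    push_cast
    rw [ZMod.natCast_zmod_val]
    ring
  · intros; rfl

private theorem two_sum_range (g n : ℕ) (f : ℕ → ℝ) (hf : ∀ k, f (k + g) = f k) :
    ∑ k ∈ Finset.range (g * n), f k = n * ∑ k ∈ Finset.range g, f k := by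
  have hf' : ∀ m k, f (g * m + k) = f k := by
    intro m
    induction m with
    | zero => intro k; simp
    | succ m ih =>
      intro k
      rw [show g * (m + 1) + k = (g * m + k) + g by ring, hf, ih]
  induction n with
  | zero => simp
  | succ n ih =>
    rw [Nat.mul_succ, Finset.sum_range_add, ih]
    simp only [hf']
    push_cast
    ring

/-- the sieve indicator depends only on the residue modulo `P` -/
private theorem two_res (P : ℕ) (P1 : Finset ℕ) (h1 : ∀ p ∈ P1, p ∣ P) (B A a a' : ℤ)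
    (h : (a : ZMod P) = (a' : ZMod P)) :
    (∀ p ∈ P1, ¬ ((p : ℤ) ∣ B * a + A)) ↔ (∀ p ∈ P1, ¬ ((p : ℤ) ∣ B * a' + A)) := by
  have h2 : (P : ℤ) ∣ a' - a := (ZMod.intCast_eq_intCast_iff_dvd_sub a a' P).mp h
  refine forall₂_congr fun p hp => not_congr ?_
  have h3 : (p : ℤ) ∣ B * (a' - a) :=
    Dvd.dvd.mul_left ((Int.natCast_dvd_natCast.mpr (h1 p hp)).trans h2) B
  rw [show B * a' + A = (B * a + A) + B * (a' - a) by ring]
  exact (Int.dvd_add_left h3).symm

private noncomputable def twoInd (P : ℕ) (P1 : Finset ℕ) (B A : ℤ) (a : ZMod P) : ℝ :=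
  if ∀ p ∈ P1, ¬ ((p : ℤ) ∣ B * (a.val : ℤ) + A) then 1 else 0

private theorem twoInd_cast (P : ℕ) [NeZero P] (P1 : Finset ℕ) (h1 : ∀ p ∈ P1, p ∣ P) (B A a : ℤ) :
    twoInd P P1 B A (a : ZMod P) = if ∀ p ∈ P1, ¬ ((p : ℤ) ∣ B * a + A) then 1 else 0 := by
  unfold twoInd
  refine if_congr (two_res P P1 h1 B A _ _ ?_) rfl rfl
  rw [Int.cast_natCast, ZMod.natCast_zmod_val]

private theorem twoInd_sum (P : ℕ) [NeZero P] (P1 : Finset ℕ)
    (h1 : ∀ p ∈ P1, p.Prime ∧ p ∣ P) (B A : ℤ) (hB : ∀ p ∈ P1, ¬ ((p : ℤ) ∣ B)) :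
    ∑ a : ZMod P, twoInd P P1 B A a = P * ∏ p ∈ P1, (1 - 1 / (p : ℝ)) := by
  rw [← count_exact P1 (fun p hp => (h1 p hp).1) P (Nat.pos_of_ne_zero (NeZero.ne P))
    (fun p hp => (h1 p hp).2) B A hB 0, ← two_sum_Ico P 0, Finset.card_filter]
  push_cast
  exact Finset.sum_congr rfl fun t _ => twoInd_cast P P1 (fun p hp => (h1 p hp).2) B A t

theorem two_sided (g u v P : ℕ) (hg : 0 < g) (hP : 0 < P) (x y : ℤ)
    (hxy : (v : ℤ) * x - (u : ℤ) * y = 1) (P1 P2 : Finset ℕ)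
    (h1 : ∀ p ∈ P1, p.Prime ∧ p ∣ P ∧ p ∣ g * u) (h2 : ∀ p ∈ P2, p.Prime ∧ p ∣ P ∧ p ∣ g * v)
    (B1 A1 B2 A2 : ℤ) (hB1 : ∀ p ∈ P1, ¬ ((p : ℤ) ∣ B1)) (hB2 : ∀ p ∈ P2, ¬ ((p : ℤ) ∣ B2))
    (τ : ℤ) :
    ∑ t ∈ Finset.Ico τ (τ + P), (((Finset.range g).filter (fun k : ℕ =>
        (∀ p ∈ P1, ¬ ((p : ℤ) ∣ B1 * (t * x + k * u) + A1)) ∧
        (∀ p ∈ P2, ¬ ((p : ℤ) ∣ B2 * (t * y + k * v) + A2)))).card : ℝ)
      = g * P * (∏ p ∈ P1, (1 - 1 / (p : ℝ))) * ∏ p ∈ P2, (1 - 1 / (p : ℝ)) := by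
  have : NeZero P := ⟨hP.ne'⟩
  have hd1 : ∀ p ∈ P1, p ∣ P := fun p hp => (h1 p hp).2.1
  have hd2 : ∀ p ∈ P2, p ∣ P := fun p hp => (h2 p hp).2.1
  -- the terms
  set F : ZMod P → ZMod P → ℝ := fun t k =>
    twoInd P P1 B1 A1 (t * x + k * u) * twoInd P P2 B2 A2 (t * y + k * v) with hF
  have hterm : ∀ (t : ℤ) (k : ℕ), F t (k : ZMod P) =
      if ((∀ p ∈ P1, ¬ ((p : ℤ) ∣ B1 * (t * x + k * u) + A1)) ∧
        (∀ p ∈ P2, ¬ ((p : ℤ) ∣ B2 * (t * y + k * v) + A2))) then 1 else 0 := by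
    intro t k
    have e1 : ((t : ZMod P) * x + (k : ZMod P) * u) = ((t * x + k * u : ℤ) : ZMod P) := by
      push_cast; ring
    have e2 : ((t : ZMod P) * y + (k : ZMod P) * v) = ((t * y + k * v : ℤ) : ZMod P) := by
      push_cast; ring
    rw [hF]
    simp only [e1, e2]
    rw [twoInd_cast P P1 hd1, twoInd_cast P P2 hd2]
    by_cases a1 : ∀ p ∈ P1, ¬ ((p : ℤ) ∣ B1 * (t * x + k * u) + A1)
    · by_cases a2 : ∀ p ∈ P2, ¬ ((p : ℤ) ∣ B2 * (t * y + k * v) + A2)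
      · rw [if_pos a1, if_pos a2, if_pos ⟨a1, a2⟩, mul_one]
      · rw [if_pos a1, if_neg a2, if_neg (fun h => a2 h.2), mul_zero]
    · rw [if_neg a1, zero_mul, if_neg (fun h => a1 h.1)]
  have hcard : ∀ t : ℤ, (((Finset.range g).filter (fun k : ℕ =>
        (∀ p ∈ P1, ¬ ((p : ℤ) ∣ B1 * (t * x + k * u) + A1)) ∧
        (∀ p ∈ P2, ¬ ((p : ℤ) ∣ B2 * (t * y + k * v) + A2)))).card : ℝ)
      = ∑ k ∈ Finset.range g, F t (k : ZMod P) := by
    intro t
    rw [Finset.card_filter]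
    push_cast
    exact Finset.sum_congr rfl fun k _ => (hterm t k).symm
  -- periodicity in `k` modulo `g`
  have hper : ∀ (t : ℤ) (k : ℕ), F t ((k + g : ℕ) : ZMod P) = F t (k : ZMod P) := by
    intro t k
    rw [hterm, hterm]
    refine if_congr (and_congr ?_ ?_) rfl rfl
    · refine forall₂_congr fun p hp => not_congr ?_
      have h3 : (p : ℤ) ∣ B1 * (g * u : ℕ) :=
        Dvd.dvd.mul_left (Int.natCast_dvd_natCast.mpr (h1 p hp).2.2) B1
      rw [show B1 * (t * x + ((k + g : ℕ) : ℤ) * u) + A1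
        = (B1 * (t * x + k * u) + A1) + B1 * (g * u : ℕ) by push_cast; ring]
      exact Int.dvd_add_left h3
    · refine forall₂_congr fun p hp => not_congr ?_
      have h3 : (p : ℤ) ∣ B2 * (g * v : ℕ) :=
        Dvd.dvd.mul_left (Int.natCast_dvd_natCast.mpr (h2 p hp).2.2) B2
      rw [show B2 * (t * y + ((k + g : ℕ) : ℤ) * v) + A2
        = (B2 * (t * y + k * v) + A2) + B2 * (g * v : ℕ) by push_cast; ring]
      exact Int.dvd_add_left h3
  have hperP : ∀ (t : ℤ) (k : ℕ), F t ((k + P : ℕ) : ZMod P) = F t (k : ZMod P) := by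
    intro t k
    push_cast
    rw [ZMod.natCast_self, add_zero]
  have hk : ∀ t : ℤ, (P : ℝ) * ∑ k ∈ Finset.range g, F t (k : ZMod P)
      = g * ∑ k : ZMod P, F t k := by
    intro t
    rw [← two_sum_range g P (fun k => F t (k : ZMod P)) (hper t), mul_comm g P,
      two_sum_range P g (fun k => F t (k : ZMod P)) (hperP t)]
    congr 1
    rw [← two_sum_Ico P 0 (fun k => F t k)]
    refine Finset.sum_bij' (fun k _ => (k : ℤ)) (fun k _ => k.toNat) ?_ ?_ ?_ ?_ ?_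
    · intro k hk; rw [Finset.mem_range] at hk; rw [Finset.mem_Ico]; constructor <;> omega
    · intro k hk; rw [Finset.mem_Ico] at hk; rw [Finset.mem_range]; omega
    · intro k _; simp
    · intro k hk; rw [Finset.mem_Ico] at hk; exact Int.toNat_of_nonneg hk.1
    · intro k _; simp
  -- the two dimensional sum
  have h2d : ∑ t : ZMod P, ∑ k : ZMod P, F t k
      = (∑ a : ZMod P, twoInd P P1 B1 A1 a) * ∑ b : ZMod P, twoInd P P2 B2 A2 b := by
    rw [Finset.sum_mul_sum, ← Finset.sum_product', ← Finset.sum_product']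
    have hdet : (v : ZMod P) * x - (u : ZMod P) * y = 1 := by
      have := congrArg (fun z : ℤ => (z : ZMod P)) hxy
      push_cast at this
      exact this
    refine Finset.sum_bij' (fun z _ => (z.1 * (x : ZMod P) + z.2 * u, z.1 * (y : ZMod P) + z.2 * v))
      (fun z _ => ((v : ZMod P) * z.1 - u * z.2, -(y : ZMod P) * z.1 + x * z.2)) ?_ ?_ ?_ ?_ ?_
    · intros; simp
    · intros; simp
    · rintro ⟨t, k⟩ _
      refine Prod.ext ?_ ?_
      · simp only []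
        linear_combination t * hdet
      · simp only []
        linear_combination k * hdet
    · rintro ⟨a, b⟩ _
      refine Prod.ext ?_ ?_
      · simp only []
        linear_combination a * hdet
      · simp only []
        linear_combination b * hdet
    · rintro ⟨t, k⟩ _
      rfl
  have hmain : (P : ℝ) * ∑ t ∈ Finset.Ico τ (τ + P), ∑ k ∈ Finset.range g, F t (k : ZMod P)
      = (P : ℝ) * (g * P * (∏ p ∈ P1, (1 - 1 / (p : ℝ))) * ∏ p ∈ P2, (1 - 1 / (p : ℝ))) := by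
    rw [Finset.mul_sum, Finset.sum_congr rfl fun t _ => hk t, ← Finset.mul_sum,
      two_sum_Ico P τ (fun t => ∑ k : ZMod P, F t k), h2d,
      twoInd_sum P P1 (fun p hp => ⟨(h1 p hp).1, (h1 p hp).2.1⟩) B1 A1 hB1,
      twoInd_sum P P2 (fun p hp => ⟨(h2 p hp).1, (h2 p hp).2.1⟩) B2 A2 hB2]
    ring
  rw [Finset.sum_congr rfl fun t _ => hcard t]
  exact mul_left_cancel₀ (by exact_mod_cast hP.ne') hmain

end Vale.Agent.P028EV
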